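import Mathlib
import Vale.Agent.P186.TG
import Vale.Agent.P186.SCDef

namespace Vale.Agent.P201
open Vale.Agent.P186 Equiv

/-- closed reduced van Kampen map over the labelled graph `T` -/
structure CMap {P V : Type} (T : TG P V) where
  D : Type
  fin : Finite D
  φ : Perm D
  ε : Perm D
  lab : D → P
  ρ : D → V
  εε : ∀ d, ε (ε d) = d
  lab_ε : ∀ d, lab (ε d) = T.bar (lab d)
  inL : ∀ d, T.L (ρ d) (lab d)
  inNx : ∀ d, ρ (φ d) = T.nx (ρ d) (lab d)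
  sc : SC φ ε
  red1 : ∀ d, ρ (ε d) ≠ T.nx (ρ d) (lab d)
  red2 : ∀ d, lab (φ d) ≠ T.bar (lab d)

/-- no nonempty closed reduced map -/
def Asph {P V : Type} (T : TG P V) : Prop := ∀ M : CMap T, IsEmpty M.D

/-- no `K_7` minor -/
def NoK7 {ι : Type} (G : SimpleGraph ι) : Prop :=
  ¬ ∃ B : Fin 7 → Set ι, (∀ i, (G.induce (B i)).Connected) ∧
    (∀ i j, i ≠ j → Disjoint (B i) (B j)) ∧ ∀ i j, i ≠ j → ∃ u ∈ B i, ∃ v ∈ B j, G.Adj u v

/-- typing data: labels, vertex types, colours and the counts used in the first moment bound -/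
structure Des (P V I : Type) where
  bar : P → P
  L : V → P → Prop
  col : V → I
  τ : I → P → I
  wl : P → Prop
  W : V → Prop
  np : ℕ
  mp : ℕ
  mm : ℕ
  bar_bar : ∀ s, bar (bar s) = s
  bar_ne : ∀ s, bar s ≠ s
  τ_τ : ∀ i s, τ (τ i s) (bar s) = i
  wl_bar : ∀ s, wl s → ¬ wl (bar s)
  L_W : ∀ v s, L v s → (wl s ↔ W v)
  card_wl : Nat.card {s // wl s} = 3
  card_P : Nat.card P = 24
  deg : ∀ a, Nat.card {s // L a s} ≤ 5
  bal : ∀ i s, Nat.card {a // col a = i ∧ L a s} = Nat.card {a // col a = τ i s ∧ L a (bar s)}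
  two : ∀ i s t, s ≠ t → ¬ wl s → Nat.card {v // col v = i ∧ L v s ∧ L v t} ≤ np
  one : ∀ i s, Nat.card {v // col v = i ∧ L v s} ≤ mp
  big : ∀ a s, L a s → mm ≤ Nat.card {b // col b = col a ∧ L b s}
  np_pos : 0 < np
  np_le : np ≤ mp
  mp_le : mp ≤ 6 * np
  card_V : Nat.card V ≤ 200 * np

/-- the graph `T` realises the typing data -/
def Des.Fits {P V I : Type} (Ds : Des P V I) (T : TG P V) : Prop :=
  T.bar = Ds.bar ∧ T.L = Ds.L ∧ ∀ a s, Ds.L a s → Ds.col (T.nx a s) = Ds.τ (Ds.col a) s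

/-- affine continuation of a pointer -/
def step : Option ((ℕ × ℕ) × Bool) → Option ((ℕ × ℕ) × Bool)
  | none => none
  | some ((a, i), true) => some ((a, i + 1), true)
  | some ((a, i), false) => some ((a, i - 1), false)

/-- a family of distinct edges of `T` laid out on `S` rows of length `ℓ`, forming paths with
piecewise affine label coincidences, with at most `κ` breaks -/
structure Cfg {P V : Type} (T : TG P V) (S ℓ κ : ℕ) where
  R : Finset (ℕ × ℕ)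
  x : ℕ × ℕ → V
  s : ℕ × ℕ → P
  ptr : ℕ × ℕ → Option ((ℕ × ℕ) × Bool)
  Bk : Finset (ℕ × ℕ)
  box : ∀ k ∈ R, k.1 < S ∧ k.2 < ℓ
  card_Bk : Bk.card ≤ κ
  hL : ∀ k ∈ R, T.L (x k) (s k)
  dist : ∀ k ∈ R, ∀ k' ∈ R, k ≠ k' →
    (x k, s k) ≠ (x k', s k') ∧ (T.nx (x k) (s k), T.bar (s k)) ≠ (x k', s k')
  linkR : ∀ a i, (a, i) ∉ Bk → ((a, i) ∈ R ↔ (a, i + 1) ∈ R)
  link : ∀ a i, (a, i) ∉ Bk → (a, i) ∈ R → x (a, i + 1) = T.nx (x (a, i)) (s (a, i)) ∧
    s (a, i + 1) ≠ T.bar (s (a, i)) ∧ ptr (a, i + 1) = step (ptr (a, i))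
  hptr : ∀ k ∈ R, ∀ k' b, ptr k = some (k', b) →
    k' ∈ R ∧ s k = if b then s k' else T.bar (s k')
  wf : WellFounded fun k' k => k ∈ R ∧ ∃ b, ptr k = some (k', b)

open Classical in
/-- the entropy inequality satisfied by all configurations of the random graph -/
def Q {P V I : Type} (Ds : Des P V I) (T : TG P V) (S ℓ κ : ℕ) (m' Λ A : ℝ) : Prop :=
  ∀ c : Cfg T S ℓ κ, (c.R.card : ℝ) * (Real.log m' - Real.log Λ) ≤
    ∑ v ∈ c.R.image c.x ∪ c.R.image (fun k => T.nx (c.x k) (c.s k)),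
        (Real.log (if Ds.W v then Ds.mp else Ds.np) - Real.log Λ) +
      ∑ k ∈ c.R.filter (fun k => c.ptr k = none),
        (if Ds.wl (c.s k) ∨ Ds.wl (Ds.bar (c.s k)) then 1 / 2 else 1) * Real.log 24 + A

/-- a piece of a reduced map: at most `S` segments of length at most `ℓ`, glued in pairs -/
structure Piece {P V : Type} (T : TG P V) (S ℓ : ℕ) where
  U : Type
  fin : Finite U
  v : U → V
  s : U → P
  ε : U → U
  pos : U → ℕ × ℕ
  nxt : U → Option U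
  hL : ∀ d, T.L (v d) (s d)
  εε : ∀ d, ε (ε d) = d
  s_ε : ∀ d, s (ε d) = T.bar (s d)
  red1 : ∀ d, v (ε d) ≠ T.nx (v d) (s d)
  pos_inj : Function.Injective pos
  box : ∀ d, (pos d).1 < S ∧ (pos d).2 < ℓ
  pred : ∀ d', 0 < (pos d').2 → ∃ d, pos d' = ((pos d).1, (pos d).2 + 1)
  link : ∀ d d', pos d' = ((pos d).1, (pos d).2 + 1) → v d' = T.nx (v d) (s d) ∧
    s d' ≠ T.bar (s d) ∧ pos (ε d) = ((pos (ε d')).1, (pos (ε d')).2 + 1)
  nxt_inj : ∀ d d' e, nxt d = some e → nxt d' = some e → d = d'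
  nxt_link : ∀ d e, nxt d = some e → v e = T.nx (v d) (s d) ∧ s e ≠ T.bar (s d)

/-- local isoperimetric inequality for pieces -/
def LS {P V : Type} (T : TG P V) (S ℓ : ℕ) (η B1 B2 : ℝ) : Prop :=
  ∀ p : Piece T S ℓ, η * Nat.card p.U ≤ Nat.card {d // p.nxt d = none} * B1 + B2

end Vale.Agent.P201
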