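import Vale.Agent.P186.VKGroup

set_option linter.unusedSimpArgs false

namespace Vale.Agent.P201
open Vale.Agent.P186 Equiv

theorem finsum_two {D D' Z : Type} [Finite D] [AddCommGroup Z] (ι : D' → D)
    (hι : Function.Injective ι) {x y : D} (hxy : x ≠ y)
    (hr : ∀ d, (d ≠ x ∧ d ≠ y) ↔ ∃ e, ι e = d) (F : D → Z) :
    ∑ᶠ d, F d = F x + F y + ∑ᶠ e, F (ι e) := by
  classical
  have := Finite.of_injective ι hι
  have := Fintype.ofFinite D
  have := Fintype.ofFinite D'
  rw [finsum_eq_sum_of_fintype, finsum_eq_sum_of_fintype]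
  have e : (Finset.univ : Finset D) = insert x (insert y (Finset.univ.image ι)) := by
    ext d
    simp only [Finset.mem_univ, Finset.mem_insert, Finset.mem_image, true_and, true_iff, ← hr]
    tauto
  rw [e, Finset.sum_insert, Finset.sum_insert, Finset.sum_image (fun a _ b _ h => hι h), add_assoc]
  · simp [← hr]
  · simp [← hr, hxy]

variable {A W G Z : Type} {T : TG A W} [Group G] [AddCommGroup Z]

/-- `ψ` places the darts of the map in the Cayley graph -/
def Integ (ev : A → G) {w : List A} (M : VK T w) (ψ : M.D → G) : Prop :=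
  ∀ d, ψ (M.φ d) = ψ d * ev (M.lab d) ∧ ψ (M.ε d) = ψ d * ev (M.lab d)

/-- weight of a dart -/
noncomputable def wt (γ : W → G) (Ω : G → W → A → Z) {w : List A} (M : VK T w) (ψ : M.D → G)
    (d : M.D) : Z :=
  @ite Z (d ∈ M.out) (Classical.propDecidable _) 0 (Ω (ψ d * (γ (M.ρ d))⁻¹) (M.ρ d) (M.lab d))

/-- the word `w` based at `x0` has a filling on which the cochain `Ω` takes the value `z` -/
def Ch (T : TG A W) (ev : A → G) (γ : W → G) (Ω : G → W → A → Z) (x0 : G) (w : List A) (z : Z) :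
    Prop :=
  ∃ (M : VK T w) (ψ : M.D → G), Integ ev M ψ ∧ (∀ d, M.out.head? = some d → ψ d = x0) ∧
    ∑ᶠ d, wt γ Ω M ψ d = z

variable {ev : A → G} {γ : W → G} {Ω : G → W → A → Z}

theorem wt_step {w w' : List A} (M : VK T w) (M' : VK T w') (ψ : M.D → G) (ι : M'.D → M.D)
    (hι : Function.Injective ι) {x y : M.D} (hxy : x ≠ y)
    (hr : ∀ d, (d ≠ x ∧ d ≠ y) ↔ ∃ e, ι e = d) (h4 : ∀ d, M'.lab d = M.lab (ι d))
    (h5 : ∀ d, M'.ρ d = M.ρ (ι d)) (h6 : ∀ d, d ∈ M'.out ↔ ι d ∈ M.out)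
    (h0 : wt γ Ω M ψ x + wt γ Ω M ψ y = 0) :
    ∑ᶠ d, wt γ Ω M' (ψ ∘ ι) d = ∑ᶠ d, wt γ Ω M ψ d := by
  rw [finsum_two ι hι hxy hr, h0, zero_add]
  congr 1
  funext d
  by_cases hd : d ∈ M'.out
  · simp only [wt, if_pos hd, if_pos ((h6 d).1 hd)]
  · simp only [wt, if_neg hd, if_neg (mt (h6 d).2 hd), h4, h5, Function.comp]

theorem wt_cancel (hγ : ∀ v a, T.L v a → γ (T.nx v a) = γ v * ev a)
    (hΩ : ∀ c v a, T.L v a → Ω c (T.nx v a) (T.bar a) = -Ω c v a) {w : List A} (M : VK T w)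
    (ψ : M.D → G) {x y : M.D} (hx : x ∉ M.out) (hy : y ∉ M.out) (h1 : ψ y = ψ x * ev (M.lab x))
    (h2 : M.ρ y = T.nx (M.ρ x) (M.lab x)) (h3 : M.lab y = T.bar (M.lab x)) :
    wt γ Ω M ψ x + wt γ Ω M ψ y = 0 := by
  have hL := M.inL x hx
  simp only [wt, if_neg hx, if_neg hy]
  rw [h1, h2, h3, hΩ _ _ _ hL, hγ _ _ hL]
  simp

theorem fold_ch (hev : ∀ a, ev (T.bar a) = (ev a)⁻¹) {w : List A} (M : VK T w) (ψ : M.D → G)
    (hψ : Integ ev M ψ) (x y : M.D) (hxy : M.φ x = y) (hlab : M.lab y = T.bar (M.lab x))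
    (l : List M.D) (hl : M.out = x :: y :: l ∨ (x ∉ M.out ∧ l = M.out))
    (h0 : wt γ Ω M ψ x + wt γ Ω M ψ y = 0) :
    ∃ (M' : VK T (l.map M.lab)) (ψ' : M'.D → G), Nat.card M'.D < Nat.card M.D ∧ Integ ev M' ψ' ∧
      ∑ᶠ d, wt γ Ω M' ψ' d = ∑ᶠ d, wt γ Ω M ψ d := by
  obtain ⟨M', ι, k1, k2, k3, k4, k5, k6, k7⟩ := M.fold x y hxy hlab l hl
  have hne : x ≠ y := by
    rintro rfl
    exact T.bar_ne _ hlab.symm
  have ey : ψ y = ψ x * ev (M.lab x) := by rw [← hxy, (hψ x).1]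
  refine ⟨M', ψ ∘ ι, k1, fun d => ?_, wt_step M M' ψ ι k2 hne k3 k4 k5 (fun d => ?_) h0⟩
  · have := k7 G ψ (by rw [(hψ y).1, ey, hlab, hev]; simp) (by rw [(hψ y).2, ey, hlab, hev]; simp)
      (by rw [(hψ x).2, ey]) d
    simp only [Function.comp, this.1, this.2, k4]
    exact hψ _
  · have hd := (k3 (ι d)).2 ⟨d, rfl⟩
    rw [← List.mem_map_of_injective k2, k6]
    rcases hl with hl | hl
    · rw [hl]; simp [hd.1, hd.2]
    · rw [hl.2]

theorem closed_zero (hev : ∀ a, ev (T.bar a) = (ev a)⁻¹)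
    (hγ : ∀ v a, T.L v a → γ (T.nx v a) = γ v * ev a)
    (hΩ : ∀ c v a, T.L v a → Ω c (T.nx v a) (T.bar a) = -Ω c v a)
    (hA : ∀ M : VK T [], M.Reduced → IsEmpty M.D) {w : List A} (M : VK T w) (hw : w = [])
    (ψ : M.D → G) (hψ : Integ ev M ψ) : ∑ᶠ d, wt γ Ω M ψ d = 0 := by
  induction h : Nat.card M.D using Nat.strong_induction_on generalizing w M with
  | _ n ih =>
    subst hw
    have ho : M.out = [] := List.map_eq_nil_iff.1 M.out_lab
    have hn : ∀ d, d ∉ M.out := by simp [ho]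
    by_cases hr : M.Reduced
    · have := hA M hr
      exact finsum_of_isEmpty _
    rw [VK.Reduced, not_and_or] at hr
    rcases hr with hr | hr
    · push Not at hr
      obtain ⟨d, h1, h2, h3⟩ := hr
      obtain ⟨M', ι, k1, k2, k3, k4, k5, k6, k7⟩ := M.delete d h1 h2 h3
      have ho' : M'.out = [] := List.map_eq_nil_iff.1 M'.out_lab
      rw [← wt_step M M' ψ ι k2 (M.ε_ne d).symm k3 k4 k5 (by simp [ho, ho'])
        (wt_cancel hγ hΩ M ψ h1 h2 (hψ d).2 h3 (M.lab_ε d))]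
      refine ih _ (h ▸ k1) M' rfl _ (fun e => ?_) rfl
      have := k7 G ψ (fun d => by rw [(hψ d).1, (hψ d).2]) e
      simp only [Function.comp, this.1, this.2, k4]
      exact hψ _
    · push Not at hr
      obtain ⟨d, h1, h2⟩ := hr
      obtain ⟨M', ψ', k1, k2, k3⟩ := fold_ch (γ := γ) (Ω := Ω) hev M ψ hψ d (M.φ d) rfl h2 M.out
        (Or.inr ⟨h1, rfl⟩) (wt_cancel hγ hΩ M ψ h1 (hn _) (hψ d).1 (M.inNx d h1) h2)
      rw [← k3]
      exact ih _ (h ▸ k1) M' M.out_lab _ k2 rfl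

theorem Ch.mk' {w : List A} (M : VK T w) (ψ : M.D → G) (hψ : Integ ev M ψ) :
    ∃ x0, Ch T ev γ Ω x0 w (∑ᶠ d, wt γ Ω M ψ d) := by
  cases h : M.out.head? with
  | none => exact ⟨1, M, ψ, hψ, by simp [h], rfl⟩
  | some e => exact ⟨ψ e, M, ψ, hψ, by simp [h], rfl⟩

theorem Ch.del (hev : ∀ a, ev (T.bar a) = (ev a)⁻¹) {x0 : G} {a : A} {w : List A} {z : Z}
    (h : Ch T ev γ Ω x0 (a :: T.bar a :: w) z) : ∃ x1, Ch T ev γ Ω x1 w z := by
  obtain ⟨M, ψ, hψ, -, rfl⟩ := h
  have h := M.out_lab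
  obtain ⟨x, l1, e1, hx, h⟩ := List.map_eq_cons_iff.1 h
  obtain ⟨y, l, e2, hy, h3⟩ := List.map_eq_cons_iff.1 h
  subst e2
  have h0 := M.out_φ
  rw [e1] at h0
  simp only [List.map_cons, List.rotate_cons_succ, List.rotate_zero, List.cons_append,
    List.cons.injEq] at h0
  obtain ⟨M', ψ', -, k2, k3⟩ := fold_ch (γ := γ) (Ω := Ω) hev M ψ hψ x y h0.1 (by rw [hx, hy]) l
    (Or.inl e1) (by simp [wt, e1])
  have := Ch.mk' (γ := γ) (Ω := Ω) M' ψ' k2
  rwa [k3, h3] at this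

/-- rotate the outer boundary -/
def rotK {w : List A} (M : VK T w) (k : ℕ) : VK T (w.rotate k) where
  D := M.D
  fin := M.fin
  φ := M.φ
  ε := M.ε
  lab := M.lab
  ρ := M.ρ
  out := M.out.rotate k
  εε := M.εε
  lab_ε := M.lab_ε
  nodup := List.nodup_rotate.2 M.nodup
  out_lab := by rw [List.map_rotate, M.out_lab]
  out_φ := by rw [List.map_rotate, M.out_φ, List.rotate_rotate, List.rotate_rotate, add_comm]
  inL := fun d hd => M.inL d (fun h => hd (List.mem_rotate.2 h))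
  inNx := fun d hd => M.inNx d (fun h => hd (List.mem_rotate.2 h))
  sc := fun H _ lam h h1 h2 =>
    M.sc H lam h h1 (fun d _ hd => h2 d trivial (fun h => hd (List.mem_rotate.1 h)))

theorem Ch.rot1 {x0 : G} {a : A} {w : List A} {z : Z} (h : Ch T ev γ Ω x0 (a :: w) z) :
    Ch T ev γ Ω (x0 * ev a) (w ++ [a]) z := by
  obtain ⟨M, ψ, hψ, hb, rfl⟩ := h
  have e : w ++ [a] = (a :: w).rotate 1 := by simp
  rw [e]
  refine ⟨rotK M 1, ψ, hψ, fun (d : M.D) hd => ?_, ?_⟩
  · obtain ⟨x, l1, e1, hx, -⟩ := List.map_eq_cons_iff.1 M.out_lab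
    have : (M.out.rotate 1).head? = some d := hd
    rw [← M.out_φ, e1] at this
    simp only [List.map_cons, List.head?_cons, Option.some.injEq] at this
    rw [← this, (hψ x).1, hb x (by simp [e1]), hx]
  · congr 1
    funext d
    exact congrArg (fun p => @ite Z p (Classical.propDecidable _) 0 _) (propext List.mem_rotate)

theorem Ch.rot {u v : List A} {x0 : G} {z : Z} (h : Ch T ev γ Ω x0 (u ++ v) z) :
    Ch T ev γ Ω (x0 * (u.map ev).prod) (v ++ u) z := by
  induction u generalizing v x0 with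
  | nil => simpa using h
  | cons a u ih =>
    have := Ch.rot1 h
    rw [List.append_eq, List.append_assoc] at this
    simpa [mul_assoc] using ih this

theorem Ch.wedge {w1 w2 : List A} {x0 : G} {z1 z2 : Z} (hw1 : w1 ≠ []) (hw2 : w2 ≠ [])
    (c1 : Ch T ev γ Ω x0 w1 z1) (c2 : Ch T ev γ Ω x0 w2 z2) :
    Ch T ev γ Ω x0 (w1 ++ w2) (z1 + z2) := by
  classical
  obtain ⟨M1, ψ1, i1, b1, rfl⟩ := c1
  obtain ⟨M2, ψ2, i2, b2, rfl⟩ := c2
  rcases List.eq_nil_or_concat M1.out with h1 | ⟨l1, a1, h1⟩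
  · exact absurd (by rw [← M1.out_lab, h1]; rfl) hw1
  rcases List.eq_nil_or_concat M2.out with h2 | ⟨l2, a2, h2⟩
  · exact absurd (by rw [← M2.out_lab, h2]; rfl) hw2
  rw [List.concat_eq_append] at h1 h2
  have aux : ∀ {D : Type} (φ : D → D) (l : List D) (a : D), (l ++ [a]).map φ = (l ++ [a]).rotate 1 →
      l ++ [a] = φ a :: l.map φ := by
    intro D φ l a h
    obtain ⟨b, t, e⟩ : ∃ b t, l ++ [a] = b :: t := by
      cases l with
      | nil => exact ⟨_, _, rfl⟩
      | cons b t => exact ⟨_, _, rfl⟩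
    conv_rhs at h => rw [e]
    simp only [List.map_append, List.map_cons, List.map_nil, List.rotate_cons_succ,
      List.rotate_zero] at h
    have := List.append_inj' h rfl
    rw [e, this.1]
    simpa using this.2.symm
  have e1 := aux M1.φ l1 a1 (h1 ▸ M1.out_φ)
  have e2 := aux M2.φ l2 a2 (h2 ▸ M2.out_φ)
  have n1 := M1.nodup
  have n2 := M2.nodup
  have m1 : a1 ∈ M1.out := by simp [h1]
  have m2 : a2 ∈ M2.out := by simp [h2]
  have n1' : a1 ∉ l1 := by
    rw [h1] at n1; intro h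
    exact (List.nodup_append.1 n1).2.2 a1 h a1 (by simp) rfl
  have n2' : a2 ∉ l2 := by
    rw [h2] at n2; intro h
    exact (List.nodup_append.1 n2).2.2 a2 h a2 (by simp) rfl
  have q1 : ψ1 (M1.φ a1) = x0 := b1 _ (by rw [h1, e1]; rfl)
  have q2 : ψ2 (M2.φ a2) = x0 := b2 _ (by rw [h2, e2]; rfl)
  let φ : Perm (M1.D ⊕ M2.D) := Perm.sumCongr M1.φ M2.φ * swap (Sum.inl a1) (Sum.inr a2)
  have f1 : ∀ d, d ≠ a1 → φ (Sum.inl d) = Sum.inl (M1.φ d) := by
    intro d hd
    simp [φ, swap_apply_of_ne_of_ne, hd]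
  have f2 : ∀ d, d ≠ a2 → φ (Sum.inr d) = Sum.inr (M2.φ d) := by
    intro d hd
    simp [φ, swap_apply_of_ne_of_ne, hd]
  have g1 : φ (Sum.inl a1) = Sum.inr (M2.φ a2) := by simp [φ]
  have g2 : φ (Sum.inr a2) = Sum.inl (M1.φ a1) := by simp [φ]
  refine ⟨⟨M1.D ⊕ M2.D, inferInstance, φ, Perm.sumCongr M1.ε M2.ε, Sum.elim M1.lab M2.lab,
    Sum.elim M1.ρ M2.ρ, M1.out.map Sum.inl ++ M2.out.map Sum.inr, ?_, ?_, ?_, ?_, ?_, ?_, ?_, ?_⟩,
    Sum.elim ψ1 ψ2, ?_, ?_, ?_⟩
  · rintro (d | d) <;> simp [M1.εε, M2.εε]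
  · rintro (d | d) <;> simp [M1.lab_ε, M2.lab_ε]
  · rw [List.nodup_append]
    refine ⟨n1.map Sum.inl_injective, n2.map Sum.inr_injective, ?_⟩
    simp
  · simp [← M1.out_lab, ← M2.out_lab, Function.comp_def]
  · have r1 : (l1.map Sum.inl).map φ = (l1.map M1.φ).map Sum.inl := by
      rw [List.map_map, List.map_map]
      exact List.map_congr_left fun d hd => f1 d (fun h => n1' (h ▸ hd))
    have r2 : (l2.map Sum.inr).map φ = (l2.map M2.φ).map Sum.inr := by
      rw [List.map_map, List.map_map]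
      exact List.map_congr_left fun d hd => f2 d (fun h => n2' (h ▸ hd))
    conv_rhs => rw [h1, h2, e1, e2]
    rw [h1, h2]
    simp only [List.map_append, r1, r2, List.map_cons, List.map_nil, g1, g2, List.cons_append,
      List.rotate_cons_succ, List.rotate_zero, List.append_assoc, List.nil_append]
  · rintro (d | d) hd
    · exact M1.inL d (by simpa using hd)
    · exact M2.inL d (by simpa using hd)
  · rintro (d | d) hd
    · have hd' : d ∉ M1.out := by simpa using hd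
      rw [f1 d (fun h => hd' (h ▸ m1))]
      exact M1.inNx d hd'
    · have hd' : d ∉ M2.out := by simpa using hd
      rw [f2 d (fun h => hd' (h ▸ m2))]
      exact M2.inNx d hd'
  · intro H _ lam h k1 k2
    obtain ⟨p1, hp1⟩ := M1.sc H (fun d => lam (Sum.inl d)) (fun d => h (Sum.inl d))
      (fun d _ => k1 (Sum.inl d) trivial) (fun d _ hd => by
        rw [← f1 d (fun h => hd (h ▸ m1))]
        exact k2 (Sum.inl d) trivial (by simpa using hd))
    obtain ⟨p2, hp2⟩ := M2.sc H (fun d => lam (Sum.inr d)) (fun d => h (Sum.inr d))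
      (fun d _ => k1 (Sum.inr d) trivial) (fun d _ hd => by
        rw [← f2 d (fun h => hd (h ▸ m2))]
        exact k2 (Sum.inr d) trivial (by simpa using hd))
    refine ⟨Sum.elim p1 (fun d => p1 (M1.φ a1) * (p2 (M2.φ a2))⁻¹ * p2 d), ?_⟩
    rintro (d | d) _
    · refine ⟨?_, (hp1 d trivial).2⟩
      by_cases hd : d = a1
      · subst hd
        rw [g1]
        simp [← (hp1 d trivial).1]
      · rw [f1 d hd]
        exact (hp1 d trivial).1
    · constructor
      · by_cases hd : d = a2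
        · subst hd
          rw [g2]
          simp [mul_assoc, ← (hp2 d trivial).1]
        · rw [f2 d hd]
          simp [mul_assoc, (hp2 d trivial).1]
      · simp [mul_assoc, (hp2 d trivial).2]
  · rintro (d | d)
    · refine ⟨?_, (i1 d).2⟩
      show Sum.elim ψ1 ψ2 (φ (Sum.inl d)) = ψ1 d * ev (M1.lab d)
      by_cases hd : d = a1
      · subst hd
        rw [g1, ← (i1 d).1, q1, ← q2]; rfl
      · rw [f1 d hd]
        exact (i1 d).1
    · refine ⟨?_, (i2 d).2⟩
      show Sum.elim ψ1 ψ2 (φ (Sum.inr d)) = ψ2 d * ev (M2.lab d)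
      by_cases hd : d = a2
      · subst hd
        rw [g2, ← (i2 d).1, q2, ← q1]; rfl
      · rw [f2 d hd]
        exact (i2 d).1
  · intro (d : M1.D ⊕ M2.D) hd
    have : (M1.out.map Sum.inl ++ M2.out.map Sum.inr : List (M1.D ⊕ M2.D)).head? = some d := hd
    rw [h1, e1] at this
    simp only [List.map_cons, List.cons_append, List.head?_cons, Option.some.injEq] at this
    rw [← this]
    exact q1
  · have := Fintype.ofFinite M1.D
    have := Fintype.ofFinite M2.D
    show ∑ᶠ d : M1.D ⊕ M2.D, _ = _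
    rw [finsum_eq_sum_of_fintype, finsum_eq_sum_of_fintype, finsum_eq_sum_of_fintype,
      Fintype.sum_sum_type]
    congr 1
    · refine Finset.sum_congr rfl fun d _ => ?_
      exact congrArg (fun p => @ite Z p (Classical.propDecidable _) 0 _) (by simp)
    · refine Finset.sum_congr rfl fun d _ => ?_
      exact congrArg (fun p => @ite Z p (Classical.propDecidable _) 0 _) (by simp)

/-- formal inverse of a word -/
def winv (T : TG A W) (w : List A) : List A := (w.map T.bar).reverse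

theorem prod_winv (hev : ∀ a, ev (T.bar a) = (ev a)⁻¹) (w : List A) :
    ((winv T w).map ev).prod = ((w.map ev).prod)⁻¹ := by
  induction w with
  | nil => simp [winv]
  | cons a w ih =>
    simp only [winv, List.map_cons, List.reverse_cons, List.map_append, List.prod_append,
      List.prod_cons, List.map_nil, List.prod_nil, mul_one, mul_inv_rev, hev] at ih ⊢
    rw [ih]

theorem Ch.pair_zero (hev : ∀ a, ev (T.bar a) = (ev a)⁻¹)
    (hγ : ∀ v a, T.L v a → γ (T.nx v a) = γ v * ev a)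
    (hΩ : ∀ c v a, T.L v a → Ω c (T.nx v a) (T.bar a) = -Ω c v a)
    (hA : ∀ M : VK T [], M.Reduced → IsEmpty M.D) {w : List A} {x0 : G} {z : Z}
    (h : Ch T ev γ Ω x0 (w ++ winv T w) z) : z = 0 := by
  induction w generalizing x0 with
  | nil =>
    obtain ⟨M, ψ, hψ, -, rfl⟩ := h
    exact closed_zero hev hγ hΩ hA M rfl ψ hψ
  | cons a w ih =>
    have e : a :: w ++ winv T (a :: w) = (a :: (w ++ winv T w)) ++ [T.bar a] := by simp [winv]
    rw [e] at h
    have h' := h.rot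
    have e' : [T.bar a] ++ a :: (w ++ winv T w) =
        T.bar a :: T.bar (T.bar a) :: (w ++ winv T w) := by simp [T.bar_bar]
    rw [e'] at h'
    obtain ⟨x1, h1⟩ := h'.del hev
    exact ih h1

theorem exists_integ (hev : ∀ a, ev (T.bar a) = (ev a)⁻¹)
    (hγ : ∀ v a, T.L v a → γ (T.nx v a) = γ v * ev a) {w : List A} (M : VK T w) (x0 : G) :
    ∃ ψ : M.D → G, Integ ev M ψ ∧ ∀ d, M.out.head? = some d → ψ d = x0 := by
  obtain ⟨f, hf⟩ := M.sc G (fun d => ev (M.lab d)) (fun d => γ (M.ρ d))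
    (fun d _ => by rw [M.lab_ε, hev]) (fun d _ hd => by rw [M.inNx d hd, hγ _ _ (M.inL d hd)])
  cases h : M.out.head? with
  | none => exact ⟨f, fun d => hf d trivial, by simp⟩
  | some e =>
    refine ⟨fun d => x0 * (f e)⁻¹ * f d, fun d => ?_, by simp⟩
    simp only [(hf d trivial).1, (hf d trivial).2, mul_assoc, and_self]

theorem Ch.unique (hev : ∀ a, ev (T.bar a) = (ev a)⁻¹)
    (hγ : ∀ v a, T.L v a → γ (T.nx v a) = γ v * ev a)
    (hΩ : ∀ c v a, T.L v a → Ω c (T.nx v a) (T.bar a) = -Ω c v a)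
    (hA : ∀ M : VK T [], M.Reduced → IsEmpty M.D) {w : List A} (hw : w ≠ [])
    (M : VK T (winv T w)) {x0 : G} {z1 z2 : Z} (h1 : Ch T ev γ Ω x0 w z1)
    (h2 : Ch T ev γ Ω x0 w z2) : z1 = z2 := by
  obtain ⟨ψ, i, b⟩ := exists_integ hev hγ M x0
  have c : Ch T ev γ Ω x0 (winv T w) _ := ⟨M, ψ, i, b, rfl⟩
  have hw' : winv T w ≠ [] := by simpa [winv] using hw
  have e1 := (h1.wedge hw hw' c).pair_zero hev hγ hΩ hA
  have e2 := (h2.wedge hw hw' c).pair_zero hev hγ hΩ hA
  exact add_right_cancel (e1.trans e2.symm)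

theorem walk_out {D : Type} (φ : D → D) (lab : D → A) (ψ : D → G)
    (h : ∀ d, ψ (φ d) = ψ d * ev (lab d)) (t : List D) (a z : D)
    (e : (a :: t).map φ = t ++ [z]) : ψ z = ψ a * (((a :: t).map lab).map ev).prod := by
  induction t generalizing a with
  | nil =>
    simp only [List.map_cons, List.map_nil, List.nil_append, List.cons.injEq, and_true] at e
    simp [← e, h]
  | cons b t ih =>
    simp only [List.map_cons, List.cons_append, List.cons.injEq] at e
    rw [ih b (by simpa using e.2), ← e.1, h]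
    simp [mul_assoc]

theorem prod_eq_one (hev : ∀ a, ev (T.bar a) = (ev a)⁻¹)
    (hγ : ∀ v a, T.L v a → γ (T.nx v a) = γ v * ev a) {w : List A} (M : VK T w) :
    (w.map ev).prod = 1 := by
  obtain ⟨ψ, i, -⟩ := exists_integ hev hγ M 1
  rw [← M.out_lab]
  cases h : M.out with
  | nil => simp
  | cons a t =>
    have e := M.out_φ
    rw [h, List.rotate_cons_succ, List.rotate_zero] at e
    have := walk_out M.φ M.lab ψ (fun d => (i d).1) t a a e
    exact (left_eq_mul.1 this)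

end Vale.Agent.P201
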