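import Mathlib
import Vale.Agent.P186.SCDef

namespace Vale.Agent.P201.Cluster
open Finset
open Vale.Agent.P186

variable {D N : Type} [DecidableEq D] [DecidableEq N]

/-- MacLane type planarity certificate for the multigraph with darts `S`, edge involution `ε`
and node map `node`. -/
def Mac (ε : D → D) (S : Finset D) (node : D → N) : Prop :=
  ∃ (W : Type) (v : D → W),
    (∀ f : W → ZMod 2, ∀ x, ∑ d ∈ S.filter (fun d => node d = x), (f (v d) + f (v (ε d))) = 0) ∧
    (∀ lam : D → ZMod 2, (∀ d, lam (ε d) = lam d) →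
      (∀ x, ∑ d ∈ S.filter (fun d => node d = x), lam d = 0) →
      ∃ f : W → ZMod 2, ∀ d ∈ S, node d ≠ node (ε d) → lam d = f (v d) + f (v (ε d)))

lemma z2_add_self (a : ZMod 2) : a + a = 0 := by
  have : (2 : ZMod 2) = 0 := rfl
  rw [← two_mul, this, zero_mul]

lemma z2_eq_of_add {a b : ZMod 2} (h : a + b = 0) : a = b := by
  have := z2_add_self b
  exact add_right_cancel (h.trans this.symm)

omit [DecidableEq D] in
lemma sum_sym_zero {ε : D → D} (hε : ∀ d, ε (ε d) = d) (T : Finset D) (hT : ∀ d ∈ T, ε d ∈ T)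
    (g : D → ZMod 2) (hg : ∀ d ∈ T, g (ε d) = g d) (h0 : ∀ d ∈ T, ε d = d → g d = 0) :
    ∑ d ∈ T, g d = 0 := by
  refine Finset.sum_involution (fun d _ => ε d) ?_ ?_ ?_ ?_
  · intro d hd; rw [hg d hd]; exact z2_add_self _
  · intro d hd hne he; exact hne (h0 d hd he)
  · intro d hd; exact hT d hd
  · intro d _; exact hε d

theorem Mac.delete {ε : D → D} (hε : ∀ d, ε (ε d) = d) {S S' : Finset D} {node : D → N}
    (hS : ∀ d ∈ S, ε d ∈ S) (hS' : ∀ d ∈ S', ε d ∈ S') (hsub : S' ⊆ S) (h : Mac ε S node) :
    Mac ε S' node := by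
  classical
  obtain ⟨W, v, ha, hb⟩ := h
  let r : W → W → Prop := fun a b =>
    ∃ d ∈ S, d ∉ S' ∧ node d ≠ node (ε d) ∧ a = v d ∧ b = v (ε d)
  refine ⟨Quot r, fun d => Quot.mk r (v d), ?_, ?_⟩
  · intro f x
    have h1 := ha (fun w => f (Quot.mk r w)) x
    have hsplit : S.filter (fun d => node d = x) =
        S'.filter (fun d => node d = x) ∪ (S \ S').filter (fun d => node d = x) := by
      rw [← Finset.filter_union, Finset.union_sdiff_of_subset hsub]
    have hdisj : Disjoint (S'.filter (fun d => node d = x))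
        ((S \ S').filter (fun d => node d = x)) :=
      Finset.disjoint_filter_filter Finset.disjoint_sdiff
    rw [hsplit, Finset.sum_union hdisj] at h1
    have h2 : ∑ d ∈ (S \ S').filter (fun d => node d = x),
        (f (Quot.mk r (v d)) + f (Quot.mk r (v (ε d)))) = 0 := by
      rw [← Finset.sum_filter_add_sum_filter_not _ (fun d => node d = node (ε d))]
      have e1 : ∑ d ∈ ((S \ S').filter (fun d => node d = x)).filter (fun d => node d = node (ε d)),
          (f (Quot.mk r (v d)) + f (Quot.mk r (v (ε d)))) = 0 := by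
        apply sum_sym_zero hε
        · intro d hd
          simp only [mem_filter, mem_sdiff] at hd ⊢
          refine ⟨⟨⟨hS d hd.1.1.1, fun h' => hd.1.1.2 ?_⟩, ?_⟩, ?_⟩
          · have := hS' _ h'; rwa [hε] at this
          · rw [← hd.2]; exact hd.1.2
          · rw [hε]; exact hd.2.symm
        · intro d _; rw [hε, add_comm]
        · intro d _ he; rw [he]; exact z2_add_self _
      have e2 : ∑ d ∈ ((S \ S').filter (fun d => node d = x)).filter
          (fun d => ¬ node d = node (ε d)),
          (f (Quot.mk r (v d)) + f (Quot.mk r (v (ε d)))) = 0 := by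
        apply Finset.sum_eq_zero
        intro d hd
        simp only [mem_filter, mem_sdiff] at hd
        have : Quot.mk r (v d) = Quot.mk r (v (ε d)) :=
          Quot.sound ⟨d, hd.1.1.1, hd.1.1.2, hd.2, rfl, rfl⟩
        rw [this]; exact z2_add_self _
      rw [e1, e2, add_zero]
    rw [h2, add_zero] at h1
    exact h1
  · intro lam hsym hev
    have hiff : ∀ d, ε d ∈ S' ↔ d ∈ S' := fun d =>
      ⟨fun h' => by have := hS' _ h'; rwa [hε] at this, hS' d⟩
    obtain ⟨f, hf⟩ := hb (fun d => if d ∈ S' then lam d else 0)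
      (fun d => by simp only [hiff, hsym]) (fun x => by
        rw [← Finset.sum_filter, ← hev x]
        congr 1
        ext d
        simp only [mem_filter]
        constructor
        · rintro ⟨⟨_, h2⟩, h3⟩; exact ⟨h3, h2⟩
        · rintro ⟨h1, h2⟩; exact ⟨⟨hsub h1, h2⟩, h1⟩)
    refine ⟨Quot.lift f ?_, ?_⟩
    · rintro a b ⟨d, hd, hd', hn, rfl, rfl⟩
      have := hf d hd hn
      simp only [hd', if_false] at this
      exact z2_eq_of_add this.symm
    · intro d hd hn
      have := hf d (hsub hd) hn
      simpa only [hd, if_true] using this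

/-- adjacency of nodes through a dart of `S` -/
def Adj (ε : D → D) (S : Finset D) (node : D → N) (x y : N) : Prop :=
  ∃ d ∈ S, node d = x ∧ node (ε d) = y

theorem Mac.merge [Fintype N] {ε : D → D} (hε : ∀ d, ε (ε d) = d) {S : Finset D} {node : D → N}
    (hS : ∀ d ∈ S, ε d ∈ S) (g : N → N)
    (hg : ∀ x, g x = x ∨ (Adj ε S node x (g x) ∧ g (g x) = g x)) (h : Mac ε S node) :
    Mac ε S (fun d => g (node d)) := by
  classical
  obtain ⟨W, v, ha, hb⟩ := h
  have hfib : ∀ (F : D → ZMod 2) (y : N), ∑ d ∈ S.filter (fun d => g (node d) = y), F d =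
      ∑ x ∈ univ.filter (fun x => g x = y), ∑ d ∈ S.filter (fun d => node d = x), F d := by
    intro F y
    rw [← Finset.sum_fiberwise_of_maps_to (s := S.filter (fun d => g (node d) = y))
      (t := univ.filter (fun x => g x = y)) (g := node)]
    · apply Finset.sum_congr rfl
      intro x hx
      congr 1
      ext d
      simp only [mem_filter, mem_univ, true_and] at hx ⊢
      constructor
      · rintro ⟨⟨h1, _⟩, h3⟩; exact ⟨h1, h3⟩
      · rintro ⟨h1, h2⟩; exact ⟨⟨h1, by rw [h2, hx]⟩, h2⟩
    · intro d hd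
      simp only [mem_filter, mem_univ, true_and] at hd ⊢
      exact hd.2
  refine ⟨W, v, ?_, ?_⟩
  · intro f y
    rw [hfib]
    exact Finset.sum_eq_zero (fun x _ => ha f x)
  · intro lam hsym hev
    have hch : ∀ x : {x // g x ≠ x}, ∃ d ∈ S, node d = x ∧ node (ε d) = g x := fun x =>
      ((hg x).resolve_left x.2).1
    choose e heS he1 he2 using hch
    set par : N → ZMod 2 := fun x => ∑ d ∈ S.filter (fun d => node d = x), lam d with hpar
    let cor : D → ZMod 2 := fun d => ∑ x : {x // g x ≠ x},
      par x * ((if d = e x then 1 else 0) + (if d = ε (e x) then 1 else 0))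
    have hinj : ∀ a b, ε a = ε b ↔ a = b := fun a b =>
      ⟨fun h' => by rw [← hε a, h', hε], fun h' => by rw [h']⟩
    have hsw : ∀ a b, ε a = b ↔ a = ε b := fun a b =>
      ⟨fun h' => by rw [← h', hε], fun h' => by rw [h', hε]⟩
    obtain ⟨f, hf⟩ := hb (fun d => lam d + cor d)
      (fun d => by
        simp only [cor, hsym, hinj, hsw d]
        congr 1
        exact Finset.sum_congr rfl (fun x _ => by rw [add_comm]))
      (fun y => by
        rw [Finset.sum_add_distrib]
        have hc : ∑ d ∈ S.filter (fun d => node d = y), cor d = ∑ x : {x // g x ≠ x},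
            par x * ((if (x : N) = y then 1 else 0) + (if g x = y then 1 else 0)) := by
          simp only [cor]
          rw [Finset.sum_comm]
          refine Finset.sum_congr rfl (fun x _ => ?_)
          rw [← Finset.mul_sum, Finset.sum_add_distrib, Finset.sum_ite_eq', Finset.sum_ite_eq']
          simp only [mem_filter, heS x, hS _ (heS x), true_and, he1 x, he2 x]
        rw [hc]
        change par y + _ = 0
        simp only [mul_add, Finset.sum_add_distrib, mul_ite, mul_one, mul_zero]
        by_cases hy : g y = y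
        · have h1 : ∑ x : {x // g x ≠ x}, (if (x : N) = y then par x else 0) = 0 :=
            Finset.sum_eq_zero (fun x _ => if_neg (fun h' => x.2 (by rw [h']; exact hy)))
          have h2 := hev y
          rw [hfib] at h2
          change ∑ x ∈ univ.filter (fun x => g x = y), par x = 0 at h2
          rw [h1, zero_add]
          refine Eq.trans ?_ h2
          rw [← Finset.sum_subtype (p := fun x => g x ≠ x) (univ.filter (fun x => g x ≠ x)) (by simp)
            (fun x => if g x = y then par x else 0), ← Finset.sum_filter]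
          rw [← Finset.add_sum_erase (univ.filter (fun x => g x = y)) par (a := y) (by simp [hy])]
          congr 1
          apply Finset.sum_congr _ (fun _ _ => rfl)
          ext x
          simp only [mem_filter, mem_univ, true_and, mem_erase]
          constructor
          · rintro ⟨h3, h4⟩; exact ⟨fun h5 => h3 (by rw [h5]; exact hy), h4⟩
          · rintro ⟨h3, h4⟩; exact ⟨fun h5 => h3 (by rw [← h5]; exact h4), h4⟩
        · have h1 : ∑ x : {x // g x ≠ x}, (if g x = y then par x else 0) = 0 :=
            Finset.sum_eq_zero (fun x _ => if_neg (fun h' => hy (by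
              rw [← h']; exact ((hg x).resolve_left x.2).2)))
          have h2 : ∑ x : {x // g x ≠ x}, (if (x : N) = y then par x else 0) = par y := by
            rw [Finset.sum_eq_single ⟨y, hy⟩]
            · simp
            · intro b _ hb'
              exact if_neg (fun h' => hb' (Subtype.ext h'))
            · simp
          rw [h1, h2, add_zero]
          exact z2_add_self _)
    refine ⟨f, fun d hd hn => ?_⟩
    have hn' : node d ≠ node (ε d) := fun h' => hn (by simp only [h'])
    have h0 : cor d = 0 := by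
      refine Finset.sum_eq_zero (fun x _ => ?_)
      have hgg := ((hg x).resolve_left x.2).2
      rw [if_neg, if_neg, add_zero, mul_zero]
      · rintro rfl
        apply hn
        simp only [hε, he1 x, he2 x, hgg]
      · rintro rfl
        apply hn
        simp only [he1 x, he2 x, hgg]
    have := hf d hd hn'
    simpa only [h0, add_zero] using this

omit [DecidableEq D] in
lemma exists_orient [Fintype D] {ε : D → D} (hε : ∀ d, ε (ε d) = d) {S : Finset D}
    (hS : ∀ d ∈ S, ε d ∈ S) (hne : ∀ d ∈ S, ε d ≠ d) :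
    ∃ O : Finset D, O ⊆ S ∧ (∀ d ∈ S, d ∈ O ↔ ε d ∉ O) ∧ S.card = 2 * O.card := by
  classical
  let k := Fintype.equivFin D
  refine ⟨S.filter (fun d => k d < k (ε d)), Finset.filter_subset _ _, ?_, ?_⟩
  · intro d hd
    simp only [mem_filter, hd, hS d hd, true_and, hε, not_lt]
    constructor
    · exact le_of_lt
    · intro h
      exact lt_of_le_of_ne h (fun h' => hne d hd (k.injective h').symm)
  · have h1 := Finset.card_filter_add_card_filter_not (s := S) (fun d => k d < k (ε d))
    have h2 : (S.filter (fun d => ¬ k d < k (ε d))).card =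
        (S.filter (fun d => k d < k (ε d))).card := by
      apply Finset.card_bij (fun d _ => ε d)
      · intro d hd
        simp only [mem_filter, not_lt] at hd ⊢
        refine ⟨hS d hd.1, ?_⟩
        rw [hε]
        exact lt_of_le_of_ne hd.2 (fun h' => hne d hd.1 (k.injective h'))
      · intro a _ b _ h
        rw [← hε a, h, hε]
      · intro b hb
        simp only [mem_filter, not_lt] at hb ⊢
        exact ⟨ε b, ⟨hS b hb.1, by rw [hε]; exact le_of_lt hb.2⟩, hε b⟩
    omega

theorem Mac.sparse [Fintype D] {ε : D → D} (hε : ∀ d, ε (ε d) = d) {S : Finset D} {node : D → N}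
    (hS : ∀ d ∈ S, ε d ∈ S) (hl : ∀ d ∈ S, node d ≠ node (ε d))
    (hs : ∀ d ∈ S, ∀ d' ∈ S, node d = node d' → node (ε d) = node (ε d') → d = d')
    (U : Finset N) (hU : ∀ d ∈ S, node d ∈ U) (h : Mac ε S node) : S.card ≤ 6 * U.card := by
  classical
  obtain ⟨W, v, ha, hb⟩ := h
  have hne : ∀ d ∈ S, ε d ≠ d := fun d hd he => hl d hd (by rw [he])
  obtain ⟨O, hOS, hO, hcard⟩ := exists_orient hε hS hne
  -- supports of the generators
  let c : W → D → ZMod 2 := fun w d => (if v d = w then 1 else 0) + (if v (ε d) = w then 1 else 0)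
  let T : W → Finset D := fun w => S.filter (fun d => c w d ≠ 0)
  have hcsym : ∀ w d, c w (ε d) = c w d := fun w d => by simp only [c, hε, add_comm]
  have hcev : ∀ w x, ∑ d ∈ S.filter (fun d => node d = x), c w d = 0 := fun w x =>
    ha (fun u => if u = w then 1 else 0) x
  have hother : ∀ w, ∀ d ∈ T w, ∃ d' ∈ T w, d' ≠ d ∧ node d' = node d := by
    intro w d hd
    by_contra hcon
    push Not at hcon
    have h1 := hcev w (node d)
    have hd' := Finset.mem_filter.1 hd
    rw [Finset.sum_eq_single d] at h1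
    · exact hd'.2 h1
    · intro b hb' hbd
      by_contra h0
      have hb2 := Finset.mem_filter.1 hb'
      exact hcon b (Finset.mem_filter.2 ⟨hb2.1, h0⟩) hbd hb2.2
    · intro h0
      exact absurd (by simp [hd'.1]) h0
  have hTε : ∀ w, ∀ d ∈ T w, ε d ∈ T w := fun w d hd => by
    have hd' := Finset.mem_filter.1 hd
    exact Finset.mem_filter.2 ⟨hS d hd'.1, by rw [hcsym]; exact hd'.2⟩
  have hT6 : ∀ w, (T w).Nonempty → 6 ≤ (T w).card := by
    rintro w ⟨d, hd⟩
    obtain ⟨d1, hd1, n1, e1⟩ := hother w d hd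
    obtain ⟨d2, hd2, n2, e2⟩ := hother w (ε d) (hTε w d hd)
    have hdS := (Finset.mem_filter.1 hd).1
    have hd1S := (Finset.mem_filter.1 hd1).1
    have hd2S := (Finset.mem_filter.1 hd2).1
    have l0 := hl d hdS
    have l1 := hl d1 hd1S
    have l2 := hl d2 hd2S
    have s1 := hs d1 hd1S d hdS e1
    have s2 := hs d2 hd2S (ε d) (hS d hdS) e2
    rw [hε] at s2
    have hsub : ({d, ε d, d1, ε d1, d2, ε d2} : Finset D) ⊆ T w := by
      intro x hx
      simp only [mem_insert, mem_singleton] at hx
      rcases hx with rfl | rfl | rfl | rfl | rfl | rfl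
      exacts [hd, hTε w _ hd, hd1, hTε w _ hd1, hd2, hTε w _ hd2]
    refine le_trans (le_of_eq ?_) (Finset.card_le_card hsub)
    have hinj : ∀ a b, ε a = ε b → a = b := fun a b h' => by rw [← hε a, h', hε]
    have a1 : d ≠ ε d := fun h' => l0 (congrArg node h')
    have a2 : d ≠ d1 := n1.symm
    have a3 : d ≠ ε d1 := fun h' => l1 (by rw [← h', e1])
    have a4 : d ≠ d2 := fun h' => l0 (by rw [← e2, ← h'])
    have a5 : d ≠ ε d2 := fun h' => n2 (by rw [h', hε])
    have b1 : ε d ≠ d1 := fun h' => l0 (by rw [h', e1])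
    have b2 : ε d ≠ ε d1 := fun h' => n1 (hinj _ _ h').symm
    have b3 : ε d ≠ d2 := n2.symm
    have b4 : ε d ≠ ε d2 := fun h' => a4 (hinj _ _ h')
    have c1 : d1 ≠ ε d1 := fun h' => l1 (congrArg node h')
    have c2 : d1 ≠ d2 := fun h' => l0 (by rw [← e1, ← e2, h'])
    have c3 : d1 ≠ ε d2 := fun h' => n2 (s2 (by rw [← h', e1]))
    have d1' : ε d1 ≠ d2 := fun h' => n1 (s1 (by rw [h', e2]))
    have d2' : ε d1 ≠ ε d2 := fun h' => c2 (hinj _ _ h')
    have f1 : d2 ≠ ε d2 := fun h' => l2 (congrArg node h')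
    symm
    rw [Finset.card_insert_of_notMem (by simp [a1, a2, a3, a4, a5]),
      Finset.card_insert_of_notMem (by simp [b1, b2, b3, b4]),
      Finset.card_insert_of_notMem (by simp [c1, c2, c3]),
      Finset.card_insert_of_notMem (by simp [d1', d2']),
      Finset.card_insert_of_notMem (by simp [f1]), Finset.card_singleton]
  let W0 : Finset W := (S.image v).filter (fun w => (T w).Nonempty)
  have hW0 : 6 * W0.card ≤ 2 * S.card := by
    calc 6 * W0.card = ∑ w ∈ W0, 6 := by simp [mul_comm]
      _ ≤ ∑ w ∈ W0, (T w).card :=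
          Finset.sum_le_sum (fun w hw => hT6 w (Finset.mem_filter.1 hw).2)
      _ = ∑ w ∈ W0, ∑ d ∈ S, (if c w d ≠ 0 then 1 else 0) := by
          refine Finset.sum_congr rfl (fun w _ => ?_)
          rw [Finset.card_filter]
      _ = ∑ d ∈ S, ∑ w ∈ W0, (if c w d ≠ 0 then 1 else 0) := Finset.sum_comm
      _ ≤ ∑ d ∈ S, 2 := by
          refine Finset.sum_le_sum (fun d _ => ?_)
          rw [← Finset.card_filter]
          refine le_trans (Finset.card_le_card (t := {v d, v (ε d)}) ?_) Finset.card_le_two
          intro w hw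
          have := (Finset.mem_filter.1 hw).2
          by_contra hcon
          simp only [mem_insert, mem_singleton, not_or] at hcon
          apply this
          simp only [c, if_neg (Ne.symm hcon.1), if_neg (Ne.symm hcon.2), add_zero]
      _ = 2 * S.card := by simp [mul_comm]
  -- linear algebra
  let ext : (O → ZMod 2) →ₗ[ZMod 2] (D → ZMod 2) :=
    { toFun := fun z d => if h : d ∈ O then z ⟨d, h⟩ else if h' : ε d ∈ O then z ⟨ε d, h'⟩ else 0
      map_add' := fun a b => by
        funext d; simp only [Pi.add_apply]; split_ifs <;> simp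
      map_smul' := fun a b => by
        funext d; simp only [Pi.smul_apply, RingHom.id_apply]; split_ifs <;> simp }
  have hext : ∀ z d, ext z d =
      if h : d ∈ O then z ⟨d, h⟩ else if h' : ε d ∈ O then z ⟨ε d, h'⟩ else 0 := fun _ _ => rfl
  have hextsym : ∀ z d, ext z (ε d) = ext z d := by
    intro z d
    rw [hext, hext]
    by_cases h1 : d ∈ O
    · have h2 : ε d ∉ O := (hO d (hOS h1)).1 h1
      rw [dif_neg h2, dif_pos h1, dif_pos (by rw [hε]; exact h1)]
      congr 1
      exact Subtype.ext (hε d)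
    · rw [dif_neg h1]
      by_cases h2 : ε d ∈ O
      · rw [dif_pos h2, dif_pos h2]
      · rw [dif_neg h2, dif_neg h2, dif_neg (by rw [hε]; exact h1)]
  let Bd : (O → ZMod 2) →ₗ[ZMod 2] (U → ZMod 2) :=
    { toFun := fun z x => ∑ d ∈ S.filter (fun d => node d = x), ext z d
      map_add' := fun a b => by
        funext x; simp only [map_add, Pi.add_apply, Finset.sum_add_distrib]
      map_smul' := fun a b => by
        funext x
        simp only [map_smul, Pi.smul_apply, RingHom.id_apply, smul_eq_mul, Finset.mul_sum] }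
  let Φ : (W0 → ZMod 2) →ₗ[ZMod 2] (O → ZMod 2) :=
    { toFun := fun f d => ∑ w : W0, f w * c w d
      map_add' := fun a b => by
        funext x; simp only [Pi.add_apply, add_mul, Finset.sum_add_distrib]
      map_smul' := fun a b => by
        funext x
        simp only [Pi.smul_apply, RingHom.id_apply, smul_eq_mul, Finset.mul_sum, mul_assoc] }
  have hker : LinearMap.ker Bd ≤ LinearMap.range Φ := by
    intro z hz
    obtain ⟨f, hf⟩ := hb (ext z) (hextsym z) (fun x => by
      by_cases hx : x ∈ U
      · exact congrFun (LinearMap.mem_ker.1 hz) ⟨x, hx⟩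
      · apply Finset.sum_eq_zero
        intro d hd
        have hd' := Finset.mem_filter.1 hd
        exact absurd (hd'.2 ▸ hU d hd'.1) hx)
    refine ⟨fun w => f w, ?_⟩
    funext d
    have hdS := hOS d.2
    have h1 := hf d hdS (hl d hdS)
    rw [hext, dif_pos d.2] at h1
    change ∑ w : W0, f w * c w d = z d
    rw [h1, Finset.sum_coe_sort W0 (fun w => f w * c w d)]
    have h2 : ∑ w ∈ W0, f w * c w d = ∑ w ∈ S.image v, f w * c w d := by
      apply Finset.sum_subset (Finset.filter_subset _ _)
      intro w hw hw'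
      have : c w d = 0 := by
        by_contra h0
        exact hw' (Finset.mem_filter.2 ⟨hw, d, Finset.mem_filter.2 ⟨hdS, h0⟩⟩)
      rw [this, mul_zero]
    rw [h2]
    simp only [c, mul_add, mul_ite, mul_one, mul_zero, Finset.sum_add_distrib, Finset.sum_ite_eq,
      Finset.mem_image_of_mem v hdS, Finset.mem_image_of_mem v (hS _ hdS), if_true]
  have r1 := LinearMap.finrank_range_add_finrank_ker Bd
  have r2 : Module.finrank (ZMod 2) (LinearMap.range Bd) ≤ U.card := by
    refine le_trans (Submodule.finrank_le _) ?_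
    simp
  have r3 : Module.finrank (ZMod 2) (LinearMap.ker Bd) ≤ W0.card := by
    refine le_trans (Submodule.finrank_mono hker) (le_trans (LinearMap.finrank_range_le Φ) ?_)
    simp
  have r4 : Module.finrank (ZMod 2) (O → ZMod 2) = O.card := by simp
  omega

open Classical in
theorem Mac.degenerate [Fintype D] {ε : D → D} (hε : ∀ d, ε (ε d) = d) {S : Finset D}
    {node : D → N} (hS : ∀ d ∈ S, ε d ∈ S) (h : Mac ε S node) (U : Finset N) (hU : U.Nonempty) :
    ∃ x ∈ U, (U.filter (fun y => y ≠ x ∧ Adj ε S node x y)).card ≤ 6 := by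
  by_contra hcon
  push Not at hcon
  obtain ⟨x0, hx0⟩ := hU
  have hD : Nonempty D := by
    have := hcon x0 hx0
    obtain ⟨y, hy⟩ := Finset.card_pos.1 (lt_of_le_of_lt (Nat.zero_le _) this)
    obtain ⟨d, _⟩ := (Finset.mem_filter.1 hy).2.2
    exact ⟨d⟩
  let pr : D → Sym2 N := fun d => s(node d, node (ε d))
  have hpr : ∀ d, pr (ε d) = pr d := fun d => by simp only [pr, hε, Sym2.eq_swap]
  let rep : Sym2 N → D := fun p => Classical.epsilon (fun d => d ∈ S ∧ pr d = p)
  have hrep : ∀ d ∈ S, rep (pr d) ∈ S ∧ pr (rep (pr d)) = pr d := fun d hd =>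
    Classical.epsilon_spec (p := fun e => e ∈ S ∧ pr e = pr d) ⟨d, hd, rfl⟩
  let S' := S.filter (fun d => node d ∈ U ∧ node (ε d) ∈ U ∧ node d ≠ node (ε d) ∧
    (d = rep (pr d) ∨ ε d = rep (pr d)))
  have hS' : ∀ d ∈ S', ε d ∈ S' := by
    intro d hd
    obtain ⟨h1, h2, h3, h4, h5⟩ := Finset.mem_filter.1 hd
    refine Finset.mem_filter.2 ⟨hS d h1, h3, by rw [hε]; exact h2, by rw [hε]; exact h4.symm, ?_⟩
    rw [hpr, hε]
    exact h5.symm
  have hsp := (h.delete hε hS hS' (Finset.filter_subset _ _)).sparse hε hS'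
    (fun d hd => (Finset.mem_filter.1 hd).2.2.2.1) (by
      intro d hd d' hd' e1 e2
      obtain ⟨_, _, _, h4, h5⟩ := Finset.mem_filter.1 hd
      obtain ⟨_, _, _, _, k5⟩ := Finset.mem_filter.1 hd'
      have e3 : pr d = pr d' := by simp only [pr, e1, e2]
      rw [← e3] at k5
      rcases h5 with h5 | h5 <;> rcases k5 with k5 | k5
      · exact h5.trans k5.symm
      · exact absurd (by rw [e2, k5, ← h5]) h4
      · exact absurd (by rw [e1, k5, ← h5]) h4
      · rw [← hε d, h5, ← k5, hε]) U (fun d hd => (Finset.mem_filter.1 hd).2.1)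
  have hge : ∑ x ∈ U, (U.filter (fun y => y ≠ x ∧ Adj ε S node x y)).card ≤ S'.card := by
    rw [Finset.card_eq_sum_card_fiberwise (f := node) (s := S') (t := U)
      (fun d hd => (Finset.mem_filter.1 hd).2.1)]
    refine Finset.sum_le_sum (fun x hx => ?_)
    apply Finset.card_le_card_of_surjOn (fun d => node (ε d))
    intro y hy
    obtain ⟨hyU, hyx, d, hd, e1, e2⟩ := Finset.mem_filter.1 hy
    obtain ⟨r1, r2⟩ := hrep d hd
    have r3 : s(node (rep (pr d)), node (ε (rep (pr d)))) = s(x, y) := by
      rw [← e1, ← e2]; exact r2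
    rcases Sym2.eq_iff.1 r3 with ⟨q1, q2⟩ | ⟨q1, q2⟩
    · refine ⟨rep (pr d), ?_, q2⟩
      simp only [coe_filter, Set.mem_ofPred_eq, S', mem_filter]
      refine ⟨⟨r1, q1 ▸ hx, q2 ▸ hyU, by rw [q1, q2]; exact hyx.symm, Or.inl (by rw [r2])⟩, q1⟩
    · refine ⟨ε (rep (pr d)), ?_, by simp only [hε, q1]⟩
      simp only [coe_filter, Set.mem_ofPred_eq, S', mem_filter, hε]
      refine ⟨⟨hS _ r1, q2 ▸ hx, q1 ▸ hyU, by rw [q1, q2]; exact hyx.symm,
        Or.inr (by rw [hpr, r2])⟩, q2⟩
  have hlt : ∑ x ∈ U, 6 < ∑ x ∈ U, (U.filter (fun y => y ≠ x ∧ Adj ε S node x y)).card :=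
    Finset.sum_lt_sum_of_nonempty ⟨x0, hx0⟩ hcon
  simp only [sum_const, smul_eq_mul] at hlt
  omega

open Classical in
/-- heavy forest in a 6-degenerate weighted graph -/
lemma exists_forest (A : N → N → Prop) (w : N → N → ℕ) (hw : ∀ x y, w x y = w y x)
    (hA : ∀ x y, ¬ A x y → w x y = 0)
    (hdeg : ∀ U : Finset N, U.Nonempty → ∃ x ∈ U, (U.filter (fun y => y ≠ x ∧ A x y)).card ≤ 6)
    (U : Finset N) : ∃ (p : N → N) (col : N → Bool),
      (∀ x ∈ U, p x = x ∨ (p x ∈ U ∧ A x (p x) ∧ col (p x) ≠ col x)) ∧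
      ∑ x ∈ U, ∑ y ∈ U.erase x, w x y ≤ 12 * ∑ x ∈ U.filter (fun x => p x ≠ x), w x (p x) := by
  induction' hn : U.card with n ih generalizing U
  · rw [Finset.card_eq_zero] at hn
    subst hn
    exact ⟨id, fun _ => true, by simp, by simp⟩
  · obtain ⟨x0, hx0, hd⟩ := hdeg U (Finset.card_pos.1 (by omega))
    obtain ⟨p, col, hp, hsum⟩ := ih (U.erase x0) (by rw [Finset.card_erase_of_mem hx0]; omega)
    set B := U.filter (fun y => y ≠ x0 ∧ A x0 y) with hB
    have hsB : ∑ y ∈ U.erase x0, w x0 y = ∑ y ∈ B, w x0 y := by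
      symm
      apply Finset.sum_subset
      · intro y hy
        have := Finset.mem_filter.1 hy
        exact Finset.mem_erase.2 ⟨this.2.1, this.1⟩
      · intro y hy hy'
        have := Finset.mem_erase.1 hy
        exact hA _ _ (fun h' => hy' (Finset.mem_filter.2 ⟨this.2, this.1, h'⟩))
    have htot : ∑ x ∈ U, ∑ y ∈ U.erase x, w x y =
        ∑ x ∈ U.erase x0, ∑ y ∈ (U.erase x0).erase x, w x y + 2 * ∑ y ∈ B, w x0 y := by
      rw [← Finset.add_sum_erase U _ hx0, ← hsB, two_mul]
      have : ∑ x ∈ U.erase x0, ∑ y ∈ U.erase x, w x y =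
          ∑ x ∈ U.erase x0, (w x0 x + ∑ y ∈ (U.erase x0).erase x, w x y) := by
        refine Finset.sum_congr rfl (fun x hx => ?_)
        have hx' := Finset.mem_erase.1 hx
        rw [Finset.erase_right_comm, hw x0 x]
        exact (Finset.add_sum_erase _ _ (Finset.mem_erase.2 ⟨hx'.1.symm, hx0⟩)).symm
      rw [this, Finset.sum_add_distrib]
      ring
    by_cases hBe : B.Nonempty
    · obtain ⟨y0, hy0, hmax⟩ := Finset.exists_max_image B (w x0) hBe
      obtain ⟨hy0U, hy0x, hy0A⟩ := Finset.mem_filter.1 hy0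
      refine ⟨Function.update p x0 y0, Function.update col x0 (!col y0), ?_, ?_⟩
      · intro x hx
        by_cases hxx : x = x0
        · subst hxx
          right
          simp [hy0U, hy0A, Function.update_of_ne hy0x]
        · rcases hp x (Finset.mem_erase.2 ⟨hxx, hx⟩) with h1 | ⟨h1, h2, h3⟩
          · left; rw [Function.update_of_ne hxx]; exact h1
          · right
            have h1' := Finset.mem_erase.1 h1
            rw [Function.update_of_ne hxx, Function.update_of_ne hxx, Function.update_of_ne h1'.1]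
            exact ⟨h1'.2, h2, h3⟩
      · have e1 : ∑ x ∈ U.filter (fun x => Function.update p x0 y0 x ≠ x),
            w x (Function.update p x0 y0 x) =
            w x0 y0 + ∑ x ∈ (U.erase x0).filter (fun x => p x ≠ x), w x (p x) := by
          rw [Finset.sum_filter, Finset.sum_filter, ← Finset.add_sum_erase U _ hx0]
          congr 1
          · simp [hy0x]
          · refine Finset.sum_congr rfl (fun x hx => ?_)
            rw [Function.update_of_ne (Finset.mem_erase.1 hx).1]
        have e2 : ∑ y ∈ B, w x0 y ≤ 6 * w x0 y0 := by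
          refine le_trans (Finset.sum_le_card_nsmul B _ _ hmax) ?_
          exact Nat.mul_le_mul_right _ hd
        rw [htot, e1]
        omega
    · rw [Finset.not_nonempty_iff_eq_empty] at hBe
      refine ⟨Function.update p x0 x0, col, ?_, ?_⟩
      · intro x hx
        by_cases hxx : x = x0
        · subst hxx; left; simp
        · rw [Function.update_of_ne hxx]
          rcases hp x (Finset.mem_erase.2 ⟨hxx, hx⟩) with h1 | ⟨h1, h2, h3⟩
          · left; exact h1
          · right; exact ⟨(Finset.mem_erase.1 h1).2, h2, h3⟩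
      · have e1 : ∑ x ∈ U.filter (fun x => Function.update p x0 x0 x ≠ x),
            w x (Function.update p x0 x0 x) =
            ∑ x ∈ (U.erase x0).filter (fun x => p x ≠ x), w x (p x) := by
          rw [Finset.sum_filter, Finset.sum_filter, ← Finset.add_sum_erase U _ hx0]
          simp only [Function.update_self, ne_eq, not_true_eq_false, if_false, zero_add]
          refine Finset.sum_congr rfl (fun x hx => ?_)
          rw [Function.update_of_ne (Finset.mem_erase.1 hx).1]
        rw [htot, e1, hBe]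
        simpa using hsum

/-- number of darts joining different nodes -/
def cross (ε : D → D) (S : Finset D) (node : D → N) : ℕ :=
  (S.filter (fun d => node d ≠ node (ε d))).card

theorem Mac.round [Fintype D] [Fintype N] {ε : D → D} (hε : ∀ d, ε (ε d) = d) {S : Finset D}
    {node : D → N} (hS : ∀ d ∈ S, ε d ∈ S) (h : Mac ε S node) :
    ∃ g : N → N, (∀ x, g x = x ∨ (Adj ε S node x (g x) ∧ g (g x) = g x)) ∧
      24 * cross ε S (fun d => g (node d)) ≤ 23 * cross ε S node := by
  classical
  let w : N → N → ℕ := fun x y => (S.filter (fun d => node d = x ∧ node (ε d) = y)).card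
  have hw : ∀ x y, w x y = w y x := by
    intro x y
    apply Finset.card_bij (fun d _ => ε d)
    · intro d hd
      obtain ⟨h1, h2, h3⟩ := Finset.mem_filter.1 hd
      exact Finset.mem_filter.2 ⟨hS d h1, h3, by rw [hε]; exact h2⟩
    · intro a _ b _ h'
      rw [← hε a, h', hε]
    · intro d hd
      obtain ⟨h1, h2, h3⟩ := Finset.mem_filter.1 hd
      exact ⟨ε d, Finset.mem_filter.2 ⟨hS d h1, h3, by rw [hε]; exact h2⟩, hε d⟩
  have hA : ∀ x y, ¬ Adj ε S node x y → w x y = 0 := by
    intro x y hxy
    rw [Finset.card_eq_zero, Finset.filter_eq_empty_iff]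
    intro d hd h'
    exact hxy ⟨d, hd, h'.1, h'.2⟩
  obtain ⟨p, col, hp, hsum⟩ := exists_forest (Adj ε S node) w hw hA (fun U hU => by
    obtain ⟨x, hx, hx'⟩ := h.degenerate hε hS U hU
    exact ⟨x, hx, by convert hx'⟩) univ
  have hcross : cross ε S node ≤ ∑ x, ∑ y ∈ univ.erase x, w x y := by
    unfold cross
    rw [Finset.card_eq_sum_card_fiberwise (f := node) (t := univ) (fun _ _ => mem_univ _)]
    refine Finset.sum_le_sum (fun x _ => ?_)
    rw [Finset.card_eq_sum_card_fiberwise (f := fun d => node (ε d)) (t := univ.erase x)]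
    · refine Finset.sum_le_sum (fun y _ => Finset.card_le_card ?_)
      intro d hd
      simp only [mem_filter] at hd ⊢
      exact ⟨hd.1.1.1, hd.1.2, hd.2⟩
    · intro d hd
      simp only [coe_filter, Set.mem_ofPred_eq, mem_filter] at hd
      simp only [coe_erase, coe_univ, Set.mem_sdiff, Set.mem_univ, Set.mem_singleton_iff, true_and]
      rw [← hd.2]
      exact hd.1.2.symm
  let A : Bool → Finset D := fun b => S.filter (fun d => col (node d) = b ∧ p (node d) ≠ node d ∧
    node (ε d) = p (node d))
  have hAsum : ∑ x ∈ univ.filter (fun x => p x ≠ x), w x (p x) ≤ (A true).card + (A false).card := by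
    have e1 : ∑ x ∈ univ.filter (fun x => p x ≠ x), w x (p x) =
        (S.filter (fun d => p (node d) ≠ node d ∧ node (ε d) = p (node d))).card := by
      rw [Finset.card_eq_sum_card_fiberwise (f := node) (t := univ.filter (fun x => p x ≠ x))]
      · refine Finset.sum_congr rfl (fun x hx => ?_)
        have hx' := (Finset.mem_filter.1 hx).2
        simp only [w]
        congr 1
        ext d
        simp only [mem_filter]
        constructor
        · rintro ⟨h1, h2, h3⟩
          exact ⟨⟨h1, by rw [h2]; exact hx', by rw [h2]; exact h3⟩, h2⟩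
        · rintro ⟨⟨h1, _, h3⟩, h4⟩
          exact ⟨h1, h4, by rw [h3, h4]⟩
      · intro d hd
        simp only [coe_filter, Set.mem_ofPred_eq, mem_univ, true_and] at hd ⊢
        exact hd.2.1
    rw [e1]
    refine le_trans (Finset.card_le_card (t := A true ∪ A false) ?_) (Finset.card_union_le _ _)
    intro d hd
    simp only [mem_filter, mem_union, A] at hd ⊢
    cases hc : col (node d)
    · right; exact ⟨hd.1, rfl, hd.2⟩
    · left; exact ⟨hd.1, rfl, hd.2⟩
  have key : ∀ b, ∃ g : N → N, (∀ x, g x = x ∨ (Adj ε S node x (g x) ∧ g (g x) = g x)) ∧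
      cross ε S (fun d => g (node d)) + (A b).card ≤ cross ε S node := by
    intro b
    let g : N → N := fun x => if col x = b then p x else x
    have hg1 : ∀ x, col x = b → p x ≠ x → g x = p x ∧ g (p x) = p x := by
      intro x h1 h2
      have h3 := ((hp x (mem_univ _)).resolve_left h2).2.2
      exact ⟨if_pos h1, if_neg (by rw [← h1]; exact h3)⟩
    refine ⟨g, fun x => ?_, ?_⟩
    · by_cases h1 : col x = b
      · by_cases h2 : p x = x
        · left; simp only [g, h1, if_true, h2]
        · right
          obtain ⟨e1, e2⟩ := hg1 x h1 h2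
          rw [e1, e2]
          exact ⟨((hp x (mem_univ _)).resolve_left h2).2.1, rfl⟩
      · left; exact if_neg h1
    · unfold cross
      rw [← Finset.card_union_of_disjoint]
      · apply Finset.card_le_card
        intro d hd
        simp only [mem_filter, mem_union, A] at hd ⊢
        rcases hd with ⟨h1, h2⟩ | ⟨h1, _, h3, h4⟩
        · exact ⟨h1, fun h' => h2 (by rw [h'])⟩
        · exact ⟨h1, by rw [h4]; exact h3.symm⟩
      · rw [Finset.disjoint_left]
        intro d hd hd'
        simp only [mem_filter, A] at hd hd'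
        obtain ⟨e1, e2⟩ := hg1 _ hd'.2.1 hd'.2.2.1
        exact hd.2 (by rw [hd'.2.2.2, e1, e2])
  by_cases hb : (A false).card ≤ (A true).card
  · obtain ⟨g, h1, h2⟩ := key true
    exact ⟨g, h1, by omega⟩
  · obtain ⟨g, h1, h2⟩ := key false
    exact ⟨g, h1, by omega⟩

/-- cluster sizes -/
def ksz (J : ℕ) : ℕ → ℕ
  | 0 => 1
  | t + 1 => ksz J t * (1 + J * ksz J t)

open Classical in
theorem Mac.iterate [Fintype D] [Fintype N] {ε : D → D} (hε : ∀ d, ε (ε d) = d) {S : Finset D}
    {cell : D → N} (hS : ∀ d ∈ S, ε d ∈ S) (h : Mac ε S cell) (G : Finset N)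
    (hG : ∀ d ∈ S, cell d ∈ G) (J : ℕ)
    (hJ : ∀ c ∈ G, (G.filter (fun c' => Adj ε S cell c c')).card ≤ J) (t : ℕ) :
    ∃ cl : N → N, Mac ε S (fun d => cl (cell d)) ∧
      (∀ x, (G.filter (fun c => cl c = x)).card ≤ ksz J t) ∧
      24 ^ t * cross ε S (fun d => cl (cell d)) ≤ 23 ^ t * S.card := by
  induction t with
  | zero =>
    refine ⟨id, h, fun x => ?_, ?_⟩
    · exact Finset.card_le_one.2 (fun a ha b hb =>
        (Finset.mem_filter.1 ha).2.trans (Finset.mem_filter.1 hb).2.symm)
    · simp only [pow_zero, one_mul]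
      exact Finset.card_filter_le _ _
  | succ t ih =>
    obtain ⟨cl, hm, hsz, hcr⟩ := ih
    obtain ⟨g, hg, hg'⟩ := hm.round hε hS
    refine ⟨fun c => g (cl c), hm.merge hε hS g hg, fun y => ?_, ?_⟩
    · let X : Finset N := insert y ((G.filter (fun c => cl c = y)).biUnion
        (fun c => (G.filter (fun c' => Adj ε S cell c c')).image cl))
      have hX : X.card ≤ 1 + J * ksz J t := by
        refine le_trans (Finset.card_insert_le _ _) ?_
        rw [add_comm]
        refine Nat.add_le_add_left (le_trans Finset.card_biUnion_le ?_) _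
        refine le_trans (Finset.sum_le_card_nsmul _ _ J (fun c hc =>
          le_trans Finset.card_image_le (hJ c (Finset.mem_filter.1 hc).1))) ?_
        rw [smul_eq_mul, mul_comm]
        exact Nat.mul_le_mul_left _ (hsz y)
      have hsub : G.filter (fun c => g (cl c) = y) ⊆
          X.biUnion (fun x => G.filter (fun c => cl c = x)) := by
        intro c hc
        obtain ⟨h1, h2⟩ := Finset.mem_filter.1 hc
        refine Finset.mem_biUnion.2 ⟨cl c, ?_, Finset.mem_filter.2 ⟨h1, rfl⟩⟩
        rcases hg (cl c) with h3 | ⟨⟨d, hd, e1, e2⟩, _⟩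
        · rw [← h3, h2]; exact Finset.mem_insert_self _ _
        · refine Finset.mem_insert_of_mem (Finset.mem_biUnion.2 ⟨cell (ε d), ?_, ?_⟩)
          · exact Finset.mem_filter.2 ⟨hG _ (hS d hd), e2.trans h2⟩
          · exact Finset.mem_image.2 ⟨cell d,
              Finset.mem_filter.2 ⟨hG d hd, ε d, hS d hd, rfl, by rw [hε]⟩, e1⟩
      refine le_trans (Finset.card_le_card hsub) (le_trans Finset.card_biUnion_le ?_)
      refine le_trans (Finset.sum_le_card_nsmul _ _ (ksz J t) (fun x _ => hsz x)) ?_
      rw [smul_eq_mul, mul_comm]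
      exact Nat.mul_le_mul_left _ hX
    · calc 24 ^ (t + 1) * cross ε S (fun d => g (cl (cell d)))
          = 24 ^ t * (24 * cross ε S (fun d => g (cl (cell d)))) := by ring
        _ ≤ 24 ^ t * (23 * cross ε S (fun d => cl (cell d))) := Nat.mul_le_mul_left _ hg'
        _ = 23 * (24 ^ t * cross ε S (fun d => cl (cell d))) := by ring
        _ ≤ 23 * (23 ^ t * S.card) := Nat.mul_le_mul_left _ hcr
        _ = 23 ^ (t + 1) * S.card := by ring

omit [DecidableEq N] in
lemma exists_potential [Fintype D] (φ : Equiv.Perm D) (lam : D → ZMod 2)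
    (h : ∀ b, ∑ e ∈ univ.filter (fun e => φ.SameCycle b e), lam e = 0) :
    ∃ f : D → ZMod 2, ∀ d, f (φ d) = f d + lam d := by
  classical
  let H : D → ℕ → ZMod 2 := fun b k => ∑ i ∈ range k, lam (φ^[i] b)
  have hper : ∀ b, H b (Function.minimalPeriod φ b) = 0 := by
    intro b
    rw [← h b]
    apply Finset.sum_nbij (fun i => φ^[i] b)
    · intro i _
      simp only [mem_filter, mem_univ, true_and]
      exact ⟨i, by rw [zpow_natCast, Equiv.Perm.coe_pow]⟩
    · intro i hi j hj hij
      exact Function.iterate_injOn_Iio_minimalPeriod (by simpa using hi) (by simpa using hj) hij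
    · intro e he
      simp only [coe_filter, mem_univ, true_and, Set.mem_ofPred_eq] at he
      obtain ⟨i, _, hi⟩ := he.exists_pow_eq'
      have hpos : 0 < Function.minimalPeriod φ b :=
        Function.minimalPeriod_pos_of_mem_periodicPts (φ.injective.mem_periodicPts b)
      refine ⟨i % Function.minimalPeriod φ b, by simpa using Nat.mod_lt _ hpos, ?_⟩
      simp only [Function.iterate_mod_minimalPeriod_eq]
      rw [← Equiv.Perm.coe_pow]; exact hi
    · intro i _; rfl
  have hmod : ∀ b k, H b k = H b (k % Function.minimalPeriod φ b) := by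
    intro b k
    have hstep : ∀ j m, H b (Function.minimalPeriod φ b * m + j) = H b j := by
      intro j m
      induction m with
      | zero => simp
      | succ m ih =>
        rw [← ih, Nat.mul_succ, add_right_comm, add_comm]
        simp only [H]
        rw [Finset.sum_range_add]
        have := hper b
        simp only [H] at this
        rw [this, zero_add]
        refine Finset.sum_congr rfl (fun i _ => ?_)
        rw [add_comm, Function.iterate_add_apply, Function.iterate_minimalPeriod]
    conv_lhs => rw [← Nat.div_add_mod k (Function.minimalPeriod φ b)]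
    exact hstep _ _
  have hwd : ∀ b k k', φ^[k] b = φ^[k'] b → H b k = H b k' := by
    intro b k k' e
    have hpos : 0 < Function.minimalPeriod φ b :=
      Function.minimalPeriod_pos_of_mem_periodicPts (φ.injective.mem_periodicPts b)
    rw [hmod b k, hmod b k']
    congr 1
    apply Function.iterate_injOn_Iio_minimalPeriod (Nat.mod_lt _ hpos) (Nat.mod_lt _ hpos)
    simp only [Function.iterate_mod_minimalPeriod_eq]
    exact e
  let base : D → D := fun d => (Quotient.mk (Equiv.Perm.SameCycle.setoid φ) d).out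
  have hbase : ∀ d, ∃ k, φ^[k] (base d) = d := by
    intro d
    have : φ.SameCycle (base d) d := Quotient.mk_out (s := Equiv.Perm.SameCycle.setoid φ) d
    obtain ⟨i, _, hi⟩ := this.exists_pow_eq'
    exact ⟨i, by rw [← Equiv.Perm.coe_pow]; exact hi⟩
  choose k hk using hbase
  have hb : ∀ d, base (φ d) = base d := fun d => by
    simp only [base]
    congr 1
    exact Quotient.sound (Equiv.Perm.sameCycle_apply_left.2 (Equiv.Perm.SameCycle.refl _ _))
  refine ⟨fun d => H (base d) (k d), fun d => ?_⟩
  have e : φ^[k (φ d)] (base d) = φ^[k d + 1] (base d) := by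
    rw [Function.iterate_succ_apply', hk d, ← hb d, hk]
  simp only [hb]
  rw [hwd _ _ _ e]
  simp only [H]
  rw [Finset.sum_range_succ, hk]

lemma sum_tele (φ : Equiv.Perm D) (T : Finset D) (F : D → ZMod 2) :
    ∑ d ∈ T, (F d + F (φ d)) = ∑ d ∈ T.filter (fun d => φ⁻¹ d ∉ T), F d +
      ∑ d ∈ T.filter (fun d => φ d ∉ T), F (φ d) := by
  rw [Finset.sum_add_distrib, ← Finset.sum_filter_add_sum_filter_not T (fun d => φ⁻¹ d ∈ T),
    ← Finset.sum_filter_add_sum_filter_not T (fun d => φ d ∈ T) (fun d => F (φ d))]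
  have : ∑ d ∈ T.filter (fun d => φ d ∈ T), F (φ d) = ∑ d ∈ T.filter (fun d => φ⁻¹ d ∈ T), F d := by
    apply Finset.sum_nbij φ
    · intro d hd
      simp only [mem_filter] at hd ⊢
      exact ⟨hd.2, by simpa using hd.1⟩
    · exact φ.injective.injOn
    · intro d hd
      simp only [coe_filter, Set.mem_ofPred_eq] at hd
      exact ⟨φ⁻¹ d, by simpa using ⟨hd.2, hd.1⟩, by simp⟩
    · intro _ _; rfl
  rw [this]
  have h2 := z2_add_self (∑ d ∈ T.filter (fun d => φ⁻¹ d ∈ T), F d)
  linear_combination h2

lemma card_entry (φ : Equiv.Perm D) (T : Finset D) :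
    (T.filter (fun d => φ⁻¹ d ∉ T)).card = (T.filter (fun d => φ d ∉ T)).card := by
  have h1 := Finset.card_filter_add_card_filter_not (s := T) (fun d => φ⁻¹ d ∈ T)
  have h2 := Finset.card_filter_add_card_filter_not (s := T) (fun d => φ d ∈ T)
  have : (T.filter (fun d => φ d ∈ T)).card = (T.filter (fun d => φ⁻¹ d ∈ T)).card := by
    apply Finset.card_nbij φ
    · intro d hd
      simp only [coe_filter, Set.mem_ofPred_eq] at hd ⊢
      exact ⟨hd.2, by simpa using hd.1⟩
    · exact φ.injective.injOn
    · intro d hd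
      simp only [coe_filter, Set.mem_ofPred_eq] at hd
      exact ⟨φ⁻¹ d, by simpa using ⟨hd.2, hd.1⟩, by simp⟩
  omega

theorem mac_of_SC [Fintype D] (φ ε : Equiv.Perm D) (h : SC φ ε) (cell : D → N)
    (h1 : ∀ d e, cell d = cell e → φ.SameCycle d e)
    (h2 : ∀ d e, cell d = cell e → cell (φ d) ≠ cell d → cell (φ e) ≠ cell e → d = e) :
    Mac ε univ cell := by
  classical
  let r : D → D → Prop := fun a b => (∃ d, a = φ d ∧ b = ε d) ∨
    (∃ d, cell (φ d) ≠ cell d ∧ b = φ d ∧ cell a = cell d ∧ cell (φ⁻¹ a) ≠ cell a)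
  have key : ∀ (F : D → ZMod 2) (x : N),
      (∑ d ∈ univ.filter (fun d => cell d = x), (F d + F (φ d)) = 0 ∧
        ∀ d, cell d = x → cell (φ d) = cell d) ∨
      ∃ a d, cell a = x ∧ cell d = x ∧ cell (φ d) ≠ cell d ∧ cell (φ⁻¹ a) ≠ cell a ∧
        (∀ a', cell a' = x → cell (φ⁻¹ a') ≠ cell a' → a' = a) ∧
        ∑ d ∈ univ.filter (fun d => cell d = x), (F d + F (φ d)) = F a + F (φ d) := by
    intro F x
    set T := univ.filter (fun d => cell d = x) with hT
    have hc := card_entry φ T
    have hs := sum_tele φ T F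
    have hle : (T.filter (fun d => φ d ∉ T)).card ≤ 1 := by
      refine Finset.card_le_one.2 (fun a ha b hb => ?_)
      simp only [hT, mem_filter, mem_univ, true_and] at ha hb
      exact h2 a b (ha.1.trans hb.1.symm) (by rw [ha.1]; exact ha.2) (by rw [hb.1]; exact hb.2)
    rcases Nat.le_one_iff_eq_zero_or_eq_one.1 hle with h0 | h0
    · left
      rw [h0] at hc
      rw [Finset.card_eq_zero] at h0 hc
      refine ⟨by rw [hs, h0, hc]; simp, fun d hd => ?_⟩
      by_contra hne
      have : d ∈ T.filter (fun d => φ d ∉ T) := by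
        simp only [hT, mem_filter, mem_univ, true_and]
        exact ⟨hd, by rw [← hd]; exact hne⟩
      rw [h0] at this
      simp at this
    · right
      rw [h0] at hc
      obtain ⟨d, hd⟩ := Finset.card_eq_one.1 h0
      obtain ⟨a, ha⟩ := Finset.card_eq_one.1 hc
      have hd' : d ∈ T.filter (fun d => φ d ∉ T) := by rw [hd]; simp
      have ha' : a ∈ T.filter (fun d => φ⁻¹ d ∉ T) := by rw [ha]; simp
      simp only [hT, mem_filter, mem_univ, true_and] at hd' ha'
      refine ⟨a, d, ha'.1, hd'.1, by rw [hd'.1]; exact hd'.2, by rw [ha'.1]; exact ha'.2, ?_,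
        by rw [hs, hd, ha]; simp⟩
      intro a' e1 e2
      have : a' ∈ T.filter (fun d => φ⁻¹ d ∉ T) := by
        simp only [hT, mem_filter, mem_univ, true_and]
        exact ⟨e1, by rw [← e1]; exact e2⟩
      rw [ha] at this
      simpa using this
  refine ⟨Quot r, Quot.mk r, ?_, ?_⟩
  · intro f x
    have e : ∀ d, Quot.mk r (ε d) = Quot.mk r (φ d) := fun d =>
      (Quot.sound (r := r) (Or.inl ⟨d, rfl, rfl⟩)).symm
    simp only [e]
    rcases key (fun d => f (Quot.mk r d)) x with ⟨h0, _⟩ | ⟨a, d, e1, e2, e3, e4, _, e5⟩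
    · exact h0
    · rw [e5]
      have : Quot.mk r a = Quot.mk r (φ d) :=
        Quot.sound (Or.inr ⟨d, e3, rfl, e1.trans e2.symm, e4⟩)
      rw [this]
      exact z2_add_self _
  · intro lam hsym hev
    obtain ⟨h0, hh0⟩ := exists_potential φ lam (fun b => by
      rw [← Finset.sum_fiberwise_of_maps_to (g := cell)
        (t := (univ.filter (fun e => φ.SameCycle b e)).image cell)
        (fun d hd => Finset.mem_image_of_mem cell hd)]
      refine Finset.sum_eq_zero (fun x hx => ?_)
      obtain ⟨d0, hd0, rfl⟩ := Finset.mem_image.1 hx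
      rw [← hev (cell d0)]
      congr 1
      ext d
      simp only [mem_filter, mem_univ, true_and] at hd0 ⊢
      exact ⟨fun h' => h'.2, fun h' => ⟨hd0.trans (h1 _ _ h'.symm), h'⟩⟩)
    obtain ⟨f, hf1, hf2⟩ := h (Multiplicative (ZMod 2)) (fun d => Multiplicative.ofAdd (lam d))
      (fun d => Multiplicative.ofAdd (h0 d))
      (fun d => by
        rw [hsym, ← ofAdd_neg]
        congr 1
        exact eq_neg_of_add_eq_zero_left (z2_add_self _))
      (fun d => by rw [hh0, ofAdd_add])
    let F : D → ZMod 2 := fun d => Multiplicative.toAdd (f d)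
    have hF1 : ∀ d, F (φ d) = F d + lam d := fun d => by simp only [F, hf1, toAdd_mul, toAdd_ofAdd]
    have hF2 : ∀ d, F (ε d) = F d + lam d := fun d => by simp only [F, hf2, toAdd_mul, toAdd_ofAdd]
    have hl : ∀ d, F d + F (φ d) = lam d := fun d => by
      rw [hF1, ← add_assoc, z2_add_self, zero_add]
    refine ⟨Quot.lift F ?_, fun d _ _ => ?_⟩
    · rintro a b (⟨d, rfl, rfl⟩ | ⟨d, e1, rfl, e2, e3⟩)
      · rw [hF1, hF2]
      · rcases key F (cell d) with ⟨_, h0⟩ | ⟨a', d', q1, q2, q3, q4, q5, q6⟩
        · exact absurd (h0 d rfl) e1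
        · rw [q5 a e2 e3, h2 d d' q2.symm e1 q3]
          simp only [hl] at q6
          rw [hev] at q6
          exact z2_eq_of_add q6.symm
    · change lam d = F d + F (ε d)
      rw [hF2, ← add_assoc, z2_add_self, zero_add]

open Classical in
/-- Planar hyperfiniteness: the good cells of a simply connected map can be grouped into clusters
of bounded size with few darts between different clusters. -/
theorem localize (J n : ℕ) : ∃ K : ℕ, ∀ (D C : Type) [Fintype D] [Fintype C]
    (φ ε : Equiv.Perm D), (∀ d, ε (ε d) = d) → SC φ ε → ∀ cell : D → C,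
    (∀ d e, cell d = cell e → φ.SameCycle d e) →
    (∀ d e, cell d = cell e → cell (φ d) ≠ cell d → cell (φ e) ≠ cell e → d = e) →
    ∀ G : Finset C,
    (∀ c ∈ G, (G.filter (fun c' => ∃ d, cell d = c ∧ cell (ε d) = c')).card ≤ J) →
    ∃ cl : C → C, (∀ x, (G.filter (fun c => cl c = x)).card ≤ K) ∧
      n * (univ.filter (fun d => cell d ∈ G ∧ cell (ε d) ∈ G ∧
        cl (cell d) ≠ cl (cell (ε d)))).card ≤ Fintype.card D := by
  obtain ⟨t, ht⟩ : ∃ t : ℕ, n * 23 ^ t ≤ 24 ^ t := by
    obtain ⟨t, ht⟩ := pow_unbounded_of_one_lt (n : ℝ) (show (1 : ℝ) < 24 / 23 by norm_num)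
    refine ⟨t, ?_⟩
    rw [div_pow, lt_div_iff₀ (by positivity)] at ht
    exact_mod_cast ht.le
  refine ⟨ksz J t, ?_⟩
  intro D C _ _ φ ε hε hSC cell h1 h2 G hJ
  let S : Finset D := univ.filter (fun d => cell d ∈ G ∧ cell (ε d) ∈ G)
  have hS : ∀ d ∈ S, ε d ∈ S := by
    intro d hd
    simp only [S, mem_filter, mem_univ, true_and, hε] at hd ⊢
    exact ⟨hd.2, hd.1⟩
  have hm : Mac ε S cell := (mac_of_SC φ ε hSC cell h1 h2).delete hε (fun _ _ => mem_univ _) hS
    (Finset.subset_univ _)
  obtain ⟨cl, _, hsz, hcr⟩ := hm.iterate hε hS G (fun d hd => (Finset.mem_filter.1 hd).2.1) J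
    (fun c hc => le_trans (Finset.card_le_card (by
      intro c' hc'
      obtain ⟨e1, d, _, e2, e3⟩ := Finset.mem_filter.1 hc'
      exact Finset.mem_filter.2 ⟨e1, d, e2, e3⟩)) (hJ c hc)) t
  refine ⟨cl, fun x => by convert hsz x, ?_⟩
  have e : (univ.filter (fun d => cell d ∈ G ∧ cell (ε d) ∈ G ∧
        cl (cell d) ≠ cl (cell (ε d)))).card = cross ε S (fun d => cl (cell d)) := by
    unfold cross
    congr 1
    ext d
    simp only [S, mem_filter, mem_univ, true_and, and_assoc]
  rw [e]
  have hle : S.card ≤ Fintype.card D := Finset.card_le_univ _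
  have hpos : 0 < 24 ^ t := by positivity
  refine Nat.le_of_mul_le_mul_left ?_ hpos
  calc 24 ^ t * (n * cross ε S (fun d => cl (cell d)))
      = n * (24 ^ t * cross ε S (fun d => cl (cell d))) := by ring
    _ ≤ n * (23 ^ t * S.card) := Nat.mul_le_mul_left _ hcr
    _ = (n * 23 ^ t) * S.card := by ring
    _ ≤ 24 ^ t * Fintype.card D := Nat.mul_le_mul ht hle

end Vale.Agent.P201.Cluster
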