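import Vale.Agent.P201.Basic

namespace Vale.Agent.P201
open Vale.Agent.P186 Finset

namespace Dsg

/-- label involution: points `0..20`, extra labels `21..23` -/
def bar (s : Fin 24) : Fin 24 :=
  if s.1 < 3 then s + 21 else if 21 ≤ s.1 then s + 3 else if s.1 % 2 = 1 then s + 1 else s + 23

/-- vertex types: lines `0..20`, the triple `21`, the pairs `22..24` -/
def inc (t : Fin 25) (s : Fin 24) : Bool :=
  if t.1 < 21 then s.1 < 21 && (s.1 + 21 - t.1) % 21 ∈ [0, 1, 4, 14, 16]
  else 21 ≤ s.1 && s.1 + 1 != t.1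

def chi (s : Fin 24) : ZMod 3 :=
  if s.1 < 3 then (s.1 : ZMod 3) else if 21 ≤ s.1 then -(s.1 : ZMod 3) else 0

def al (i : Bool × ZMod 3) (t : Fin 25) : ℕ :=
  if t.1 < 21 then 2 else if t.1 = 21 then (if i.1 then 10 else 0) else (if i.1 then 0 else 5)

def be (i : Bool × ZMod 3) (t : Fin 25) : ℕ :=
  if t.1 < 21 then (if i.1 = false ∧ i.2 = 2 then 0 else 1)
  else if t.1 = 21 then (if i.1 then 5 else 0)
  else (if i.1 = false ∧ (t.1 : ZMod 3) = i.2 + 2 then 5 else 0)

def tau (i : Bool × ZMod 3) (s : Fin 24) : Bool × ZMod 3 := (i.1, i.2 + chi s)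

abbrev Vx (n : ℕ) : Type := Σ c : (Bool × ZMod 3) × Fin 25, Fin (al c.1 c.2 * n + be c.1 c.2)

def sA (i : Bool × ZMod 3) (q : Fin 25 → Bool) : ℕ := ∑ t, if q t then al i t else 0
def sB (i : Bool × ZMod 3) (q : Fin 25 → Bool) : ℕ := ∑ t, if q t then be i t else 0

lemma card_col (n : ℕ) (i : Bool × ZMod 3) (q : Fin 25 → Bool) :
    (univ.filter (fun v : Vx n => v.1.1 = i ∧ q v.1.2)).card = sA i q * n + sB i q := by
  rw [Finset.card_filter, Fintype.sum_sigma, Fintype.sum_prod_type, Finset.sum_eq_single i]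
  · simp only [sA, sB, Finset.sum_mul, ← Finset.sum_add_distrib]
    refine Finset.sum_congr rfl (fun t _ => ?_)
    cases q t <;> simp
  · intro j _ hj
    simp [hj]
  · simp

lemma ncard_col (n : ℕ) (i : Bool × ZMod 3) (q : Fin 25 → Bool) :
    Nat.card {v : Vx n // v.1.1 = i ∧ q v.1.2} = sA i q * n + sB i q := by
  rw [Nat.card_eq_fintype_card, Fintype.card_subtype, card_col]

lemma f1 : ∀ i s, sA i (fun t => inc t s) = 10 ∧ sB i (fun t => inc t s) ≤ 5 ∧
    sB i (fun t => inc t s) = sB (tau i s) (fun t => inc t (bar s)) := by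
  decide +kernel

lemma f2 : ∀ i s s', s ≠ s' → ¬ 21 ≤ s.1 →
    sA i (fun t => inc t s && inc t s') ≤ 2 ∧ sB i (fun t => inc t s && inc t s') ≤ 1 := by
  decide +kernel

lemma f3 : ∀ i, sA i (fun _ => true) ≤ 60 ∧ sB i (fun _ => true) ≤ 30 := by
  decide +kernel

lemma f4 : ∀ t t' : Fin 25, t.1 ≤ 21 → t'.1 ≠ 21 →
    (univ.filter (fun s => inc t s ∧ inc t' s)).card % 2 = if t.1 < 21 ∧ t'.1 < 21 then 1 else 0 := by
  decide +kernel

lemma f5 : ∀ t, (univ.filter (fun s => inc t s)).card ≤ 5 := by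
  decide +kernel

lemma f6 : ∀ b, sA (b, 0) (fun t => t.1 < 21) = 42 ∧ sB (b, 0) (fun t => t.1 < 21) = 21 := by
  decide +kernel

lemma f7 : ∀ i t, (i.1 = true → 21 < t.1 → al i t = 0 ∧ be i t = 0) ∧
    (i.1 = false → t.1 = 21 → al i t = 0 ∧ be i t = 0) := by
  decide +kernel

lemma chi_bar : ∀ s, chi (bar s) = -chi s := by decide +kernel

def des (n : ℕ) : Des (Fin 24) (Vx n) (Bool × ZMod 3) where
  bar := bar
  L := fun v s => inc v.1.2 s
  col := fun v => v.1.1
  τ := tau
  wl := fun s => 21 ≤ s.1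
  W := fun v => 21 ≤ v.1.2.1
  np := 2 * n + 1
  mp := 10 * n + 5
  mm := 10 * n
  bar_bar := by decide +kernel
  bar_ne := by decide +kernel
  τ_τ := fun i s => by simp [tau, chi_bar]
  wl_bar := by decide +kernel
  L_W := fun v => (show ∀ t s, inc t s → (21 ≤ s.1 ↔ 21 ≤ t.1) by decide +kernel) v.1.2
  card_wl := by
    rw [Nat.card_eq_fintype_card, Fintype.card_subtype]
    decide +kernel
  card_P := by simp
  deg := fun a => by
    rw [Nat.card_eq_fintype_card, Fintype.card_subtype]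
    exact f5 _
  bal := fun i s => by
    rw [ncard_col n i (fun t => inc t s), ncard_col n (tau i s) (fun t => inc t (bar s)),
      (f1 i s).1, (f1 _ _).1, (f1 i s).2.2]
  two := fun i s t h1 h2 => by
    have := ncard_col n i (fun u => inc u s && inc u t)
    simp only [Bool.and_eq_true] at this
    rw [this]
    obtain ⟨e1, e2⟩ := f2 i s t h1 h2
    exact Nat.add_le_add (Nat.mul_le_mul_right _ e1) e2
  one := fun i s => by
    rw [ncard_col n i (fun t => inc t s), (f1 i s).1]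
    exact Nat.add_le_add_left (f1 i s).2.1 _
  big := fun a s _ => by
    rw [ncard_col n a.1.1 (fun t => inc t s), (f1 _ s).1]
    exact Nat.le_add_right _ _
  np_pos := by omega
  np_le := by omega
  mp_le := by omega
  card_V := by
    rw [Nat.card_eq_fintype_card, ← Finset.card_univ, Finset.card_eq_sum_card_fiberwise
      (f := fun v : Vx n => v.1.1) (t := univ) (fun _ _ => mem_univ _)]
    refine (Finset.sum_le_card_nsmul _ _ (60 * n + 30) (fun i _ => ?_)).trans ?_
    · have := card_col n i (fun _ => true)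
      simp only [and_true] at this
      rw [this]
      exact Nat.add_le_add (Nat.mul_le_mul_right _ (f3 i).1) (f3 i).2
    · simp only [card_univ, Fintype.card_prod, Fintype.card_bool, ZMod.card, smul_eq_mul]
      omega

lemma ne_zero {G X : Type} [Group G] (s : Finset X) (g : X → G) (f : G →* Multiplicative (ZMod 3))
    (h : (s.filter (fun a => f (g a) = 1)).card % 2 = 1) :
    ∑ a ∈ s, MonoidAlgebra.single (g a) (1 : ZMod 2) ≠ 0 := by
  intro h0
  have h1 := congrArg (MonoidAlgebra.lift (ZMod 2) (MonoidAlgebra (ZMod 2) (Multiplicative (ZMod 3)))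
    G ((MonoidAlgebra.of _ _).comp f)) h0
  rw [map_sum, map_zero] at h1
  simp only [MonoidAlgebra.lift_single, MonoidHom.comp_apply, MonoidAlgebra.of_apply, one_smul] at h1
  have h2 := congrArg (fun z => z.coeff 1) h1
  simp only [MonoidAlgebra.coeff_sum, MonoidAlgebra.coeff_single, Finsupp.finsetSum_apply,
    Finsupp.single_apply, MonoidAlgebra.coeff_zero, Finsupp.zero_apply, Finset.sum_boole] at h2
  rw [ZMod.natCast_eq_zero_iff] at h2
  omega

open Classical in
lemma prod_zero {P V G : Type} [Fintype P] [Fintype V] [Group G] (T : TG P V) (side : V → Bool)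
    (nw : V → Prop) (x : P → G) (γ : V → G) (hγ : ∀ a s, T.L a s → γ (T.nx a s) = γ a * x s)
    (hs : ∀ a s, T.L a s → side (T.nx a s) = side a)
    (hpar : ∀ a b, side a = true → side b = false →
      (univ.filter (fun s => T.L a s ∧ T.L b s)).card % 2 = if nw a ∧ nw b then 1 else 0)
    (A : Bool → Finset V) (hA : ∀ b a, a ∈ A b ↔ side a = b ∧ nw a) :
    (∑ a ∈ A true, MonoidAlgebra.single (γ a) (1 : ZMod 2)) *
      ∑ a ∈ A false, MonoidAlgebra.single (γ a)⁻¹ (1 : ZMod 2) = 0 := by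
  let S : Finset (V × V × P) := univ.filter (fun p => side p.1 = true ∧
    side p.2.1 = false ∧ T.L p.1 p.2.2 ∧ T.L p.2.1 p.2.2)
  have two : ∀ z : MonoidAlgebra (ZMod 2) G, z + z = 0 := fun z => by
    rw [← two_smul (ZMod 2), show (2 : ZMod 2) = 0 from rfl, zero_smul]
  have h0 : ∑ p ∈ S, MonoidAlgebra.single (γ p.1 * (γ p.2.1)⁻¹) (1 : ZMod 2) = 0 := by
    refine Finset.sum_involution (fun p _ => (T.nx p.1 p.2.2, T.nx p.2.1 p.2.2, T.bar p.2.2))
      ?_ ?_ ?_ ?_
    · rintro ⟨a, b, s⟩ hp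
      obtain ⟨-, -, h1, h2⟩ := (Finset.mem_filter.1 hp).2
      rw [hγ a s h1, hγ b s h2, mul_inv_rev, mul_assoc, mul_inv_cancel_left]
      exact two _
    · rintro ⟨a, b, s⟩ _ _ e
      exact T.bar_ne s (congrArg (fun p => p.2.2) e)
    · rintro ⟨a, b, s⟩ hp
      obtain ⟨h3, h4, h1, h2⟩ := (Finset.mem_filter.1 hp).2
      exact Finset.mem_filter.2 ⟨mem_univ _, (hs a s h1).trans h3, (hs b s h2).trans h4,
        T.L_nx _ _ h1, T.L_nx _ _ h2⟩
    · rintro ⟨a, b, s⟩ hp
      obtain ⟨-, -, h1, h2⟩ := (Finset.mem_filter.1 hp).2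
      simp only [T.nx_nx a s h1, T.nx_nx b s h2, T.bar_bar]
  have hA' : ∀ b, A b = univ.filter (fun a => side a = b ∧ nw a) := fun b => by
    ext a; simp [hA]
  rw [Finset.sum_filter, Fintype.sum_prod_type] at h0
  rw [← h0, Finset.sum_mul_sum, hA', hA', Finset.sum_filter]
  refine Finset.sum_congr rfl (fun a _ => ?_)
  rw [Fintype.sum_prod_type, Finset.sum_filter]
  by_cases ha : side a = true
  swap
  · simp [ha]
  rw [← Finset.sum_const_zero (s := (univ : Finset V)), ← Finset.sum_ite_irrel]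
  refine Finset.sum_congr rfl (fun b _ => ?_)
  by_cases hb : side b = false
  swap
  · simp [hb]
  have h1 := hpar a b ha hb
  simp only [ha, hb, true_and, MonoidAlgebra.single_mul_single, mul_one, Finset.sum_const_zero]
  rw [← Finset.sum_filter, Finset.sum_const, ← Nat.cast_smul_eq_nsmul (ZMod 2),
    ← ZMod.natCast_mod, h1]
  by_cases h2 : nw a <;> by_cases h3 : nw b <;> simp [h2, h3]

end Dsg
open Dsg

/-- the typing by lines of the projective plane of order four, and the zero divisors -/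
theorem exists_design (n : ℕ) : ∃ (P V I : Type) (_ : Finite P) (_ : Finite V) (Ds : Des P V I),
    Ds.np = 2 * n + 1 ∧ Ds.mp = 10 * n + 5 ∧ Ds.mm = 10 * n ∧
    ∀ T : TG P V, Ds.Fits T → ∀ (G : Type) [Group G] (x : P → G) (γ : V → G),
      (∀ s, x (T.bar s) = (x s)⁻¹) → (∀ a s, T.L a s → γ (T.nx a s) = γ a * x s) →
      (∀ (H : Type) [Group H] (x' : P → H) (γ' : V → H), (∀ s, x' (T.bar s) = (x' s)⁻¹) →
        (∀ a s, T.L a s → γ' (T.nx a s) = γ' a * x' s) →
        ∃ f : G →* H, (∀ s, f (x s) = x' s) ∧ ∀ a, f (γ a) = γ' a) →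
      ∃ α β : MonoidAlgebra (ZMod 2) G, α ≠ 0 ∧ β ≠ 0 ∧ α * β = 0 := by
  refine ⟨_, _, _, inferInstance, inferInstance, des n, rfl, rfl, rfl, ?_⟩
  rintro T ⟨hb, hL, hc⟩ G _ x γ hx hγ hU
  have hL' : ∀ a s, T.L a s ↔ inc a.1.2 s := fun a s => by rw [hL]; rfl
  have hc' : ∀ a s, T.L a s → (T.nx a s).1.1 = tau a.1.1 s := fun a s h => hc a s (hL ▸ h)
  obtain ⟨f, -, hf⟩ := hU (Multiplicative (ZMod 3)) (fun s => Multiplicative.ofAdd (chi s))
    (fun a => Multiplicative.ofAdd a.1.1.2)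
    (fun s => by rw [hb, ← ofAdd_neg, ← chi_bar]; rfl)
    (fun a s h => by rw [hc' a s h, ← ofAdd_add]; rfl)
  let A : Bool → Finset (Vx n) := fun b => univ.filter (fun a => a.1.1.1 = b ∧ a.1.2.1 < 21)
  have hA : ∀ b, ((A b).filter (fun a => a.1.1.2 = 0)).card % 2 = 1 := by
    intro b
    have := card_col n (b, 0) (fun t => t.1 < 21)
    rw [(f6 b).1, (f6 b).2] at this
    rw [Finset.filter_filter, Finset.filter_congr (q := fun v : Vx n => v.1.1 = (b, 0) ∧
      decide (v.1.2.1 < 21) = true) (fun v _ => by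
        rw [Prod.ext_iff, decide_eq_true_eq, and_right_comm]), this]
    omega
  refine ⟨∑ a ∈ A true, MonoidAlgebra.single (γ a) 1, ∑ a ∈ A false, MonoidAlgebra.single (γ a)⁻¹ 1,
    ne_zero _ _ f (by simpa only [hf, ofAdd_eq_one] using hA true),
    ne_zero _ _ f (by simpa only [map_inv, inv_eq_one, hf, ofAdd_eq_one] using hA false), ?_⟩
  refine prod_zero T (fun a => a.1.1.1) (fun a => a.1.2.1 < 21) x γ hγ
    (fun a s h => by simp only [hc' a s h, tau]) (fun a b ha hb => ?_) A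
    (fun b a => by simp only [A, Finset.mem_filter, mem_univ, true_and])
  have e1 : a.1.2.1 ≤ 21 := by
    by_contra hn
    have := a.2.pos
    rw [((f7 _ _).1 ha (not_le.1 hn)).1, ((f7 _ _).1 ha (not_le.1 hn)).2] at this
    omega
  have e2 : b.1.2.1 ≠ 21 := by
    intro hn
    have := b.2.pos
    rw [((f7 _ _).2 hb hn).1, ((f7 _ _).2 hb hn).2] at this
    omega
  convert f4 _ _ e1 e2 using 3
  ext s
  simp only [Finset.mem_filter, hL']

end Vale.Agent.P201
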