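import Vale.Agent.P201.Basic
import Vale.Agent.P186.Switch

namespace Vale.Agent.P201
open Vale.Agent.P186 Vale.Agent.P186.Switch

theorem tg_ext {P V : Type} {T T' : TG P V} (h1 : T.bar = T'.bar) (h2 : T.L = T'.L)
    (h3 : T.nx = T'.nx) : T = T' := by
  cases T
  cases T'
  simp only at h1 h2 h3
  subst h1 h2 h3
  rfl

theorem tg_finite {P V : Type} [Finite P] [Finite V] : Finite (TG P V) :=
  Finite.of_injective (fun T : TG P V => (T.bar, T.L, T.nx)) fun _ _ h => by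
    simp only [Prod.mk.injEq] at h
    exact tg_ext h.1 h.2.1 h.2.2

/-- graphs fitting the design, of girth at least `g`, containing the darts of `F` -/
def OmF {P V I : Type} (Ds : Des P V I) (g : ℕ) (F : Finset (V × P × V)) : Set (TG P V) :=
  {T | Ds.Fits T ∧ T.Girth g ∧ ∀ e ∈ F, T.nx e.1 e.2.1 = e.2.2}

theorem sw_fits {P V I : Type} (Ds : Des P V I) {T : TG P V} (hT : Ds.Fits T) {a a' : V} {s : P}
    (ha : T.L a s) (ha' : T.L a' s) (hne : a ≠ a') (hc : Ds.col a' = Ds.col a) :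
    Ds.Fits (sw T a a' s ha ha' hne) := by
  obtain ⟨h1, h2, h3⟩ := hT
  refine ⟨h1, h2, ?_⟩
  have hb : Ds.L a s := h2 ▸ ha
  have hb' : Ds.L a' s := h2 ▸ ha'
  intro x t hx
  by_cases hsp : SpD T a a' s x t
  · rcases hsp with ⟨rfl, rfl⟩ | ⟨rfl, rfl⟩ | ⟨rfl, rfl⟩ | ⟨rfl, rfl⟩
    · rw [sw_nx1, h3 _ _ hb', hc]
    · rw [sw_nx2, h3 _ _ hb, hc]
    · rw [sw_nx3, h3 _ _ hb, h1, Ds.τ_τ, hc]
    · rw [sw_nx4, h3 _ _ hb', h1, Ds.τ_τ, hc]
  · rw [sw_nx_of_not _ _ _ _ _ _ _ _ _ hsp]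
    exact h3 x t hx

theorem sw_girth {P V : Type} {T : TG P V} {g : ℕ} (hg : T.Girth g) {a a' : V} {s : P}
    (ha : T.L a s) (ha' : T.L a' s) (hne : a ≠ a') (hfar : ¬ Reach T (g + 2) a a') :
    (sw T a a' s ha ha' hne).Girth g := by
  intro x y d1 d2 d3 d4 d5
  obtain ⟨e1, e2⟩ := transfer (T := T) (T' := sw T a a' s ha ha' hne) rfl
    (sw_nx_of_not T a a' s ha ha' hne) d1 (sw_free T a a' s ha ha' hne g hg hfar d1 d2 d4.le d5)
  exact hg x y e1 d2 d3 d4 (e2.trans d5)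

theorem sw_inj {P V : Type} {T T' : TG P V} {a a1 a2 : V} {s : P}
    (ha : T.L a s) (ha1 : T.L a1 s) (hne : a ≠ a1)
    (hb : T'.L a s) (hb2 : T'.L a2 s) (hne' : a ≠ a2) (hn : T.nx a s = T'.nx a s)
    (h : sw T a a1 s ha ha1 hne = sw T' a a2 s hb hb2 hne') : T = T' ∧ a1 = a2 := by
  have hbar : T.bar = T'.bar := (congrArg TG.bar h :)
  have hL : T.L = T'.L := (congrArg TG.L h :)
  have h12 : a1 = a2 := by
    rw [← sw_nx3 T a a1 s ha ha1 hne, ← sw_nx3 T' a a2 s hb hb2 hne', h, hn, hbar]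
  subst h12
  have hn' : T.nx a1 s = T'.nx a1 s := by
    rw [← sw_nx1 T a a1 s ha ha1 hne, ← sw_nx1 T' a a1 s hb hb2 hne', h]
  refine ⟨tg_ext hbar hL ?_, rfl⟩
  funext v t
  by_cases hsp : SpD T a a1 s v t
  · rcases hsp with ⟨rfl, rfl⟩ | ⟨rfl, rfl⟩ | ⟨rfl, rfl⟩ | ⟨rfl, rfl⟩
    · exact hn
    · exact hn'
    · rw [T.nx_nx _ _ ha, hn, hbar, T'.nx_nx _ _ hb]
    · rw [T.nx_nx _ _ ha1, hn', hbar, T'.nx_nx _ _ hb2]
  · have hsp' : ¬ SpD T' a a1 s v t := by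
      unfold SpD at hsp ⊢
      rwa [← hn, ← hn', ← hbar]
    rw [← sw_nx_of_not T a a1 s ha ha1 hne v t hsp, ← sw_nx_of_not T' a a1 s hb hb2 hne' v t hsp', h]

theorem omF_insert {P V I : Type} [Finite P] [Finite V] [DecidableEq (V × P × V)]
    (Ds : Des P V I) (g Lm : ℕ) (m' : ℝ)
    (hbig : m' + 6 ^ (g + 2) + 2 * Lm ≤ Ds.mm) (F : Finset (V × P × V)) (e : V × P × V)
    (hcard : F.card ≤ Lm) (hL : Ds.L e.1 e.2.1)
    (hdist : ∀ e' ∈ F, (e.1, e.2.1) ≠ (e'.1, e'.2.1) ∧ (e.2.2, Ds.bar e.2.1) ≠ (e'.1, e'.2.1)) :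
    m' * (OmF Ds g (insert e F)).ncard ≤ (OmF Ds g F).ncard := by
  classical
  have := tg_finite (P := P) (V := V)
  have := Fintype.ofFinite (TG P V)
  have := Fintype.ofFinite V
  obtain ⟨a, s, b⟩ := e
  simp only at hL hdist
  let G : TG P V → Finset V := fun T => Finset.univ.filter fun a' =>
    Ds.col a' = Ds.col a ∧ Ds.L a' s ∧ ¬ Reach T (g + 2) a a' ∧
      ∀ f ∈ F, (a', s) ≠ (f.1, f.2.1) ∧ (a', s) ≠ (f.2.2, Ds.bar f.2.1)
  have hG : ∀ T, Ds.Fits T → m' ≤ (G T).card := by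
    intro T hT
    have h1 := Ds.big a s hL
    have h2 := ncard_ball_le T 5 (by rw [hT.2.1]; exact Ds.deg) (g + 2) a
    rw [Set.ncard_eq_toFinset_card'] at h2
    rw [Nat.card_eq_fintype_card, Fintype.card_subtype] at h1
    have h3 : (Finset.univ.filter fun b => Ds.col b = Ds.col a ∧ Ds.L b s) ⊆
        ((G T ∪ {v | Reach T (g + 2) a v}.toFinset) ∪ F.image (fun f => f.1)) ∪
          F.image (fun f => f.2.2) := by
      intro x hx
      simp only [Finset.mem_filter, Finset.mem_univ, true_and] at hx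
      simp only [Finset.mem_union, G, Finset.mem_filter, Finset.mem_univ, true_and,
        Set.mem_toFinset, Finset.mem_image]
      by_cases k1 : Reach T (g + 2) a x
      · exact Or.inl (Or.inl (Or.inr k1))
      by_cases k2 : ∃ f ∈ F, f.1 = x
      · exact Or.inl (Or.inr k2)
      by_cases k3 : ∃ f ∈ F, f.2.2 = x
      · exact Or.inr k3
      refine Or.inl (Or.inl (Or.inl ⟨hx.1, hx.2, k1, fun f hf => ⟨fun h => k2 ⟨f, hf, ?_⟩,
        fun h => k3 ⟨f, hf, ?_⟩⟩⟩))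
      · exact (congrArg Prod.fst h).symm
      · exact (congrArg Prod.fst h).symm
    have h4 := (Finset.card_le_card h3).trans (Finset.card_union_le _ _)
    have h5 := Finset.card_union_le (G T ∪ {v | Reach T (g + 2) a v}.toFinset)
      (F.image (fun f => f.1))
    have h6 := Finset.card_union_le (G T) ({v | Reach T (g + 2) a v}.toFinset)
    have h7 : (F.image (fun f => f.1)).card ≤ Lm := Finset.card_image_le.trans hcard
    have h8 : (F.image (fun f => f.2.2)).card ≤ Lm := Finset.card_image_le.trans hcard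
    have h9 : Ds.mm ≤ (G T).card + 6 ^ (g + 2) + 2 * Lm := by
      rw [show 5 + 1 = 6 from rfl] at h2
      omega
    have h10 : (Ds.mm : ℝ) ≤ (G T).card + 6 ^ (g + 2) + 2 * Lm := by exact_mod_cast h9
    linarith
  let φ : (Σ _ : TG P V, V) → TG P V := fun x =>
    if h : x.1.L a s ∧ x.1.L x.2 s ∧ a ≠ x.2 then sw x.1 a x.2 s h.1 h.2.1 h.2.2 else x.1
  let S : Finset (Σ _ : TG P V, V) := (OmF Ds g (insert (a, s, b) F)).toFinset.sigma G
  have hS : ∀ x ∈ S, (x.1.L a s ∧ x.1.L x.2 s ∧ a ≠ x.2) := by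
    rintro ⟨T, a'⟩ hx
    simp only [S, G, Finset.mem_sigma, Set.mem_toFinset, Finset.mem_filter, Finset.mem_univ,
      true_and] at hx
    obtain ⟨hT, -, k2, k3, -⟩ := hx
    refine ⟨by rw [hT.1.2.1]; exact hL, by rw [hT.1.2.1]; exact k2, ?_⟩
    rintro rfl
    exact k3 ⟨[], trivial, by simp, rfl⟩
  have hinj : S.card ≤ (OmF Ds g F).toFinset.card := by
    refine Finset.card_le_card_of_injOn φ ?_ ?_
    · rintro ⟨T, a'⟩ hx
      have h := hS _ hx
      simp only [S, G, Finset.coe_sigma, Set.mem_sigma_iff, Finset.mem_coe, Set.mem_toFinset,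
        Finset.mem_filter, Finset.mem_univ, true_and] at hx
      obtain ⟨hT, k1, k2, k3, k4⟩ := hx
      simp only [φ, dif_pos h, Finset.mem_coe, Set.mem_toFinset]
      refine ⟨sw_fits Ds hT.1 _ _ _ k1, sw_girth hT.2.1 _ _ _ k3, fun f hf => ?_⟩
      have hb : T.nx a s = b := hT.2.2 (a, s, b) (Finset.mem_insert_self _ _)
      have hf' : T.nx f.1 f.2.1 = f.2.2 := hT.2.2 f (Finset.mem_insert_of_mem hf)
      rw [sw_nx_of_not, hf']
      rintro (⟨e1, e2⟩ | ⟨e1, e2⟩ | ⟨e1, e2⟩ | ⟨e1, e2⟩)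
      · exact (hdist f hf).1 (by rw [e1, e2])
      · exact (k4 f hf).1 (by rw [e1, e2])
      · exact (hdist f hf).2 (by rw [e1, e2, hb, hT.1.1])
      · refine (k4 f hf).2 ?_
        rw [← hf', e1, e2, T.nx_nx _ _ h.2.1, ← hT.1.1, T.bar_bar]
    · rintro ⟨T, a1⟩ hx ⟨T', a2⟩ hy hxy
      have h := hS _ hx
      have h' := hS _ hy
      simp only [φ, dif_pos h, dif_pos h'] at hxy
      simp only [S, Finset.coe_sigma, Set.mem_sigma_iff, Finset.mem_coe, Set.mem_toFinset] at hx hy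
      have hb : T.nx a s = b := hx.1.2.2 (a, s, b) (Finset.mem_insert_self _ _)
      have hb' : T'.nx a s = b := hy.1.2.2 (a, s, b) (Finset.mem_insert_self _ _)
      obtain ⟨rfl, rfl⟩ := sw_inj _ _ _ _ _ _ (hb.trans hb'.symm) hxy
      rfl
  rw [Set.ncard_eq_toFinset_card', Set.ncard_eq_toFinset_card']
  have h1 : m' * (OmF Ds g (insert (a, s, b) F)).toFinset.card ≤ S.card := by
    rw [Finset.card_sigma, Nat.cast_sum, mul_comm, ← nsmul_eq_mul]
    exact Finset.card_nsmul_le_sum _ _ _ fun T hT => hG T (Set.mem_toFinset.1 hT).1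
  exact h1.trans (by exact_mod_cast hinj)

theorem omF_le {P V I : Type} [Finite P] [Finite V] (Ds : Des P V I) (g Lm : ℕ) (m' : ℝ)
    (hm : 0 < m') (hbig : m' + 6 ^ (g + 2) + 2 * Lm ≤ Ds.mm) (F : Finset (V × P × V))
    (hcard : F.card ≤ Lm) (hL : ∀ e ∈ F, Ds.L e.1 e.2.1)
    (hdist : ∀ e ∈ F, ∀ e' ∈ F, e ≠ e' →
      (e.1, e.2.1) ≠ (e'.1, e'.2.1) ∧ (e.2.2, Ds.bar e.2.1) ≠ (e'.1, e'.2.1)) :
    ((OmF Ds g F).ncard : ℝ) ≤ (1 / m') ^ F.card * (OmF Ds g ∅).ncard := by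
  classical
  induction F using Finset.induction_on with
  | empty => simp
  | insert e F he ih =>
    rw [Finset.card_insert_of_notMem he] at hcard ⊢
    have h1 := ih (by omega) (fun f hf => hL f (Finset.mem_insert_of_mem hf))
      (fun f hf f' hf' => hdist f (Finset.mem_insert_of_mem hf) f' (Finset.mem_insert_of_mem hf'))
    have h2 := omF_insert Ds g Lm m' hbig F e (by omega) (hL e (Finset.mem_insert_self _ _))
      (fun f hf => hdist e (Finset.mem_insert_self _ _) f (Finset.mem_insert_of_mem hf)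
        (fun h => he (h ▸ hf)))
    rw [pow_succ', mul_assoc, one_div_mul_eq_div, le_div_iff₀ hm, mul_comm]
    exact h2.trans h1

/-- first moment bound in the family of graphs of girth at least `g` -/
theorem first_moment {P V I : Type} [Finite P] [Finite V] (Ds : Des P V I) (g Lm : ℕ) (m' : ℝ)
    (hm : 0 < m') (hbig : m' + 6 ^ (g + 2) + 2 * Lm ≤ Ds.mm)
    {ι : Type} [Fintype ι] (F : ι → Finset (V × P × V)) (hcard : ∀ c, (F c).card ≤ Lm)
    (hL : ∀ c, ∀ e ∈ F c, Ds.L e.1 e.2.1)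
    (hdist : ∀ c, ∀ e ∈ F c, ∀ e' ∈ F c, e ≠ e' →
      (e.1, e.2.1) ≠ (e'.1, e'.2.1) ∧ (e.2.2, Ds.bar e.2.1) ≠ (e'.1, e'.2.1))
    (hsum : ∑ c, (1 / m') ^ (F c).card < 1) :
    ∃ T : TG P V, Ds.Fits T ∧ T.Girth g ∧ ∀ c, ¬ ∀ e ∈ F c, T.nx e.1 e.2.1 = e.2.2 := by
  classical
  have := tg_finite (P := P) (V := V)
  have := Fintype.ofFinite (TG P V)
  by_contra hcon
  have hne : (OmF Ds g ∅).Nonempty := by
    obtain ⟨T, h1, h2, h3, h4⟩ := exists_girth Ds.bar Ds.bar_bar Ds.bar_ne Ds.L Ds.col Ds.τ Ds.τ_τ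
      (fun _ => False) (fun _ h => h) (fun _ _ _ _ _ h => h.elim) g 5 Ds.deg Ds.bal (by
        intro a s ha _
        refine lt_of_lt_of_le ?_ (Ds.big a s ha)
        have h5 : (0 : ℝ) ≤ Lm := Nat.cast_nonneg _
        have h6 : ((6 : ℝ)) ^ (g + 2) < Ds.mm := by linarith
        exact_mod_cast h6)
    exact ⟨T, ⟨h1, h2, h3⟩, h4, by simp⟩
  have hpos : (0 : ℝ) < (OmF Ds g ∅).ncard := by
    exact_mod_cast (Set.ncard_pos (Set.toFinite _)).2 hne
  have hsub : (OmF Ds g ∅).toFinset ⊆ Finset.univ.biUnion fun c => (OmF Ds g (F c)).toFinset := by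
    intro T hT
    rw [Set.mem_toFinset] at hT
    simp only [Finset.mem_biUnion, Finset.mem_univ, true_and, Set.mem_toFinset]
    by_contra h
    exact hcon ⟨T, hT.1, hT.2.1, fun c hc => h ⟨c, hT.1, hT.2.1, hc⟩⟩
  have h1 := (Finset.card_le_card hsub).trans Finset.card_biUnion_le
  simp only [← Set.ncard_eq_toFinset_card'] at h1
  have h2 : ((OmF Ds g ∅).ncard : ℝ) ≤ ∑ c, ((OmF Ds g (F c)).ncard : ℝ) := by exact_mod_cast h1
  have h3 : ∑ c, ((OmF Ds g (F c)).ncard : ℝ) ≤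
      ∑ c, (1 / m') ^ (F c).card * (OmF Ds g ∅).ncard :=
    Finset.sum_le_sum fun c _ => omF_le Ds g Lm m' hm hbig (F c) (hcard c) (hL c) (hdist c)
  rw [← Finset.sum_mul] at h3
  nlinarith

end Vale.Agent.P201
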