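import Vale.Agent.P201.Cluster

namespace Vale.Agent.P201.Cluster
open Finset
open Vale.Agent.P186

variable {D N N' : Type} [DecidableEq D] [DecidableEq N] [DecidableEq N']

theorem Mac.contract {ε : D → D} (hε : ∀ d, ε (ε d) = d) {S : Finset D} {node : D → N}
    (hS : ∀ d ∈ S, ε d ∈ S) (g : N → N')
    (hc : ∀ d ∈ S, ∀ d' ∈ S, g (node d) = g (node d') →
      Relation.EqvGen (fun a b => g a = g b ∧ Adj ε S node a b) (node d) (node d'))
    (h : Mac ε S node) : Mac ε S (fun d => g (node d)) := by
  classical
  obtain ⟨W, v, ha, hb⟩ := h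
  let X := S.image node
  have hfib : ∀ (F : D → ZMod 2) (y : N'), ∑ d ∈ S.filter (fun d => g (node d) = y), F d =
      ∑ x ∈ X.filter (fun x => g x = y), ∑ d ∈ S.filter (fun d => node d = x), F d := by
    intro F y
    rw [← Finset.sum_fiberwise_of_maps_to (s := S.filter (fun d => g (node d) = y))
      (t := X.filter (fun x => g x = y)) (g := node)]
    · apply Finset.sum_congr rfl
      intro x hx
      congr 1
      ext d
      simp only [mem_filter] at hx ⊢
      constructor
      · rintro ⟨⟨h1, _⟩, h3⟩; exact ⟨h1, h3⟩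
      · rintro ⟨h1, h2⟩; exact ⟨⟨h1, by rw [h2, hx.2]⟩, h2⟩
    · intro d hd
      simp only [mem_filter] at hd ⊢
      exact ⟨Finset.mem_image_of_mem _ hd.1, hd.2⟩
  have hsw : ∀ a b, ε a = b ↔ a = ε b := fun a b =>
    ⟨fun h' => by rw [← h', hε], fun h' => by rw [h', hε]⟩
  have hchain : ∀ x y, Relation.EqvGen (fun a b => g a = g b ∧ Adj ε S node a b) x y →
      ∃ c : D → ZMod 2, (∀ d, c (ε d) = c d) ∧ (∀ d, g (node d) ≠ g (node (ε d)) → c d = 0) ∧
        ∀ z, ∑ d ∈ S.filter (fun d => node d = z), c d =
          (if x = z then 1 else 0) + (if y = z then 1 else 0) := by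
    intro x y hxy
    induction hxy with
    | rel a b hab =>
      obtain ⟨e1, e, he, e2, e3⟩ := hab
      refine ⟨fun d => (if d = e then 1 else 0) + (if d = ε e then 1 else 0), ?_, ?_, ?_⟩
      · intro d
        simp only [hsw d, hε]
        exact add_comm _ _
      · intro d hd
        beta_reduce
        rw [if_neg, if_neg, add_zero]
        · rintro rfl
          exact hd (by rw [hε, e2, e3, e1])
        · rintro rfl
          exact hd (by rw [e2, e3, e1])
      · intro z
        rw [Finset.sum_add_distrib, Finset.sum_ite_eq', Finset.sum_ite_eq']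
        simp only [mem_filter, he, hS e he, true_and, e2, e3]
    | refl a => exact ⟨fun _ => 0, fun _ => rfl, fun _ _ => rfl, fun z => by
        rw [z2_add_self]; simp⟩
    | symm a b _ ih =>
      obtain ⟨c, h1, h2, h3⟩ := ih
      exact ⟨c, h1, h2, fun z => by rw [h3, add_comm]⟩
    | trans a b c _ _ ih1 ih2 =>
      obtain ⟨c1, h1, h2, h3⟩ := ih1
      obtain ⟨c2, k1, k2, k3⟩ := ih2
      refine ⟨fun d => c1 d + c2 d, fun d => by simp only [h1, k1], fun d hd => by
        simp only [h2 d hd, k2 d hd, add_zero], fun z => ?_⟩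
      rw [Finset.sum_add_distrib, h3, k3]
      have := z2_add_self (if b = z then (1 : ZMod 2) else 0)
      linear_combination this
  refine ⟨W, v, ?_, ?_⟩
  · intro f y
    rw [hfib]
    exact Finset.sum_eq_zero (fun x _ => ha f x)
  · intro lam hsym hev
    have hb0 : ∀ y : N', ∃ o : Option N, ∀ x ∈ X, g x = y →
        ∃ b, o = some b ∧ Relation.EqvGen (fun a b => g a = g b ∧ Adj ε S node a b) x b := by
      intro y
      by_cases hy : ∃ d ∈ S, g (node d) = y
      · obtain ⟨d, hd, rfl⟩ := hy
        refine ⟨some (node d), fun x hx e => ⟨_, rfl, ?_⟩⟩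
        obtain ⟨d', hd', rfl⟩ := Finset.mem_image.1 hx
        exact hc d' hd' d hd e
      · refine ⟨none, fun x hx e => ?_⟩
        obtain ⟨d', hd', rfl⟩ := Finset.mem_image.1 hx
        exact absurd ⟨d', hd', e⟩ hy
    choose o ho using hb0
    have hc0 : ∀ x : X, ∃ c : D → ZMod 2, (∀ d, c (ε d) = c d) ∧
        (∀ d, g (node d) ≠ g (node (ε d)) → c d = 0) ∧
        ∀ z, ∑ d ∈ S.filter (fun d => node d = z), c d =
          (if (x : N) = z then 1 else 0) + (if o (g x) = some z then 1 else 0) := by
      intro x
      obtain ⟨b, e1, e2⟩ := ho (g x) x x.2 rfl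
      obtain ⟨c, h1, h2, h3⟩ := hchain _ _ e2
      exact ⟨c, h1, h2, fun z => by rw [h3, e1]; simp⟩
    choose c hc1 hc2 hc3 using hc0
    set par : N → ZMod 2 := fun x => ∑ d ∈ S.filter (fun d => node d = x), lam d with hpar
    obtain ⟨f, hf⟩ := hb (fun d => lam d + ∑ x : X, par x * c x d)
      (fun d => by simp only [hsym, hc1])
      (fun z => by
        rw [Finset.sum_add_distrib, Finset.sum_comm]
        simp only [← Finset.mul_sum, hc3, mul_add, Finset.sum_add_distrib]
        change par z + _ = 0
        rw [Finset.sum_coe_sort X (fun x => par x * if x = z then 1 else 0),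
          Finset.sum_coe_sort X (fun x => par x * if o (g x) = some z then 1 else 0)]
        have e1 : ∑ x ∈ X, par x * (if x = z then 1 else 0) = par z := by
          simp only [mul_ite, mul_one, mul_zero, Finset.sum_ite_eq']
          split_ifs with hz
          · rfl
          · symm
            refine Finset.sum_eq_zero (fun d hd => ?_)
            have := Finset.mem_filter.1 hd
            exact absurd (this.2 ▸ Finset.mem_image_of_mem node this.1) hz
        have e2 : ∑ x ∈ X, par x * (if o (g x) = some z then 1 else 0) = 0 := by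
          rw [← Finset.sum_fiberwise_of_maps_to (g := g) (t := X.image g)
            (fun x hx => Finset.mem_image_of_mem g hx)]
          refine Finset.sum_eq_zero (fun y _ => ?_)
          have : ∑ x ∈ X.filter (fun x => g x = y), par x * (if o (g x) = some z then 1 else 0) =
              (∑ x ∈ X.filter (fun x => g x = y), par x) * (if o y = some z then 1 else 0) := by
            rw [Finset.sum_mul]
            exact Finset.sum_congr rfl (fun x hx => by rw [(Finset.mem_filter.1 hx).2])
          rw [this]
          have h2 := hev y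
          rw [hfib] at h2
          rw [h2, zero_mul]
        rw [e1, e2, add_zero]
        exact z2_add_self _)
    refine ⟨f, fun d hd hn => ?_⟩
    have hn' : node d ≠ node (ε d) := fun h' => hn (by simp only [h'])
    have h0 : ∑ x : X, par x * c x d = 0 :=
      Finset.sum_eq_zero (fun x _ => by rw [hc2 x d hn, mul_zero])
    have := hf d hd hn'
    simpa only [h0, add_zero] using this

/-- flip of a corner dart -/
def flp (p : D × Bool) : D × Bool := (p.1, !p.2)

omit [DecidableEq D] in
lemma flp_flp (p : D × Bool) : flp (flp p) = p := by simp [flp]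

/-- end point of a corner dart, for a labelling `key` of the darts -/
def mnode (φ : D → D) (key : D → N) (p : D × Bool) : N := bif p.2 then key p.1 else key (φ p.1)

theorem mac_medial [Fintype D] (φ ε : Equiv.Perm D) (hε : ∀ d, ε (ε d) = d) (hε' : ∀ d, ε d ≠ d)
    (h : SC φ ε) : Mac flp univ (mnode φ (fun d => s(d, ε d))) := by
  classical
  have hi1 : ∀ a, φ (φ⁻¹ a) = a := by simp
  have hi2 : ∀ a, φ⁻¹ (φ a) = a := by simp
  have hsum : ∀ (F : D × Bool → ZMod 2) (d : D),
      ∑ p ∈ univ.filter (fun p => mnode φ (fun d => s(d, ε d)) p = s(d, ε d)), F p =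
        F (d, true) + F (ε d, true) + F (φ⁻¹ d, false) + F (φ⁻¹ (ε d), false) := by
    intro F d
    have hE : ∀ a, s(a, ε a) = s(d, ε d) ↔ a = d ∨ a = ε d := by
      intro a
      rw [Sym2.eq_iff]
      constructor
      · rintro (⟨h1, _⟩ | ⟨h1, _⟩)
        · exact Or.inl h1
        · exact Or.inr h1
      · rintro (rfl | rfl)
        · exact Or.inl ⟨rfl, rfl⟩
        · exact Or.inr ⟨rfl, hε d⟩
    have : univ.filter (fun p => mnode φ (fun d => s(d, ε d)) p = s(d, ε d)) =
        {(d, true), (ε d, true), (φ⁻¹ d, false), (φ⁻¹ (ε d), false)} := by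
      ext ⟨a, b⟩
      rw [Finset.mem_filter]
      cases b
      · change (_ ∧ s(φ a, ε (φ a)) = _) ↔ _
        have hq : ∀ x, a = φ⁻¹ x ↔ φ a = x := fun x => Equiv.Perm.eq_inv_iff_eq
        simp only [mem_univ, true_and, hE, mem_insert, Prod.mk.injEq,
          Bool.false_eq_true, and_false, and_true, mem_singleton, false_or, hq]
      · change (_ ∧ s(a, ε a) = _) ↔ _
        simp only [mem_univ, true_and, hE, mem_insert, Prod.mk.injEq,
          Bool.true_eq_false, and_false, and_true, mem_singleton, or_false]
    have hne := (hε' d).symm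
    rw [this, Finset.sum_insert (by simp [hne]), Finset.sum_insert (by simp),
      Finset.sum_insert (by simp [hne]), Finset.sum_singleton]
    ring
  let r : D ⊕ D → D ⊕ D → Prop := fun a b => ∃ d, (a = Sum.inl d ∧ b = Sum.inl (φ d)) ∨
    (a = Sum.inr d ∧ b = Sum.inr (φ (ε d)))
  refine ⟨Quot r, fun p => Quot.mk r (bif p.2 then Sum.inl p.1 else Sum.inr (φ p.1)), ?_, ?_⟩
  · intro f x
    by_cases hx : ∃ d, x = s(d, ε d)
    · obtain ⟨d, rfl⟩ := hx
      rw [hsum]
      have e1 : ∀ a, Quot.mk r (Sum.inl (φ⁻¹ a)) = Quot.mk r (Sum.inl a) := fun a =>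
        Quot.sound ⟨φ⁻¹ a, Or.inl ⟨rfl, by simp⟩⟩
      have e2 : Quot.mk r (Sum.inr (φ (ε d))) = Quot.mk r (Sum.inr d) :=
        (Quot.sound (r := r) ⟨d, Or.inr ⟨rfl, rfl⟩⟩).symm
      have e3 : Quot.mk r (Sum.inr (φ d)) = Quot.mk r (Sum.inr (ε d)) :=
        (Quot.sound (r := r) ⟨ε d, Or.inr ⟨rfl, by rw [hε]⟩⟩).symm
      simp only [flp, Bool.not_true, Bool.not_false, cond_true, cond_false, e1, e2, e3,
        hi1]
      have a1 := z2_add_self (f (Quot.mk r (Sum.inl d)))
      have a2 := z2_add_self (f (Quot.mk r (Sum.inl (ε d))))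
      have a3 := z2_add_self (f (Quot.mk r (Sum.inr d)))
      have a4 := z2_add_self (f (Quot.mk r (Sum.inr (ε d))))
      linear_combination a1 + a2 + a3 + a4
    · refine Finset.sum_eq_zero (fun p hp => ?_)
      exfalso
      apply hx
      have := (Finset.mem_filter.1 hp).2
      obtain ⟨a, b⟩ := p
      cases b
      · exact ⟨φ a, this.symm⟩
      · exact ⟨a, this.symm⟩
  · intro lam hsym hev
    let a : D → ZMod 2 := fun d => lam (d, true)
    have ha : ∀ d, lam (d, false) = a d := fun d => hsym (d, true)
    let b : D → ZMod 2 := fun d => a d + a (φ⁻¹ d)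
    have hb : ∀ d, b (ε d) = b d := by
      intro d
      have := hev s(d, ε d)
      rw [hsum, ha, ha] at this
      apply z2_eq_of_add
      simp only [b, a] at this ⊢
      linear_combination this
    obtain ⟨f, hf1, hf2⟩ := h (Multiplicative (ZMod 2)) (fun d => Multiplicative.ofAdd (b d))
      (fun d => Multiplicative.ofAdd (a (φ⁻¹ d)))
      (fun d => by
        rw [hb, ← ofAdd_neg]
        congr 1
        exact eq_neg_of_add_eq_zero_left (z2_add_self _))
      (fun d => by
        rw [← ofAdd_add]
        congr 1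
        simp only [b, hi2]
        have := z2_add_self (a (φ⁻¹ d))
        linear_combination -this)
    let F : D → ZMod 2 := fun d => Multiplicative.toAdd (f d)
    have hF1 : ∀ d, F (φ d) = F d + b d := fun d => by simp only [F, hf1, toAdd_mul, toAdd_ofAdd]
    have hF2 : ∀ d, F (ε d) = F d + b d := fun d => by simp only [F, hf2, toAdd_mul, toAdd_ofAdd]
    refine ⟨Quot.lift (Sum.elim (fun d => a (φ⁻¹ d) + F d) F) ?_, ?_⟩
    · rintro x y ⟨d, ⟨rfl, rfl⟩ | ⟨rfl, rfl⟩⟩
      · simp only [Sum.elim_inl, hF1, b, hi2]
        have := z2_add_self (a d)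
        linear_combination -this
      · simp only [Sum.elim_inr]
        rw [hF1, hF2, hb]
        have := z2_add_self (b d)
        linear_combination -this
    · rintro ⟨d, c⟩ _ _
      have e : a d = a (φ⁻¹ d) + F d + F (φ d) := by
        rw [hF1]
        simp only [b]
        have h1 := z2_add_self (a (φ⁻¹ d))
        have h2 := z2_add_self (F d)
        linear_combination -h1 - h2
      cases c
      · rw [ha, e]
        simp only [flp, Bool.not_false, cond_true, cond_false, Sum.elim_inl, Sum.elim_inr]
        ring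
      · change a d = _
        rw [e]
        simp only [flp, Bool.not_true, cond_true, cond_false, Sum.elim_inl, Sum.elim_inr]

end Vale.Agent.P201.Cluster
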