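import Vale.Agent.P201.Basic
import Vale.Agent.P201.Medial
import Vale.Agent.P186.Euler

namespace Vale.Agent.P201
open Vale.Agent.P186 Finset Cluster

lemma exists_cut {D : Type} [Fintype D] [DecidableEq D] (φ : Equiv.Perm D) (h : ℕ) (h1 : 1 ≤ h)
    (hg : ∀ d j, 0 < j → j < h → φ^[j] d ≠ d) :
    ∃ C : Finset D, h * C.card ≤ Fintype.card D ∧ ∀ d, ∃ j < 2 * h, ∃ c ∈ C, φ^[j] c = d := by
  classical
  let sep : Finset D → Prop := fun C => ∀ c ∈ C, ∀ j, 0 < j → j < h → φ^[j] c ∉ C
  obtain ⟨C, hC, hmax⟩ := Finset.exists_max_image (univ.filter sep) Finset.card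
    ⟨∅, by simp [sep]⟩
  have hC' : sep C := (Finset.mem_filter.1 hC).2
  have hinj : ∀ j, Function.Injective φ^[j] := fun j => φ.injective.iterate j
  refine ⟨C, ?_, ?_⟩
  · have key : ∀ c ∈ C, ∀ c' ∈ C, ∀ i j, i ≤ j → j < h → φ^[i] c = φ^[j] c' → i = j := by
      intro c hc c' hc' i j hij hj e
      by_contra hne
      obtain ⟨k, rfl⟩ := Nat.exists_eq_add_of_le hij
      rw [Function.iterate_add_apply] at e
      exact hC' c' hc' k (by omega) (by omega) (hinj i e ▸ hc)
    have := Finset.card_le_card_of_injOn (s := range h ×ˢ C) (t := univ)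
      (fun p => φ^[p.1] p.2) (fun _ _ => mem_univ _) (by
        rintro ⟨i, c⟩ h1 ⟨j, c'⟩ h2 e
        simp only [coe_product, Set.mem_prod, coe_range, Set.mem_Iio, mem_coe] at h1 h2
        have hij : i = j := by
          rcases le_total i j with h3 | h3
          · exact key c h1.2 c' h2.2 i j h3 h2.1 e
          · exact (key c' h2.2 c h1.2 j i h3 h1.1 e.symm).symm
        subst hij
        exact Prod.ext rfl (hinj i e))
    simpa using this
  · intro d
    by_contra hcon
    push Not at hcon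
    obtain ⟨x, hx⟩ := (φ.surjective.iterate (h - 1)) d
    have hxC : x ∉ C := fun hc => hcon (h - 1) (by omega) x hc hx
    have hs : sep (insert x C) := by
      intro c hc j j0 jh hm
      rcases Finset.mem_insert.1 hc with rfl | hc
      · rcases Finset.mem_insert.1 hm with e | hm
        · exact hg _ j j0 jh e
        · refine hcon (h - 1 - j) (by omega) _ hm ?_
          rw [← Function.iterate_add_apply, show h - 1 - j + j = h - 1 by omega, hx]
      · rcases Finset.mem_insert.1 hm with e | hm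
        · refine hcon (h - 1 + j) (by omega) c hc ?_
          rw [Function.iterate_add_apply, e, hx]
        · exact hC' c hc j j0 jh hm
    have := hmax _ (Finset.mem_filter.2 ⟨mem_univ _, hs⟩)
    rw [Finset.card_insert_of_notMem hxC] at this
    omega

lemma exists_seg {D : Type} (φ : Equiv.Perm D) (Br : Finset D) (l : ℕ)
    (hc : ∀ d, ∃ j < l, ∃ c ∈ Br, φ^[j] c = d) :
    ∃ (st : D → D) (off : D → ℕ), (∀ d, off d < l) ∧ (∀ d, st d ∈ Br) ∧
      (∀ d, φ^[off d] (st d) = d) ∧ (∀ d ∈ Br, st d = d ∧ off d = 0) ∧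
      ∀ d, φ d ∉ Br → st (φ d) = st d ∧ off (φ d) = off d + 1 := by
  classical
  have hex : ∀ d, ∃ j, ∃ c ∈ Br, φ^[j] c = d := fun d => let ⟨j, _, h⟩ := hc d; ⟨j, h⟩
  let off : D → ℕ := fun d => Nat.find (hex d)
  have hsp : ∀ d, ∃ c ∈ Br, φ^[off d] c = d := fun d => Nat.find_spec (hex d)
  choose st h1 h2 using hsp
  refine ⟨st, off, fun d => ?_, h1, h2, fun d hd => ?_, fun d hd => ?_⟩
  · obtain ⟨j, hj, h⟩ := hc d
    exact lt_of_le_of_lt (Nat.find_min' (hex d) h) hj
  · have : off d = 0 := (Nat.find_eq_zero (hex d)).2 ⟨d, hd, rfl⟩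
    have h3 := h2 d
    rw [this] at h3
    exact ⟨h3, this⟩
  · have : off (φ d) = off d + 1 := by
      refine (Nat.find_eq_iff (hex (φ d))).2 ⟨⟨st d, h1 d, ?_⟩, ?_⟩
      · rw [Function.iterate_succ_apply', h2]
      · rintro m hm ⟨c, hc, e⟩
        cases m with
        | zero => exact hd (e ▸ hc)
        | succ k =>
          rw [Function.iterate_succ_apply'] at e
          exact Nat.find_min (hex d) (show k < off d by omega) ⟨c, hc, φ.injective e⟩
    refine ⟨?_, this⟩
    have h3 := h2 (φ d)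
    rw [this, Function.iterate_succ_apply'] at h3
    exact φ.injective.iterate (off d) ((φ.injective h3).trans (h2 d).symm)

lemma seg_ind {D : Type} (φ : Equiv.Perm D) (Br : Finset D) (off : D → ℕ)
    (h : ∀ d, φ d ∉ Br → off (φ d) = off d + 1) (Q : D → Prop) (h0 : ∀ d ∈ Br, Q d)
    (h1 : ∀ d, φ d ∉ Br → Q d → Q (φ d)) (d : D) : Q d := by
  induction' hn : off d using Nat.strong_induction_on with n ih generalizing d
  by_cases hd : d ∈ Br
  · exact h0 d hd
  · obtain ⟨c, rfl⟩ := φ.surjective d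
    exact h1 c hd (ih (off c) (by rw [← hn, h c hd]; omega) c rfl)

lemma exists_parts (t : ℕ) {D : Type} [Fintype D] [DecidableEq D] (φ ε : Equiv.Perm D)
    (hε : ∀ d, ε (ε d) = d) (hε' : ∀ d, ε d ≠ d) (hsc : SC φ ε) (Br : Finset D) (st : D → D)
    (off : D → ℕ) (h0 : ∀ d ∈ Br, st d = d)
    (h1 : ∀ d, φ d ∉ Br → st (φ d) = st d ∧ off (φ d) = off d + 1)
    (hB : ∀ d, d ∉ Br → φ (ε d) ∉ Br ∧ φ (ε (φ (ε d))) = d) :
    ∃ part : D → Sym2 D, (∀ d, part (ε d) = part d) ∧ (∀ d, φ d ∉ Br → part (φ d) = part d) ∧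
      (∀ a, (Br.filter (fun d => part d = a)).card ≤ 2 * ksz 4 t) ∧
      24 ^ t * (univ.filter (fun d => part (φ d) ≠ part d)).card ≤ 23 ^ t * (2 * Br.card) := by
  classical
  let E : D → Sym2 D := fun d => s(d, ε d)
  let key : D → Sym2 D := fun d => s(st d, st (ε d))
  have hE : ∀ d, E (ε d) = E d := fun d => by simp only [E, hε, Sym2.eq_swap]
  have hkε : ∀ d, key (ε d) = key d := fun d => by simp only [key, hε, Sym2.eq_swap]
  have hB2 : ∀ d, φ d ∉ Br → φ (ε (φ d)) = ε d := by
    intro d hd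
    have := φ.injective (hB _ hd).2
    rw [← hε (φ (ε (φ d))), this]
  have hkφ : ∀ d, φ d ∉ Br → key (φ d) = key d := by
    intro d hd
    have h2 := (h1 (ε (φ d)) (hB _ hd).1).1
    rw [hB2 d hd] at h2
    simp only [key, (h1 d hd).1, h2]
  have hM := mac_medial φ ε hε hε' hsc
  let R : Sym2 D → Sym2 D → Prop := fun a b =>
    Sym2.map st a = Sym2.map st b ∧ Adj flp univ (mnode φ E) a b
  have hR1 : ∀ d, Relation.EqvGen R (E d) (E (st d)) := by
    refine seg_ind φ Br off (fun d hd => (h1 d hd).2) _ (fun d hd => ?_) (fun d hd ih => ?_)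
    · rw [h0 d hd]; exact Relation.EqvGen.refl _
    · rw [(h1 d hd).1]
      refine Relation.EqvGen.trans _ _ _ (Relation.EqvGen.rel _ _ ⟨?_, (d, false), mem_univ _,
        rfl, rfl⟩) ih
      exact hkφ d hd
  have hR2 : ∀ x y, key x = key y → Relation.EqvGen R (E x) (E y) := by
    intro x y hxy
    rcases Sym2.eq_iff.1 hxy with ⟨e, -⟩ | ⟨e, -⟩
    · exact Relation.EqvGen.trans _ _ _ (hR1 x) (e ▸ Relation.EqvGen.symm _ _ (hR1 y))
    · rw [← hE y]
      exact Relation.EqvGen.trans _ _ _ (hR1 x) (e ▸ Relation.EqvGen.symm _ _ (hR1 (ε y)))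
  have hM2 := Mac.contract flp_flp (fun _ _ => mem_univ _) (Sym2.map st) (by
    rintro ⟨x, b⟩ - ⟨y, c⟩ - e
    cases b <;> cases c <;> exact hR2 _ _ e) hM
  have hfun : (fun p => Sym2.map st (mnode φ (fun d => s(d, ε d)) p)) = mnode φ key := by
    funext ⟨x, b⟩
    cases b <;> rfl
  rw [hfun] at hM2
  let S : Finset (D × Bool) := univ.filter (fun p => φ p.1 ∈ Br)
  have hS : ∀ p ∈ S, flp p ∈ S := fun p hp => by simpa [S, flp] using hp
  have hM3 := Mac.delete flp_flp (fun _ _ => mem_univ _) hS (subset_univ _) hM2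
  obtain ⟨cl, -, hc1, hc2⟩ := Mac.iterate flp_flp hS hM3 (univ.image key)
    (by rintro ⟨x, b⟩ -; cases b <;> exact Finset.mem_image_of_mem _ (mem_univ _)) 4
    (by
      intro c _
      induction c using Sym2.ind with
      | h x y =>
      refine le_trans (Finset.card_le_card (t := {key (φ (ε x)), key (φ (ε y)), key (φ⁻¹ x),
        key (φ⁻¹ y)}) ?_) Finset.card_le_four
      intro c' hc'
      obtain ⟨⟨d, b⟩, hd, e1, e2⟩ := (Finset.mem_filter.1 hc').2
      have hd' : φ d ∈ Br := (Finset.mem_filter.1 hd).2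
      simp only [mem_insert, mem_singleton]
      cases b
      · change s(st (φ d), _) = _ at e1
        change key d = c' at e2
        rw [h0 _ hd'] at e1
        rcases Sym2.eq_iff.1 e1 with ⟨e, -⟩ | ⟨e, -⟩ <;> simp [← e, e2]
      · change s(_, st (ε d)) = _ at e1
        change key (φ d) = c' at e2
        have hd2 : ε d ∈ Br := by
          by_contra hn
          exact (hB _ hn).1 (by rwa [hε])
        rw [h0 _ hd2] at e1
        rcases Sym2.eq_iff.1 e1 with ⟨-, e⟩ | ⟨-, e⟩ <;> simp [← e, hε, e2]) t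
  refine ⟨fun d => cl (key d), fun d => by simp only [hkε], fun d hd => by simp only [hkφ d hd],
    fun a => ?_, ?_⟩
  · refine le_trans (Finset.card_le_mul_card_image_of_maps_to (f := key)
      (t := (univ.image key).filter (fun c => cl c = a)) (fun d hd => ?_) 2 (fun c _ => ?_))
      (Nat.mul_le_mul_left _ (hc1 a))
    · exact Finset.mem_filter.2 ⟨Finset.mem_image_of_mem _ (mem_univ _), (Finset.mem_filter.1 hd).2⟩
    · induction c using Sym2.ind with
      | h x y =>
      refine le_trans (Finset.card_le_card (t := {x, y}) ?_) Finset.card_le_two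
      intro d hd
      obtain ⟨h2, h3⟩ := Finset.mem_filter.1 hd
      change s(st d, _) = _ at h3
      rw [h0 d (Finset.mem_filter.1 h2).1] at h3
      rcases Sym2.eq_iff.1 h3 with ⟨e, -⟩ | ⟨e, -⟩ <;> simp [e]
  · refine le_trans (Nat.mul_le_mul_left _ ?_) (hc2.trans (Nat.mul_le_mul_left _ ?_))
    · refine Finset.card_le_card_of_injOn (fun d => (d, false)) (fun d hd => ?_)
        (fun a _ b _ e => congrArg Prod.fst e)
      have hd' := (Finset.mem_filter.1 hd).2
      refine Finset.mem_filter.2 ⟨Finset.mem_filter.2 ⟨mem_univ _, ?_⟩, hd'⟩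
      by_contra hn
      exact hd' (by simp only [hkφ d hn])
    · have := Finset.card_le_card_of_injOn (s := S) (t := Br ×ˢ (univ : Finset Bool))
        (fun p => (φ p.1, p.2)) (fun p hp => by simpa [S] using hp)
        (fun a _ b _ e => by
          simp only [Prod.mk.injEq, EmbeddingLike.apply_eq_iff_eq] at e
          exact Prod.ext e.1 e.2)
      rw [Finset.card_product, Finset.card_univ, Fintype.card_bool] at this
      omega

lemma CMap.walk {P V : Type} {T : TG P V} (M : CMap T) (j : ℕ) (d : M.D) :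
    ∃ w : List P, w.length = j ∧ T.IsWalk (M.ρ d) w ∧ T.Red (M.lab d :: w.tail) ∧
      (w ≠ [] → w = M.lab d :: w.tail) ∧ T.endpt (M.ρ d) w = M.ρ (M.φ^[j] d) := by
  induction j generalizing d with
  | zero => exact ⟨[], rfl, trivial, List.isChain_singleton _, fun h => absurd rfl h, rfl⟩
  | succ j ih =>
    obtain ⟨w, h1, h2, h3, h4, h5⟩ := ih (M.φ d)
    refine ⟨M.lab d :: w, by simp [h1], ⟨M.inL d, M.inNx d ▸ h2⟩, ?_, fun _ => rfl, ?_⟩
    · by_cases hw : w = []
      · subst hw
        exact List.isChain_singleton _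
      · rw [List.tail_cons, h4 hw]
        exact List.IsChain.cons_cons (M.red2 d) h3
    · rw [Function.iterate_succ_apply, ← h5, M.inNx]
      rfl

lemma CMap.per {P V : Type} {T : TG P V} (M : CMap T) {g : ℕ} (hg : T.Girth g) (d : M.D) (j : ℕ)
    (h0 : 0 < j) (hj : j < g) : M.φ^[j] d ≠ d := by
  intro e
  obtain ⟨w, h1, h2, h3, h4, h5⟩ := M.walk j d
  have hw : w ≠ [] := by rintro rfl; simp at h1; omega
  exact hg _ w h2 (by rw [h4 hw]; exact h3) hw (by omega) (by rw [h5, e])

lemma exists_breaks {D : Type} [Fintype D] [DecidableEq D] [Nonempty D] (φ ε : Equiv.Perm D)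
    (hε : ∀ d, ε (ε d) = d) (hε' : ∀ d, ε d ≠ d) (hsc : SC φ ε) (h : ℕ) (h1 : 1 ≤ h)
    (hg : ∀ d j, 0 < j → j < 4 * h → φ^[j] d ≠ d) (h2 : ∀ d, φ (ε d) ≠ d) :
    ∃ Br : Finset D, h * Br.card ≤ 4 * Fintype.card D ∧ (∀ d, ∃ j < 2 * h, ∃ c ∈ Br, φ^[j] c = d) ∧
      ∀ d, d ∉ Br → φ (ε d) ∉ Br ∧ φ (ε (φ (ε d))) = d := by
  obtain ⟨C, hC1, hC2⟩ := exists_cut φ h h1 (fun d j j0 jh => hg d j j0 (by omega))
  have hE := euler_count φ ε hε hε' hsc
  rw [Finset.filter_false_of_mem (p := fun d => φ (ε d) = d) (fun d _ => h2 d)] at hE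
  have hF := EulerAux.weight φ (fun _ => 1) (4 * h) (fun d => by
    refine ⟨(range (4 * h)).image (fun j => φ^[j] d), fun x hx => ?_, ?_⟩
    · obtain ⟨j, -, rfl⟩ := Finset.mem_image.1 hx
      exact ⟨j, by rw [zpow_natCast, Equiv.Perm.coe_pow]⟩
    · rw [Finset.sum_const, smul_eq_mul, mul_one, Finset.card_image_of_injOn, Finset.card_range]
      have key : ∀ i j, i ≤ j → j < 4 * h → φ^[i] d = φ^[j] d → i = j := by
        intro i j hij hj e
        by_contra hne
        obtain ⟨k, rfl⟩ := Nat.exists_eq_add_of_le hij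
        rw [Function.iterate_add_apply] at e
        exact hg d k (by omega) (by omega) (φ.injective.iterate i e).symm
      intro i hi j hj e
      rcases le_total i j with h3 | h3
      · exact key i j h3 (by simpa using hj) e
      · exact (key j i h3 (by simpa using hi) e.symm).symm)
  rw [Finset.sum_const, smul_eq_mul, mul_one, Finset.card_univ] at hF
  let A := univ.filter (fun d => φ (ε d) ∈ C)
  have hA : A.card ≤ C.card := Finset.card_le_card_of_injOn (fun d => φ (ε d))
    (fun d hd => (Finset.mem_filter.1 hd).2) (fun a _ b _ e => ε.injective (φ.injective e))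
  set B := univ.filter (fun d => φ (ε (φ (ε d))) ≠ d) with hB
  refine ⟨C ∪ A ∪ B, ?_, fun d => ?_, fun d hd => ?_⟩
  · have e1 : (C ∪ A ∪ B).card ≤ C.card + C.card + B.card :=
      (Finset.card_union_le _ _).trans (Nat.add_le_add_right
        ((Finset.card_union_le _ _).trans (Nat.add_le_add_left hA _)) _)
    have e2 : B.card ≤ 6 * Nat.card (Quotient (Equiv.Perm.SameCycle.setoid φ)) := by
      simp only [Finset.card_empty] at hE
      omega
    have e3 := Nat.mul_le_mul_left h e1
    have e4 := Nat.mul_le_mul_left h e2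
    nlinarith
  · obtain ⟨j, hj, c, hc, e⟩ := hC2 d
    exact ⟨j, hj, c, Finset.mem_union_left _ (Finset.mem_union_left _ hc), e⟩
  · simp only [A, hB, mem_union, mem_filter, mem_univ, true_and, not_or, not_not] at hd ⊢
    obtain ⟨⟨a1, a2⟩, a3⟩ := hd
    exact ⟨⟨⟨a2, by rwa [a3]⟩, by rw [a3]⟩, a3⟩

lemma piece_bound {P V N : Type} [DecidableEq N] {T : TG P V} (M : CMap T) [Fintype M.D]
    [DecidableEq M.D] {S l : ℕ} {η B1 B2 : ℝ} (hL : LS T S l η B1 B2) (Br : Finset M.D)
    (st : M.D → M.D) (off : M.D → ℕ) (a1 : ∀ d, off d < l) (a2 : ∀ d, st d ∈ Br)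
    (a3 : ∀ d, M.φ^[off d] (st d) = d) (a4 : ∀ d ∈ Br, st d = d ∧ off d = 0)
    (a5 : ∀ d, M.φ d ∉ Br → st (M.φ d) = st d ∧ off (M.φ d) = off d + 1)
    (hB : ∀ d, d ∉ Br → M.φ (M.ε d) ∉ Br ∧ M.φ (M.ε (M.φ (M.ε d))) = d)
    (part : M.D → N) (p1 : ∀ d, part (M.ε d) = part d)
    (p2 : ∀ d, M.φ d ∉ Br → part (M.φ d) = part d) (p4 : ∀ d, part (st d) = part d) (a : N)
    (p3 : (Br.filter (fun d => part d = a)).card ≤ S) :
    η * (univ.filter (fun d => part d = a)).card ≤
      (univ.filter (fun d => part d = a ∧ part (M.φ d) ≠ part d)).card * B1 + B2 := by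
  classical
  let rows := Br.filter (fun d => part d = a)
  let U := {d // part d = a}
  have hrow : ∀ d : U, st d.1 ∈ rows := fun d => Finset.mem_filter.2 ⟨a2 _, (p4 _).trans d.2⟩
  let pos : U → ℕ × ℕ := fun d => (rows.equivFin ⟨st d.1, hrow d⟩, off d.1)
  have hpos : ∀ d d' : U, (pos d).1 = (pos d').1 ↔ st d.1 = st d'.1 := by
    intro d d'
    simp only [pos, Fin.val_inj, EmbeddingLike.apply_eq_iff_eq, Subtype.mk.injEq]
  have hB2 : ∀ d, M.φ d ∉ Br → M.φ (M.ε (M.φ d)) = M.ε d := by
    intro d hd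
    have := M.φ.injective (hB _ hd).2
    rw [← M.εε (M.φ (M.ε (M.φ d))), this]
  let nxt : U → Option U := fun d => if h : part (M.φ d.1) = a then some ⟨_, h⟩ else none
  have hn : ∀ d e : U, nxt d = some e → e.1 = M.φ d.1 := by
    intro d e h
    simp only [nxt] at h
    split_ifs at h with h1
    rw [← Option.some.inj h]
  let pc : Piece T S l :=
    { U := U
      fin := inferInstance
      v := fun d => M.ρ d.1
      s := fun d => M.lab d.1
      ε := fun d => ⟨M.ε d.1, (p1 _).trans d.2⟩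
      pos := pos
      nxt := nxt
      hL := fun d => M.inL _
      εε := fun d => Subtype.ext (M.εε _)
      s_ε := fun d => M.lab_ε _
      red1 := fun d => M.red1 _
      pos_inj := fun d d' e => by
        have e1 := (hpos d d').1 (congrArg Prod.fst e)
        have e2 : off d.1 = off d'.1 := congrArg Prod.snd e
        apply Subtype.ext
        rw [← a3 d.1, e1, e2, a3]
      box := fun d => ⟨lt_of_lt_of_le (Fin.is_lt _) p3, a1 _⟩
      pred := fun d' h => by
        obtain ⟨x, hx⟩ := d'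
        obtain ⟨c, rfl⟩ := M.φ.surjective x
        have hc : M.φ c ∉ Br := fun h' => by
          have : off (M.φ c) = 0 := (a4 _ h').2
          exact absurd h (by simp only [pos, this]; omega)
        exact ⟨⟨c, (p2 c hc).symm.trans hx⟩, Prod.ext ((hpos _ _).2 (a5 c hc).1) (a5 c hc).2⟩
      link := fun d d' e => by
        have e1 := (hpos d' d).1 (by rw [e])
        have e2 : off d'.1 = off d.1 + 1 := congrArg Prod.snd e
        have e3 : d'.1 = M.φ d.1 := by
          rw [← a3 d'.1, e1, e2, Function.iterate_succ_apply', a3]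
        have e4 : M.φ d.1 ∉ Br := fun h' => by
          have := (a4 _ h').2
          rw [← e3] at this
          omega
        have e5 := a5 _ (hB _ e4).1
        rw [hB2 _ e4, ← e3] at e5
        exact ⟨by rw [e3]; exact M.inNx _, by rw [e3]; exact M.red2 _,
          Prod.ext ((hpos _ _).2 e5.1) e5.2⟩
      nxt_inj := fun d d' e h h' => Subtype.ext (M.φ.injective ((hn _ _ h).symm.trans (hn _ _ h')))
      nxt_link := fun d e h => by
        rw [hn _ _ h]
        exact ⟨M.inNx _, M.red2 _⟩ }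
  have h := hL pc
  have c1 : Nat.card pc.U = (univ.filter (fun d => part d = a)).card := by
    change Nat.card U = _
    rw [Nat.card_eq_fintype_card, Fintype.card_subtype]
  have c2 : Nat.card {d // pc.nxt d = none} =
      (univ.filter (fun d => part d = a ∧ part (M.φ d) ≠ part d)).card := by
    change Nat.card {d : U // nxt d = none} = _
    rw [← Fintype.card_subtype, ← Nat.card_eq_fintype_card]
    refine Nat.card_congr ((Equiv.subtypeEquivRight (fun d => ?_)).trans
      (Equiv.subtypeSubtypeEquivSubtypeInter (fun d => part d = a)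
        (fun d => part (M.φ d) ≠ part d)))
    simp only [nxt, dite_eq_right_iff, reduceCtorEq, imp_false, d.2]
  rwa [c1, c2] at h

/-- local to global: the local inequality excludes closed reduced maps -/
theorem asph_of_LS (e : ℝ) (he : 0 < e) : ∃ K : ℕ, ∀ {P V : Type} (T : TG P V) (g h : ℕ)
    (η B1 B2 : ℝ), T.Girth g → 1 ≤ h → 4 * h ≤ g → LS T (2 * K) (2 * h) η B1 B2 →
    0 ≤ B1 → 0 ≤ B2 → 4 * (2 * e * B1 + B2) < η * h → Asph T := by
  obtain ⟨t, ht⟩ := exists_pow_lt_of_lt_one he (show (23 / 24 : ℝ) < 1 by norm_num)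
  refine ⟨ksz 4 t, fun T g h η B1 B2 hg h1 h4 hL b1 b2 hlt M => ?_⟩
  classical
  by_contra hne
  rw [not_isEmpty_iff] at hne
  have := M.fin
  have := Fintype.ofFinite M.D
  have hε' : ∀ d, M.ε d ≠ d := fun d h' => T.bar_ne (M.lab d) (by rw [← M.lab_ε, h'])
  obtain ⟨Br, r1, r2, r3⟩ := exists_breaks M.φ M.ε M.εε hε' M.sc h h1
    (fun d j j0 jh => M.per hg d j j0 (by omega))
    (fun d h' => M.red2 (M.ε d) (by rw [h', M.lab_ε, T.bar_bar]))
  obtain ⟨st, off, a1, a2, a3, a4, a5⟩ := exists_seg M.φ Br _ r2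
  obtain ⟨part, p1, p2, p3, p5⟩ := exists_parts t M.φ M.ε M.εε hε' M.sc Br st off
    (fun d hd => (a4 d hd).1) a5 r3
  have p4 : ∀ d, part (st d) = part d :=
    seg_ind M.φ Br off (fun d hd => (a5 d hd).2) _ (fun d hd => by rw [(a4 d hd).1])
      (fun d hd ih => by rw [(a5 d hd).1, p2 d hd, ih])
  have hm : ∀ d, part d ∈ Br.image part := fun d => p4 d ▸ Finset.mem_image_of_mem _ (a2 d)
  have hs := Finset.sum_le_sum (fun a (_ : a ∈ Br.image part) =>
    piece_bound M hL Br st off a1 a2 a3 a4 a5 r3 part p1 p2 p4 a (p3 a))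
  rw [Finset.sum_add_distrib, ← Finset.mul_sum, ← Finset.sum_mul, Finset.sum_const, nsmul_eq_mul,
    ← Nat.cast_sum, ← Nat.cast_sum, ← Finset.card_eq_sum_card_fiberwise (fun d _ => hm d)] at hs
  set c := (univ.filter (fun d => part (M.φ d) ≠ part d)).card with hc
  have e1 : ∑ a ∈ Br.image part, (univ.filter (fun d => part d = a ∧ part (M.φ d) ≠ part d)).card
      = c := by
    rw [hc, Finset.card_eq_sum_card_fiberwise (f := part) (t := Br.image part) (fun d _ => hm d)]
    refine Finset.sum_congr rfl (fun a _ => ?_)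
    rw [Finset.filter_filter]
    simp only [and_comm]
  rw [e1, Finset.card_univ] at hs
  have e2 : ((Br.image part).card : ℝ) ≤ Br.card := by exact_mod_cast Finset.card_image_le
  have e3 : (c : ℝ) ≤ e * (2 * Br.card) := by
    have h5 : (24 : ℝ) ^ t * c ≤ 23 ^ t * (2 * Br.card) := by exact_mod_cast p5
    rw [div_pow, div_lt_iff₀ (by positivity)] at ht
    have h6 : (23 : ℝ) ^ t * (2 * Br.card) ≤ e * 24 ^ t * (2 * Br.card) :=
      mul_le_mul_of_nonneg_right ht.le (by positivity)
    have h7 : (0 : ℝ) < 24 ^ t := by positivity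
    exact le_of_mul_le_mul_left (by linarith) h7
  have e4 : (h : ℝ) * Br.card ≤ 4 * Fintype.card M.D := by exact_mod_cast r1
  have e5 : (0 : ℝ) < Fintype.card M.D := by exact_mod_cast Fintype.card_pos
  have e6 : (0 : ℝ) < h := by exact_mod_cast h1
  have e7 : η * Fintype.card M.D ≤ Br.card * (2 * e * B1 + B2) := by
    have := mul_le_mul_of_nonneg_right e3 b1
    have := mul_le_mul_of_nonneg_right e2 b2
    linarith
  have e8 : 0 ≤ 2 * e * B1 + B2 := by positivity
  have e9 := mul_le_mul_of_nonneg_right e4 e8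
  have e10 := mul_le_mul_of_nonneg_left e7 e6.le
  have e11 := mul_lt_mul_of_pos_right hlt e5
  linarith

end Vale.Agent.P201
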