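import Vale.Agent.P201.Basic

namespace Vale.Agent.P201

/-- bounded degree graphs without `K_7` minor are hyperfinite -/
theorem hyperfinite (e : ℝ) (he : 0 < e) : ∃ K : ℕ, ∀ (ι : Type) [Finite ι] (G : SimpleGraph ι),
    (∀ v, (G.neighborSet v).ncard ≤ 4) → NoK7 G →
    ∃ part : ι → ι, (∀ a, Nat.card {v // part v = a} ≤ K) ∧
      (Nat.card {p : ι × ι // G.Adj p.1 p.2 ∧ part p.1 ≠ part p.2} : ℝ) ≤ e * Nat.card ι := by
  sorry

end Vale.Agent.P201
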