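import Vale.Agent.P201.KraftDat

/-! The sums over labels and over shapes. -/

namespace Vale.Agent.P201.Kraft

open Finset

variable {P V I : Type} [Inhabited P] [Inhabited V] {Ds : Des P V I} {S ℓ κ : ℕ}

open Classical in
/-- weight of a label -/
noncomputable def wt (Ds : Des P V I) (t : P) : ℝ :=
  if Ds.wl t then 1 / 2 else if Ds.wl (Ds.bar t) then 1 / 12 else 1 / 24

omit [Inhabited P] [Inhabited V] in
theorem wt_pos (t : P) : 0 < wt Ds t := by
  unfold wt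
  split_ifs <;> norm_num

/-- free positions -/
def Dat.Fr (d : Dat Ds S ℓ κ) : Finset (ℕ × ℕ) := d.R.filter fun k => d.ptr k = none

/-- label weight of a datum -/
noncomputable def Lw (d : Dat Ds S ℓ κ) : ℝ := ∏ k ∈ d.Fr, wt Ds (d.s k)

theorem Lw_pos (d : Dat Ds S ℓ κ) : 0 < Lw d := prod_pos fun _ _ => wt_pos _

/-- free labels -/
def Dat.lab (d : Dat Ds S ℓ κ) (k : ℕ × ℕ) : P := if d.ptr k = none then d.s k else default

theorem s_eq {d d' : Dat Ds S ℓ κ} (h1 : d.R = d'.R) (h2 : d.ptr = d'.ptr) (h3 : d.lab = d'.lab) :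
    d.s = d'.s := by
  funext k
  induction k using d.wf.induction with
  | _ k ih =>
    by_cases hk : k ∈ d.R
    · cases e : d.ptr k with
      | none =>
        have := congrFun h3 k
        rwa [Dat.lab, Dat.lab, ← h2, if_pos e, if_pos e] at this
      | some p =>
        obtain ⟨k', b⟩ := p
        rw [(d.hptr k hk k' b e).2, (d'.hptr k (h1 ▸ hk) k' b (h2 ▸ e)).2, ih k' ⟨hk, b, e⟩]
    · rw [d.s0 k hk, d'.s0 k (h1 ▸ hk)]

/-- constraint on a free label -/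
def lc (Ds : Des P V I) (Bk : Finset (ℕ × ℕ)) (k : ℕ × ℕ) (f : ℕ × ℕ → P) (t : P) : Prop :=
  ¬ unl Bk k → (Ds.wl t ↔ Ds.wl (Ds.bar (f (k.1, k.2 - 1)))) ∧ t ≠ Ds.bar (f (k.1, k.2 - 1))

open Classical in
/-- weight of a free position -/
noncomputable def lw (Ds : Des P V I) (Bk : Finset (ℕ × ℕ)) (k : ℕ × ℕ) (f : ℕ × ℕ → P) : ℝ :=
  (if lc Ds Bk k f (f k) then 1 else 0) * wt Ds (f k)

omit [Inhabited P] [Inhabited V] in
theorem lc_dep (Bk : Finset (ℕ × ℕ)) (k : ℕ × ℕ) (f g : ℕ × ℕ → P)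
    (h : ∀ k', toLex k' < toLex k → f k' = g k') (t : P) : lc Ds Bk k f t ↔ lc Ds Bk k g t := by
  refine forall_congr' fun hu => ?_
  obtain ⟨a, i, rfl, -⟩ := not_unl hu
  rw [h (a, i + 1 - 1) (by simp [Prod.Lex.toLex_lt_toLex])]

theorem step_none {p : Option ((ℕ × ℕ) × Bool)} (h : step p = none) : p = none := by
  match p, h with
  | none, _ => rfl
  | some ((_, _), true), h => simp [step] at h
  | some ((_, _), false), h => simp [step] at h

theorem wl_link (d : Dat Ds S ℓ κ) {a i : ℕ} (hB : (a, i) ∉ d.Bk) (hk : (a, i) ∈ d.R) :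
    Ds.wl (d.s (a, i + 1)) ↔ Ds.wl (Ds.bar (d.s (a, i))) := by
  rw [Ds.L_W _ _ (d.hL _ ((d.linkR a i hB).1 hk)), Ds.L_W _ _ (d.hL' _ hk), (d.link a i hB hk).1]

theorem Lw_eq (d : Dat Ds S ℓ κ) : Lw d = ∏ k ∈ d.Fr, lw Ds d.Bk k d.lab := by
  refine prod_congr rfl fun k hk => ?_
  obtain ⟨h1, h2⟩ := mem_filter.1 hk
  have e : d.lab k = d.s k := if_pos h2
  rw [lw, e, if_pos, one_mul]
  intro hu
  obtain ⟨a, i, rfl, hB⟩ := not_unl hu
  have h3 := (d.linkR a i hB).2 h1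
  have h4 := d.link a i hB h3
  have e' : d.lab (a, i) = d.s (a, i) := if_pos (step_none (h4.2.2.symm.trans h2))
  simp only [Nat.add_sub_cancel, e']
  exact ⟨wl_link d hB h3, h4.2.1⟩

omit [Inhabited P] [Inhabited V] in
open Classical in
theorem card_wl' [Fintype P] : (univ.filter Ds.wl).card = 3 := by
  rw [card_filter_eq, Ds.card_wl]

omit [Inhabited P] [Inhabited V] in
theorem sum_wt [Fintype P] : ∑ t, wt Ds t = 5 / 2 := by
  classical
  have h1 : ∀ t, wt Ds t = 1 / 24 + 11 / 24 * (if Ds.wl t then 1 else 0)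
      + 1 / 24 * (if Ds.wl (Ds.bar t) then 1 else 0) := by
    intro t
    unfold wt
    by_cases h : Ds.wl t
    · simp only [h, Ds.wl_bar t h, if_true, if_false]; norm_num
    · simp only [h, if_false]
      split_ifs <;> norm_num
  have h2 : ∑ t, (if Ds.wl t then (1 : ℝ) else 0) = 3 := by
    rw [sum_boole]
    have := card_wl' (Ds := Ds)
    exact_mod_cast (by convert this : (univ.filter Ds.wl).card = 3)
  have h3 : ∑ t, (if Ds.wl (Ds.bar t) then (1 : ℝ) else 0) = 3 := by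
    rw [← h2]
    exact Equiv.sum_comp (Function.Involutive.toPerm Ds.bar Ds.bar_bar)
      (fun t => if Ds.wl t then (1 : ℝ) else 0)
  have h4 : Fintype.card P = 24 := by rw [← Nat.card_eq_fintype_card, Ds.card_P]
  simp only [h1, sum_add_distrib, ← mul_sum, h2, h3, sum_const, card_univ, h4]
  norm_num

omit [Inhabited P] [Inhabited V] in
theorem lw_sum [Fintype P] (Bk : Finset (ℕ × ℕ)) (k : ℕ × ℕ) (f : ℕ × ℕ → P) :
    ∑ t, lw Ds Bk k (Function.update f k t) ≤ if unl Bk k then 3 else 1 := by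
  classical
  have hc : ∀ t, lc Ds Bk k (Function.update f k t) (Function.update f k t k) ↔ lc Ds Bk k f t := by
    intro t
    rw [Function.update_self]
    refine lc_dep Bk k _ f (fun k' hk' => Function.update_of_ne ?_ _ _) t
    rintro rfl; exact lt_irrefl _ hk'
  unfold lw
  simp only [hc]
  simp only [Function.update_self, ite_mul, one_mul, zero_mul]
  rw [← sum_filter]
  have hw : ∑ t ∈ univ.filter Ds.wl, wt Ds t = 3 / 2 := by
    rw [sum_congr rfl (f := wt Ds) (g := fun _ => (1 / 2 : ℝ)) fun t ht =>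
      if_pos (mem_filter.1 ht).2, sum_const, card_wl']
    norm_num
  split_ifs with hu
  · refine (sum_le_sum_of_subset_of_nonneg (filter_subset _ _) fun t _ _ => (wt_pos t).le).trans ?_
    rw [sum_wt]; norm_num
  · by_cases h : Ds.wl (Ds.bar (f (k.1, k.2 - 1)))
    · have hs : univ.filter (lc Ds Bk k f) ⊆
          (univ.filter Ds.wl).erase (Ds.bar (f (k.1, k.2 - 1))) := by
        intro t ht
        have := (mem_filter.1 ht).2 hu
        exact mem_erase.2 ⟨this.2, mem_filter.2 ⟨mem_univ _, this.1.2 h⟩⟩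
      refine (sum_le_sum_of_subset_of_nonneg hs fun t _ _ => (wt_pos t).le).trans ?_
      have := add_sum_erase (univ.filter Ds.wl) (wt Ds) (mem_filter.2 ⟨mem_univ _, h⟩)
      rw [hw, wt, if_pos h] at this
      linarith
    · have hs : univ.filter (lc Ds Bk k f) ⊆ univ.filter fun t => ¬ Ds.wl t := by
        intro t ht
        have := (mem_filter.1 ht).2 hu
        exact mem_filter.2 ⟨mem_univ _, fun h' => h (this.1.1 h')⟩
      refine (sum_le_sum_of_subset_of_nonneg hs fun t _ _ => (wt_pos t).le).trans ?_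
      have := sum_filter_add_sum_filter_not univ Ds.wl (wt Ds)
      rw [hw, sum_wt] at this
      linarith

theorem lab_bound [Fintype P] [Fintype V] {Λ : ℝ} (hΛ : 2 * ((S * ℓ : ℕ) + 1 : ℝ) ^ 2 ≤ Λ)
    (d0 : Dat Ds S ℓ κ) (Ω : Finset (Dat Ds S ℓ κ))
    (h : ∀ d ∈ Ω, d.R = d0.R ∧ d.Bk = d0.Bk ∧ d.ptr = d0.ptr) :
    ∑ d ∈ Ω, Vw Λ d * Lw d ≤ (201 * Λ) ^ (S + κ) * 7 ^ κ * 3 * 3 ^ (S + κ) := by
  classical
  have hL0 : (0 : ℝ) ≤ (S * ℓ : ℕ) := Nat.cast_nonneg _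
  have hΛ0 : 0 < Λ := by nlinarith
  have hFr : ∀ d ∈ Ω, d.Fr = d0.Fr := fun d hd => by
    rw [Dat.Fr, Dat.Fr, (h d hd).1, (h d hd).2.2]
  have hlw : ∀ k f, 0 ≤ lw Ds d0.Bk k f := by
    intro k f
    unfold lw
    refine mul_nonneg ?_ (wt_pos _).le
    split_ifs <;> norm_num
  refine (fib Ω Dat.lab _ (fun f => ∏ k ∈ d0.Fr, lw Ds d0.Bk k f)
    ((201 * Λ) ^ (S + κ) * 7 ^ κ * 3) fun d1 hd1 => ?_).trans ?_
  · rw [sum_congr rfl (g := fun d => Vw Λ d * ∏ k ∈ d0.Fr, lw Ds d0.Bk k d1.lab) fun d hd => by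
      obtain ⟨h1, h2⟩ := mem_filter.1 hd
      rw [Lw_eq, hFr d h1, (h d h1).2.1, h2], ← sum_mul]
    refine mul_le_mul_of_nonneg_right (vert_bound hΛ d1 _ fun d hd => ?_)
      (prod_nonneg fun k _ => hlw k _)
    obtain ⟨h1, h2⟩ := mem_filter.1 hd
    obtain ⟨a1, a2, a3⟩ := h d h1
    obtain ⟨b1, b2, b3⟩ := h d1 hd1
    exact ⟨a1.trans b1.symm, a2.trans b2.symm, a3.trans b3.symm,
      s_eq (a1.trans b1.symm) (a3.trans b3.symm) h2⟩
  refine mul_le_mul_of_nonneg_left ?_ (by positivity)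
  refine le_trans ?_ (prod_ite_le d0.Fr (unl d0.Bk) 3 (by norm_num) (S + κ)
    (card_unl _ _ ((filter_subset _ _).trans d0.R_sub) d0.card_Bk))
  refine seq_sum toLex univ (lw Ds d0.Bk) _ (fun _ => default) _ hlw (fun k _ f g hfg => ?_)
    (fun k _ f => lw_sum d0.Bk k f) _ (fun f hf k hk => ?_) (fun _ _ _ _ => mem_univ _)
  · unfold lw
    rw [hfg k (Or.inr rfl)]
    simp only [lc_dep d0.Bk k f g fun k' hk' => hfg k' (Or.inl hk')]
  · obtain ⟨d, hd, rfl⟩ := mem_image.1 hf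
    rw [← hFr d hd] at hk
    unfold Dat.lab
    split_ifs with e
    · exact d.s0 k fun h' => hk (mem_filter.2 ⟨h', e⟩)
    · rfl

/-- shape values -/
def Dat.sh (d : Dat Ds S ℓ κ) (k : ℕ × ℕ) : Option (Option ((ℕ × ℕ) × Bool)) :=
  if k ∈ d.R then some (d.ptr k) else none

/-- shape values at unlinked positions -/
def Dat.sh' (d : Dat Ds S ℓ κ) (k : ℕ × ℕ) : Option (Option ((ℕ × ℕ) × Bool)) :=
  if unl d.Bk k then d.sh k else none

theorem sh_succ (d : Dat Ds S ℓ κ) {a i : ℕ} (hB : (a, i) ∉ d.Bk) :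
    d.sh (a, i + 1) = (d.sh (a, i)).map step := by
  unfold Dat.sh
  by_cases h : (a, i) ∈ d.R
  · rw [if_pos h, if_pos ((d.linkR a i hB).1 h), (d.link a i hB h).2.2]; rfl
  · rw [if_neg h, if_neg fun h' => h ((d.linkR a i hB).2 h')]; rfl

theorem shape_eq {d d' : Dat Ds S ℓ κ} (h1 : d.Bk = d'.Bk) (h2 : d.sh' = d'.sh') :
    d.R = d'.R ∧ d.ptr = d'.ptr := by
  have h3 : ∀ a i, d.sh (a, i) = d'.sh (a, i) := by
    intro a i
    have h4 : ∀ k, unl d.Bk k → d.sh k = d'.sh k := by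
      intro k hk
      have := congrFun h2 k
      rwa [Dat.sh', Dat.sh', ← h1, if_pos hk, if_pos hk] at this
    induction i with
    | zero => exact h4 _ (Or.inl rfl)
    | succ i ih =>
      by_cases hB : (a, i) ∈ d.Bk
      · exact h4 _ (Or.inr (by simpa using hB))
      · rw [sh_succ d hB, sh_succ d' (h1 ▸ hB), ih]
  have h5 : ∀ k, k ∈ d.R ↔ k ∈ d'.R := by
    rintro ⟨a, i⟩
    have := h3 a i
    unfold Dat.sh at this
    split_ifs at this with e e' <;> simp_all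
  refine ⟨Finset.ext h5, funext fun k => ?_⟩
  by_cases hk : k ∈ d.R
  · have := h3 k.1 k.2
    rw [Dat.sh, Dat.sh, if_pos hk, if_pos ((h5 k).1 hk)] at this
    exact Option.some.inj this
  · rw [d.ptr0 k hk, d'.ptr0 k fun h' => hk ((h5 k).2 h')]

theorem card_shape (B : Finset (ℕ × ℕ)) (hB : B.card ≤ κ) (Ω : Finset (Dat Ds S ℓ κ))
    (h : ∀ d ∈ Ω, d.Bk = B) [DecidableEq (ℕ × ℕ → Option (Option ((ℕ × ℕ) × Bool)))] :
    ∑ _f ∈ Ω.image Dat.sh', (1 : ℝ) ≤ (2 * ((S * ℓ : ℕ) + 1 : ℝ)) ^ (S + κ) := by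
  have hL0 : (0 : ℝ) ≤ (S * ℓ : ℕ) := Nat.cast_nonneg _
  have := seq_sum (fun k : ℕ × ℕ => toLex k)
    (insertNone (insertNone (bx S ℓ ×ˢ (univ : Finset Bool)))) (fun _ _ => (1 : ℝ))
    (fun _ => 2 * ((S * ℓ : ℕ) + 1 : ℝ)) (fun _ => none) ((bx S ℓ).filter (unl B))
    (fun _ _ => zero_le_one) (fun _ _ _ _ _ => rfl) (fun k _ f => by
      simp only [sum_const, card_insertNone, card_product, card_bx, card_univ, Fintype.card_bool,
        nsmul_eq_mul, mul_one]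
      push_cast; linarith) (Ω.image Dat.sh') (fun f hf k hk => by
      obtain ⟨d, hd, rfl⟩ := mem_image.1 hf
      unfold Dat.sh' Dat.sh
      split_ifs with e e'
      · exact absurd (mem_filter.2 ⟨d.R_sub e', h d hd ▸ e⟩) hk
      · rfl
      · rfl) (fun f hf k _ => by
      obtain ⟨d, hd, rfl⟩ := mem_image.1 hf
      unfold Dat.sh' Dat.sh
      split_ifs with e e'
      · rw [some_mem_insertNone, mem_insertNone]
        rintro ⟨k', b⟩ hp
        exact mem_product.2 ⟨d.R_sub (d.hptr k e' k' b hp).1, mem_univ _⟩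
      · simp
      · simp)
  simp only [prod_const_one, prod_const] at this
  exact this.trans (pow_le_pow_right₀ (by linarith) (card_unl _ _ Subset.rfl hB))

theorem total_bound [Fintype P] [Fintype V] {Λ : ℝ} (hΛ : 2 * ((S * ℓ : ℕ) + 1 : ℝ) ^ 2 ≤ Λ)
    (Ω : Finset (Dat Ds S ℓ κ)) :
    ∑ d ∈ Ω, Vw Λ d * Lw d ≤ (201 * Λ) ^ (S + κ) * 7 ^ κ * 3 * 3 ^ (S + κ) *
      (2 * ((S * ℓ : ℕ) + 1 : ℝ)) ^ (S + κ) * ((S * ℓ : ℕ) + 1 : ℝ) ^ κ := by
  classical
  have hL0 : (0 : ℝ) ≤ (S * ℓ : ℕ) := Nat.cast_nonneg _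
  have hΛ0 : 0 < Λ := by nlinarith
  refine (fib Ω Dat.Bk _ (fun _ => 1) ((201 * Λ) ^ (S + κ) * 7 ^ κ * 3 * 3 ^ (S + κ) *
    (2 * ((S * ℓ : ℕ) + 1 : ℝ)) ^ (S + κ)) fun d1 _ => ?_).trans ?_
  · rw [mul_one]
    refine (fib _ Dat.sh' _ (fun _ => 1) ((201 * Λ) ^ (S + κ) * 7 ^ κ * 3 * 3 ^ (S + κ))
      fun d2 hd2 => ?_).trans ?_
    · rw [mul_one]
      refine lab_bound hΛ d2 _ fun d hd => ?_
      obtain ⟨h1, h2⟩ := mem_filter.1 hd
      have h3 := (mem_filter.1 h1).2.trans (mem_filter.1 hd2).2.symm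
      exact ⟨(shape_eq h3 h2).1, h3, (shape_eq h3 h2).2⟩
    · exact mul_le_mul_of_nonneg_left
        (card_shape d1.Bk d1.card_Bk _ fun d hd => (mem_filter.1 hd).2) (by positivity)
  refine mul_le_mul_of_nonneg_left ?_ (by positivity)
  have := card_small (bx S ℓ) κ (Ω.image Dat.Bk) fun X hX => by
    obtain ⟨d, -, rfl⟩ := mem_image.1 hX
    exact ⟨fun k hk => mem_bx.2 (d.boxB k hk), d.card_Bk⟩
  rw [card_bx] at this
  simp only [sum_const, nsmul_eq_mul, mul_one]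
  exact_mod_cast this

end Vale.Agent.P201.Kraft
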