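import Vale.Agent.P201.FM
import Vale.Agent.P201.KraftLab

namespace Vale.Agent.P201
open Vale.Agent.P186

namespace Kraft

open Finset

variable {P V I : Type} [Inhabited P] [Inhabited V] {Ds : Des P V I} {S ℓ κ : ℕ}

theorem exists_dat {T : TG P V} (hF : Ds.Fits T) (c : Cfg T S ℓ κ) :
    ∃ d : Dat Ds S ℓ κ, d.R = c.R ∧ ∀ k ∈ c.R, d.x k = c.x k ∧ d.y k = T.nx (c.x k) (c.s k) ∧
      d.s k = c.s k ∧ d.ptr k = c.ptr k := by
  obtain ⟨h1, h2, h3⟩ := hF
  have hB : ∀ a i, (a, i) ∉ c.Bk.filter (fun k => k.1 < S ∧ k.2 < ℓ) → (a, i) ∈ c.R →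
      (a, i) ∉ c.Bk := fun a i h h' h'' => h (mem_filter.2 ⟨h'', c.box _ h'⟩)
  refine ⟨
    { R := c.R
      x := fun k => if k ∈ c.R then c.x k else default
      y := fun k => if k ∈ c.R then T.nx (c.x k) (c.s k) else default
      s := fun k => if k ∈ c.R then c.s k else default
      ptr := fun k => if k ∈ c.R then c.ptr k else none
      Bk := c.Bk.filter fun k => k.1 < S ∧ k.2 < ℓ
      box := c.box
      boxB := fun k hk => (mem_filter.1 hk).2
      card_Bk := (card_filter_le _ _).trans c.card_Bk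
      x0 := fun k hk => if_neg hk
      y0 := fun k hk => if_neg hk
      s0 := fun k hk => if_neg hk
      ptr0 := fun k hk => if_neg hk
      hL := fun k hk => by
        simp only [if_pos hk, ← h2]; exact c.hL k hk
      hL' := fun k hk => by
        simp only [if_pos hk, ← h2, ← h1]; exact T.L_nx _ _ (c.hL k hk)
      hcol := fun k hk => by
        simp only [if_pos hk]; exact h3 _ _ (h2 ▸ c.hL k hk)
      dist := fun k hk k' hk' e => by
        simp only [if_pos hk, if_pos hk', ← h1]; exact c.dist k hk k' hk' e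
      linkR := fun a i h => by
        refine ⟨fun h' => (c.linkR a i (hB a i h h')).1 h', fun h' => ?_⟩
        refine (c.linkR a i fun h'' => h (mem_filter.2 ⟨h'', ?_⟩)).2 h'
        have := c.box _ h'
        simp only at this ⊢
        omega
      link := fun a i h h' => by
        have h'' := (c.linkR a i (hB a i h h')).1 h'
        simp only [if_pos h', if_pos h'', ← h1]
        exact c.link a i (hB a i h h') h'
      hptr := fun k hk k' b e => by
        simp only [if_pos hk] at e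
        have := c.hptr k hk k' b e
        simp only [if_pos hk, if_pos this.1, ← h1]
        exact this
      wf := Subrelation.wf (fun {k' k} h => ⟨h.1, by simpa only [if_pos h.1] using h.2⟩) c.wf },
    rfl, fun k hk => ⟨if_pos hk, if_pos hk, if_pos hk, if_pos hk⟩⟩

open Classical in
theorem cost_le (d : Dat Ds S ℓ κ) :
    -(κ * Real.log 3) ≤ ∑ k ∈ d.Fr,
      (if Ds.wl (d.s k) ∨ Ds.wl (Ds.bar (d.s k)) then 1 / 2 else 1) * Real.log 24
        + Real.log (Lw d) := by
  have l24 : Real.log 24 = Real.log 6 + 2 * Real.log 2 := by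
    rw [show (24 : ℝ) = 6 * 2 ^ 2 by norm_num, Real.log_mul (by norm_num) (by norm_num),
      Real.log_pow]; norm_num
  have l12 : Real.log 12 = Real.log 6 + Real.log 2 := by
    rw [show (12 : ℝ) = 6 * 2 by norm_num, Real.log_mul (by norm_num) (by norm_num)]
  have l6 : Real.log 6 ≤ 2 * Real.log 3 := by
    have : Real.log 9 = 2 * Real.log 3 := by
      rw [show (9 : ℝ) = 3 ^ 2 by norm_num, Real.log_pow]; norm_num
    rw [← this]
    exact Real.log_le_log (by norm_num) (by norm_num)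
  have l6' : 0 ≤ Real.log 6 := Real.log_nonneg (by norm_num)
  have h1 : ∀ t, (if Ds.wl t ∨ Ds.wl (Ds.bar t) then 1 / 2 else 1) * Real.log 24
      + Real.log (wt Ds t) = Real.log 6 / 2 *
        ((if Ds.wl t then 1 else 0) - if Ds.wl (Ds.bar t) then 1 else 0) := by
    intro t
    unfold wt
    by_cases h : Ds.wl t
    · simp only [h, Ds.wl_bar t h, true_or, if_true, if_false, one_div, Real.log_inv, l24]; ring
    · by_cases h' : Ds.wl (Ds.bar t)
      · simp only [h, h', or_true, if_true, if_false, one_div, Real.log_inv, l24, l12]; ring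
      · simp only [h, h', or_self, if_false, one_div, Real.log_inv]; ring
  rw [Lw, Real.log_prod fun k _ => (wt_pos _).ne', ← sum_add_distrib]
  simp only [h1]
  rw [← mul_sum, sum_sub_distrib, sum_boole, sum_boole]
  have h2 : (d.Fr.filter fun k => Ds.wl (Ds.bar (d.s k))).card
      ≤ (d.Fr.filter fun k => Ds.wl (d.s k)).card + κ := by
    refine (card_le_card_sdiff_add_card (t := d.Bk)).trans (add_le_add ?_ d.card_Bk)
    refine card_le_card_of_injOn (fun k => (k.1, k.2 + 1)) (fun k hk => ?_) fun k _ k' _ e => ?_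
    · obtain ⟨a, i⟩ := k
      obtain ⟨e1, e2⟩ := mem_sdiff.1 hk
      obtain ⟨e3, e4⟩ := mem_filter.1 e1
      obtain ⟨e5, e6⟩ := mem_filter.1 e3
      refine mem_filter.2 ⟨mem_filter.2 ⟨(d.linkR a i e2).1 e5, ?_⟩, (wl_link d e2 e5).2 e4⟩
      rw [(d.link a i e2 e5).2.2, e6]; rfl
    · simp only [Prod.mk.injEq, add_left_inj] at e
      exact Prod.ext e.1 e.2
  have h3 : ((d.Fr.filter fun k => Ds.wl (Ds.bar (d.s k))).card : ℝ)
      ≤ (d.Fr.filter fun k => Ds.wl (d.s k)).card + κ := by exact_mod_cast h2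
  have h4 : (0 : ℝ) ≤ κ := Nat.cast_nonneg _
  nlinarith

/-- consequence of the failure of the entropy inequality -/
def Bad (m' Λ : ℝ) (d : Dat Ds S ℓ κ) : Prop :=
  (1 / m') ^ d.R.card ≤ Vw Λ d * Lw d * (3 ^ κ / Λ ^ (3 * (S + κ + 1)))

open Classical in
theorem bad_of {m' Λ : ℝ} (hm : 0 < m') (hΛ : 0 < Λ) (d : Dat Ds S ℓ κ)
    (h : ∑ v ∈ d.R.image d.x ∪ d.R.image d.y, (Real.log (av Ds v) - Real.log Λ) +
      ∑ k ∈ d.Fr, (if Ds.wl (d.s k) ∨ Ds.wl (Ds.bar (d.s k)) then 1 / 2 else 1) * Real.log 24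
      + 3 * (S + κ + 1) * Real.log Λ < (d.R.card : ℝ) * (Real.log m' - Real.log Λ)) :
    Bad m' Λ d := by
  have h1 := Vw_nonneg hΛ d
  have h2 := Lw_pos d
  have h3 := cost_le d
  rw [Bad, ← Real.log_le_log_iff (by positivity) (by positivity),
    Real.log_mul (by positivity) (by positivity), Real.log_mul h1.ne' h2.ne',
    Real.log_div (by positivity) (by positivity), Real.log_pow, Real.log_pow, Real.log_pow, Vw,
    Real.log_mul (by positivity) (prod_pos fun v _ => div_pos hΛ (av_pos v)).ne', Real.log_pow,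
    Real.log_prod fun v _ => (div_pos hΛ (av_pos v)).ne',
    sum_congr rfl fun v _ => Real.log_div hΛ.ne' (av_pos v).ne']
  simp only [one_div, Real.log_inv]
  rw [sum_sub_distrib] at h ⊢
  push_cast
  simp only [one_div] at h h3
  linarith

open Classical in
/-- the set of edges of a datum -/
noncomputable def Dat.F (d : Dat Ds S ℓ κ) : Finset (V × P × V) :=
  d.R.image fun k => (d.x k, d.s k, d.y k)

theorem Dat.card_F (d : Dat Ds S ℓ κ) : d.F.card = d.R.card := by
  classical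
  refine card_image_of_injOn fun k hk k' hk' e => ?_
  by_contra h
  simp only [Prod.mk.injEq] at e
  exact (d.dist k hk k' hk' h).1 (Prod.ext e.1 e.2.1)

theorem Dat.mem_F {d : Dat Ds S ℓ κ} {e : V × P × V} (h : e ∈ d.F) :
    ∃ k ∈ d.R, (d.x k, d.s k, d.y k) = e := by
  classical
  exact mem_image.1 h

theorem numeric {Λ : ℝ} (hΛ : 10 ^ 9 * ((S * ℓ : ℕ) + 1 : ℝ) ^ 2 ≤ Λ) :
    (201 * Λ) ^ (S + κ) * 7 ^ κ * 3 * 3 ^ (S + κ) * (2 * ((S * ℓ : ℕ) + 1 : ℝ)) ^ (S + κ) *
      ((S * ℓ : ℕ) + 1 : ℝ) ^ κ * (3 ^ κ / Λ ^ (3 * (S + κ + 1))) < 1 := by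
  have hL0 : (0 : ℝ) ≤ (S * ℓ : ℕ) := Nat.cast_nonneg _
  set M : ℝ := (S * ℓ : ℕ) + 1 with hM
  have hM1 : 1 ≤ M := by linarith
  have hM2 : 1 ≤ M ^ 2 := one_le_pow₀ hM1
  have hΛ1 : 10 ^ 9 ≤ Λ := by linarith
  have hΛ0 : 0 < Λ := by linarith
  rw [← mul_div_assoc, div_lt_one (by positivity)]
  have e1 : (7 : ℝ) ^ κ ≤ 7 ^ (S + κ) := pow_le_pow_right₀ (by norm_num) (by omega)
  have e2 : (3 : ℝ) ^ κ ≤ 3 ^ (S + κ) := pow_le_pow_right₀ (by norm_num) (by omega)
  have e3 : M ^ κ ≤ M ^ (S + κ) := pow_le_pow_right₀ hM1 (by omega)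
  calc _ ≤ (201 * Λ) ^ (S + κ) * 7 ^ (S + κ) * 3 * 3 ^ (S + κ) * (2 * M) ^ (S + κ) *
        M ^ (S + κ) * 3 ^ (S + κ) := by gcongr
    _ = 3 * (201 * Λ * 7 * 3 * (2 * M) * M * 3) ^ (S + κ) := by simp only [mul_pow]; ring
    _ ≤ 3 * (Λ ^ 3) ^ (S + κ) := by
        refine mul_le_mul_of_nonneg_left (pow_le_pow_left₀ (by positivity) ?_ _) (by norm_num)
        have : 201 * Λ * 7 * 3 * (2 * M) * M * 3 = Λ * (25326 * M ^ 2) := by ring
        rw [this]
        have h1 : 25326 * M ^ 2 ≤ Λ := by linarith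
        have h2 : Λ ≤ Λ ^ 2 := by nlinarith
        calc Λ * (25326 * M ^ 2) ≤ Λ * Λ ^ 2 := by gcongr; exact h1.trans h2
          _ = Λ ^ 3 := by ring
    _ < Λ ^ 3 * (Λ ^ 3) ^ (S + κ) := by
        refine mul_lt_mul_of_pos_right ?_ (by positivity)
        have : Λ ^ 1 ≤ Λ ^ 3 := pow_le_pow_right₀ (by linarith) (by norm_num)
        linarith
    _ = _ := by rw [pow_mul]; ring

end Kraft

open Kraft in
/-- a graph of girth at least `g` satisfying the entropy inequality exists -/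
theorem exists_Q {P V I : Type} [Finite P] [Finite V] (Ds : Des P V I) (g S ℓ κ : ℕ) (m' Λ : ℝ)
    (hm : 0 < m') (hbig : m' + 6 ^ (g + 2) + 2 * (S * ℓ) ≤ Ds.mm)
    (hΛ : 10 ^ 9 * (S * ℓ + 1) ^ 2 ≤ Λ) :
    ∃ T : TG P V, Ds.Fits T ∧ T.Girth g ∧ Q Ds T S ℓ κ m' Λ (3 * (S + κ + 1) * Real.log Λ) := by
  classical
  have hbig' : m' + 6 ^ (g + 2) + 2 * (S * ℓ : ℕ) ≤ Ds.mm := by push_cast; exact hbig
  rcases isEmpty_or_nonempty V with hV | hV
  · obtain ⟨T, h1, h2, -⟩ := first_moment Ds g (S * ℓ) m' hm hbig' (ι := Empty) (fun e => e.elim)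
      (fun e => e.elim) (fun e => e.elim) (fun e => e.elim) (by simp)
    exact ⟨T, h1, h2, fun c => hV.elim (c.x (0, 0))⟩
  have hP : Nonempty P := (Nat.card_pos_iff.1 (by rw [Ds.card_P]; norm_num)).1
  have : Inhabited P := Classical.inhabited_of_nonempty hP
  have : Inhabited V := Classical.inhabited_of_nonempty hV
  have := Fintype.ofFinite P
  have := Fintype.ofFinite V
  have hΛ' : 10 ^ 9 * ((S * ℓ : ℕ) + 1 : ℝ) ^ 2 ≤ Λ := by push_cast; exact hΛ
  have hL0 : (0 : ℝ) ≤ (S * ℓ : ℕ) := Nat.cast_nonneg _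
  have hΛ2 : 2 * ((S * ℓ : ℕ) + 1 : ℝ) ^ 2 ≤ Λ := by nlinarith
  have hΛ0 : 0 < Λ := by nlinarith
  let ι := {F : Finset (V × P × V) // ∃ d : Dat Ds S ℓ κ, Bad m' Λ d ∧ d.F = F}
  choose dd hd1 hd2 using fun F : ι => F.2
  have hinj : Function.Injective dd := fun F F' e => Subtype.ext (by rw [← hd2, ← hd2, e])
  obtain ⟨T, h1, h2, h3⟩ := first_moment Ds g (S * ℓ) m' hm hbig' (ι := ι) (fun F => (dd F).F)
    (fun F => by rw [Dat.card_F]; exact (dd F).card_R)
    (fun F e he => by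
      obtain ⟨k, hk, rfl⟩ := Dat.mem_F he
      exact (dd F).hL k hk)
    (fun F e he e' he' hne => by
      obtain ⟨k, hk, rfl⟩ := Dat.mem_F he
      obtain ⟨k', hk', rfl⟩ := Dat.mem_F he'
      exact (dd F).dist k hk k' hk' fun h => hne (by rw [h]))
    (by
      refine lt_of_le_of_lt ?_ (numeric (κ := κ) hΛ')
      refine le_trans ?_ (mul_le_mul_of_nonneg_right
        (total_bound hΛ2 (Finset.univ.image dd)) (by positivity))
      rw [Finset.sum_image fun F _ F' _ e => hinj e, Finset.sum_mul]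
      refine Finset.sum_le_sum fun F _ => ?_
      rw [Dat.card_F]
      exact hd1 F)
  refine ⟨T, h1, h2, fun c => ?_⟩
  by_contra hc
  obtain ⟨d, e1, e2⟩ := exists_dat h1 c
  have hbad : Bad m' Λ d := by
    refine bad_of hm hΛ0 d (lt_of_eq_of_lt ?_ (lt_of_lt_of_eq (not_le.1 hc) (by rw [e1])))
    have a1 : d.R.image d.x = c.R.image c.x := by
      rw [e1]; exact Finset.image_congr fun k hk => (e2 k hk).1
    have a2 : d.R.image d.y = c.R.image fun k => T.nx (c.x k) (c.s k) := by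
      rw [e1]; exact Finset.image_congr fun k hk => (e2 k hk).2.1
    have a3 : d.Fr = c.R.filter fun k => c.ptr k = none := by
      rw [Dat.Fr, e1]; exact Finset.filter_congr fun k hk => by rw [(e2 k hk).2.2.2]
    rw [a1, a2, a3]
    refine congrArg₂ _ (congrArg₂ _ (Finset.sum_congr rfl fun v _ => ?_)
      (Finset.sum_congr rfl fun k hk => ?_)) rfl
    · rw [av]
    · rw [(e2 k (Finset.mem_filter.1 hk).1).2.2.1]
  refine h3 ⟨d.F, d, hbad, rfl⟩ fun e he => ?_
  rw [hd2] at he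
  obtain ⟨k, hk, rfl⟩ := Dat.mem_F he
  rw [e1] at hk
  obtain ⟨a1, a2, a3, -⟩ := e2 k hk
  simp only [a1, a2, a3]

end Vale.Agent.P201
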