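import Mathlib

/-! Generic counting lemmas for the entropy inequality. -/

namespace Vale.Agent.P201.Kraft

open Finset

theorem seq_sum {K α β : Type} [DecidableEq K] [LinearOrder β] (rk : K → β) (A : Finset α)
    (w : K → (K → α) → ℝ) (b : K → ℝ) (f0 : K → α) (D : Finset K)
    (hw : ∀ k f, 0 ≤ w k f)
    (hdep : ∀ k ∈ D, ∀ f g, (∀ k', rk k' < rk k ∨ k' = k → f k' = g k') → w k f = w k g)
    (hb : ∀ k ∈ D, ∀ f, ∑ a ∈ A, w k (Function.update f k a) ≤ b k)
    (Ω : Finset (K → α)) (h1 : ∀ f ∈ Ω, ∀ k, k ∉ D → f k = f0 k)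
    (h2 : ∀ f ∈ Ω, ∀ k ∈ D, f k ∈ A) :
    ∑ f ∈ Ω, ∏ k ∈ D, w k f ≤ ∏ k ∈ D, b k := by
  classical
  induction D using Finset.induction_on_max_value rk generalizing Ω with
  | empty =>
    simp only [prod_empty, sum_const, nsmul_eq_mul, mul_one]
    have : Ω.card ≤ 1 := card_le_one.2 fun f hf g hg =>
      funext fun k => (h1 f hf k (by simp)).trans (h1 g hg k (by simp)).symm
    exact_mod_cast this
  | insert m D hm hmax ih =>
    set Ω' := Ω.image fun f => Function.update f m (f0 m) with hΩ'
    have hsub : Ω ⊆ (Ω' ×ˢ A).image fun p => Function.update p.1 m p.2 := by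
      intro f hf
      refine mem_image.2 ⟨(Function.update f m (f0 m), f m),
        mem_product.2 ⟨mem_image_of_mem _ hf, h2 f hf m (mem_insert_self _ _)⟩, ?_⟩
      simp
    have hbm : 0 ≤ b m := (sum_nonneg fun a _ => hw m _).trans (hb m (mem_insert_self _ _) f0)
    have ih' := ih (fun k hk => hdep k (mem_insert_of_mem hk)) (fun k hk => hb k (mem_insert_of_mem hk))
      Ω' (by
        intro g hg k hk
        obtain ⟨f, hf, rfl⟩ := mem_image.1 hg
        by_cases e : k = m
        · subst e; simp
        · rw [Function.update_of_ne e]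
          exact h1 f hf k (by simp [e, hk])) (by
        intro g hg k hk
        obtain ⟨f, hf, rfl⟩ := mem_image.1 hg
        have e : k ≠ m := fun e => hm (e ▸ hk)
        rw [Function.update_of_ne e]
        exact h2 f hf k (mem_insert_of_mem hk))
    calc ∑ f ∈ Ω, ∏ k ∈ insert m D, w k f
        ≤ ∑ f ∈ (Ω' ×ˢ A).image fun p => Function.update p.1 m p.2, ∏ k ∈ insert m D, w k f :=
          sum_le_sum_of_subset_of_nonneg hsub fun f _ _ => prod_nonneg fun k _ => hw k f
      _ ≤ ∑ p ∈ Ω' ×ˢ A, ∏ k ∈ insert m D, w k (Function.update p.1 m p.2) :=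
          sum_image_le_of_nonneg fun f _ => prod_nonneg fun k _ => hw k f
      _ = ∑ g ∈ Ω', (∑ a ∈ A, w m (Function.update g m a)) * ∏ k ∈ D, w k g := by
          rw [sum_product]
          refine sum_congr rfl fun g _ => ?_
          rw [sum_mul]
          refine sum_congr rfl fun a _ => ?_
          rw [prod_insert hm]
          refine congrArg _ (prod_congr rfl fun k hk => hdep k (mem_insert_of_mem hk) _ _ ?_)
          intro k' hk'
          refine Function.update_of_ne ?_ _ _
          rintro rfl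
          rcases hk' with h | h
          · exact absurd (hmax k hk) (not_le.2 h)
          · exact hm (h ▸ hk)
      _ ≤ ∑ g ∈ Ω', b m * ∏ k ∈ D, w k g :=
          sum_le_sum fun g _ => mul_le_mul_of_nonneg_right (hb m (mem_insert_self _ _) g)
            (prod_nonneg fun k _ => hw k g)
      _ ≤ ∏ k ∈ insert m D, b k := by
          rw [← mul_sum, prod_insert hm]
          exact mul_le_mul_of_nonneg_left ih' hbm

theorem fib {ι β : Type} [DecidableEq β] (Ω : Finset ι) (π : ι → β) (F : ι → ℝ) (G : β → ℝ) (C : ℝ)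
    (h : ∀ d0 ∈ Ω, ∑ d ∈ Ω.filter (fun d => π d = π d0), F d ≤ C * G (π d0)) :
    ∑ d ∈ Ω, F d ≤ C * ∑ b ∈ Ω.image π, G b := by
  rw [← sum_fiberwise_of_maps_to (g := π) (t := Ω.image π) fun d hd => mem_image_of_mem _ hd,
    mul_sum]
  refine sum_le_sum fun b hb => ?_
  obtain ⟨d0, hd0, rfl⟩ := mem_image.1 hb
  exact h d0 hd0

open Classical in
/-- weight of a slot: one if the value occurred before. -/
noncomputable def nw {K V β : Type} [LinearOrder β] (rk : K → β) (D : Finset K) (g : V → ℝ)
    (k : K) (z : K → V) : ℝ :=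
  if ∃ k' ∈ D, rk k' < rk k ∧ z k' = z k then 1 else g (z k)

theorem prod_nw {K V β : Type} [DecidableEq V] [LinearOrder β] (rk : K → β)
    (hrk : Function.Injective rk) (D : Finset K) (g : V → ℝ) (z : K → V) :
    ∏ k ∈ D, nw rk D g k z = ∏ v ∈ D.image z, g v := by
  classical
  induction D using Finset.induction_on_max_value rk with
  | empty => simp
  | insert m D hm hmax ih =>
    rw [prod_insert hm, image_insert]
    have h1 : ∏ k ∈ D, nw rk (insert m D) g k z = ∏ k ∈ D, nw rk D g k z := by
      refine prod_congr rfl fun k hk => ?_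
      have : (∃ k' ∈ insert m D, rk k' < rk k ∧ z k' = z k) ↔
          ∃ k' ∈ D, rk k' < rk k ∧ z k' = z k := by
        constructor
        · rintro ⟨k', h1, h2, h3⟩
          rcases mem_insert.1 h1 with rfl | h1
          · exact absurd (hmax k hk) (not_le.2 h2)
          · exact ⟨k', h1, h2, h3⟩
        · rintro ⟨k', h1, h2⟩
          exact ⟨k', mem_insert_of_mem h1, h2⟩
      by_cases h : ∃ k' ∈ D, rk k' < rk k ∧ z k' = z k
      · rw [nw, nw, if_pos h, if_pos (this.2 h)]
      · rw [nw, nw, if_neg h, if_neg (fun h' => h (this.1 h'))]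
    rw [h1, ih]
    by_cases h : z m ∈ D.image z
    · rw [insert_eq_of_mem h]
      obtain ⟨k, hk, e⟩ := mem_image.1 h
      have : rk k < rk m := lt_of_le_of_ne (hmax k hk) fun e' => hm (hrk e' ▸ hk)
      rw [nw, if_pos ⟨k, mem_insert_of_mem hk, this, e⟩, one_mul]
    · rw [prod_insert h, nw, if_neg]
      rintro ⟨k, h1, h2, h3⟩
      rcases mem_insert.1 h1 with rfl | h1
      · exact lt_irrefl _ h2
      · exact h (mem_image.2 ⟨k, h1, h3⟩)

theorem nw_nonneg {K V β : Type} [LinearOrder β] (rk : K → β) (D : Finset K) {g : V → ℝ}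
    (hg : ∀ v, 0 ≤ g v) (k : K) (z : K → V) : 0 ≤ nw rk D g k z := by
  unfold nw
  split_ifs
  · exact zero_le_one
  · exact hg _

theorem nw_dep {K V β : Type} [LinearOrder β] (rk : K → β) (D : Finset K) (g : V → ℝ)
    (k : K) (f f' : K → V) (h : ∀ k', rk k' < rk k ∨ k' = k → f k' = f' k') :
    nw rk D g k f = nw rk D g k f' := by
  classical
  unfold nw
  rw [h k (Or.inr rfl)]
  refine if_congr ⟨?_, ?_⟩ rfl rfl
  · rintro ⟨k', h1, h2, h3⟩
    exact ⟨k', h1, h2, (h k' (Or.inl h2)).symm.trans h3⟩
  · rintro ⟨k', h1, h2, h3⟩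
    exact ⟨k', h1, h2, (h k' (Or.inl h2)).trans h3⟩

open Classical in
theorem sum_nw_le {K V β : Type} [DecidableEq K] [Fintype V] [LinearOrder β] (rk : K → β)
    (D : Finset K) {g : V → ℝ} (hg : ∀ v, 0 ≤ g v) (k : K) (f : K → V) (p : V → Prop) :
    ∑ a, (if p a then 1 else 0) * nw rk D g k (Function.update f k a)
      ≤ D.card + ∑ a ∈ univ.filter p, g a := by
  have h1 : ∀ a, (if p a then 1 else 0) * nw rk D g k (Function.update f k a)
      ≤ (if a ∈ D.image f then (1 : ℝ) else 0) + if p a then g a else 0 := by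
    intro a
    have := hg a
    unfold nw
    by_cases hp : p a
    · rw [if_pos hp, if_pos hp, one_mul]
      split_ifs with h h' h'
      · linarith
      · exfalso
        obtain ⟨k', h1, h2, h3⟩ := h
        have e : k' ≠ k := by rintro rfl; exact lt_irrefl _ h2
        rw [Function.update_of_ne e, Function.update_self] at h3
        exact h' (mem_image.2 ⟨k', h1, h3⟩)
      · rw [Function.update_self]; linarith
      · rw [Function.update_self]; linarith
    · rw [if_neg hp, if_neg hp, zero_mul]
      split_ifs <;> norm_num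
  refine (sum_le_sum fun a _ => h1 a).trans ?_
  rw [sum_add_distrib, ← sum_filter, ← sum_filter]
  refine add_le_add ?_ le_rfl
  simp only [sum_const, nsmul_eq_mul, mul_one]
  have : (univ.filter fun a => a ∈ D.image f).card ≤ D.card := by
    rw [filter_mem_eq_inter, univ_inter]; exact card_image_le
  exact_mod_cast this

theorem card_small {K : Type} (B : Finset K) (κ : ℕ) (Ω : Finset (Finset K))
    (h : ∀ X ∈ Ω, X ⊆ B ∧ X.card ≤ κ) : Ω.card ≤ (B.card + 1) ^ κ := by
  classical
  have h1 : (Fintype.piFinset fun _ : Fin κ => insertNone B).card = (B.card + 1) ^ κ := by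
    simp
  rw [← h1]
  refine card_le_card_of_injOn (fun X i => X.toList[i.val]?) (fun X hX => ?_) fun X hX Y hY e => ?_
  · simp only [mem_coe, Fintype.mem_piFinset, mem_insertNone]
    intro i a ha
    exact (h X hX).1 (mem_toList.1 (List.mem_of_getElem? ha))
  · have key : ∀ X ∈ Ω, ∀ Y : Finset K,
        (fun i : Fin κ => X.toList[i.val]?) = (fun i : Fin κ => Y.toList[i.val]?) → X ⊆ Y := by
      intro X hX Y e a ha
      obtain ⟨i, hi, e'⟩ := List.getElem_of_mem (mem_toList.2 ha)
      have hi' : i < κ := by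
        rw [length_toList] at hi
        exact hi.trans_le (h X hX).2
      have := congrFun e ⟨i, hi'⟩
      simp only at this
      rw [List.getElem?_eq_getElem hi, e'] at this
      exact mem_toList.1 (List.mem_of_getElem? this.symm)
    exact Subset.antisymm (key X hX Y e) (key Y hY X e.symm)

theorem prod_ite_le {K : Type} (D : Finset K) (p : K → Prop) [DecidablePred p] (c : ℝ) (hc : 1 ≤ c)
    (n : ℕ) (h : (D.filter p).card ≤ n) : ∏ k ∈ D, (if p k then c else 1) ≤ c ^ n := by
  rw [← prod_filter, prod_const]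
  exact pow_le_pow_right₀ hc h

end Vale.Agent.P201.Kraft
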