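import Vale.Agent.P201.Basic
import Vale.Agent.P201.KraftSeq

/-! Normalised graph-independent data, and the sum over vertices. -/

namespace Vale.Agent.P201.Kraft

open Finset

variable {P V I : Type} [Inhabited P] [Inhabited V]

/-- normalised configuration data, not referring to a graph -/
structure Dat (Ds : Des P V I) (S ℓ κ : ℕ) where
  R : Finset (ℕ × ℕ)
  x : ℕ × ℕ → V
  y : ℕ × ℕ → V
  s : ℕ × ℕ → P
  ptr : ℕ × ℕ → Option ((ℕ × ℕ) × Bool)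
  Bk : Finset (ℕ × ℕ)
  box : ∀ k ∈ R, k.1 < S ∧ k.2 < ℓ
  boxB : ∀ k ∈ Bk, k.1 < S ∧ k.2 < ℓ
  card_Bk : Bk.card ≤ κ
  x0 : ∀ k, k ∉ R → x k = default
  y0 : ∀ k, k ∉ R → y k = default
  s0 : ∀ k, k ∉ R → s k = default
  ptr0 : ∀ k, k ∉ R → ptr k = none
  hL : ∀ k ∈ R, Ds.L (x k) (s k)
  hL' : ∀ k ∈ R, Ds.L (y k) (Ds.bar (s k))
  hcol : ∀ k ∈ R, Ds.col (y k) = Ds.τ (Ds.col (x k)) (s k)
  dist : ∀ k ∈ R, ∀ k' ∈ R, k ≠ k' →
    (x k, s k) ≠ (x k', s k') ∧ (y k, Ds.bar (s k)) ≠ (x k', s k')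
  linkR : ∀ a i, (a, i) ∉ Bk → ((a, i) ∈ R ↔ (a, i + 1) ∈ R)
  link : ∀ a i, (a, i) ∉ Bk → (a, i) ∈ R → x (a, i + 1) = y (a, i) ∧
    s (a, i + 1) ≠ Ds.bar (s (a, i)) ∧ ptr (a, i + 1) = step (ptr (a, i))
  hptr : ∀ k ∈ R, ∀ k' b, ptr k = some (k', b) →
    k' ∈ R ∧ s k = if b then s k' else Ds.bar (s k')
  wf : WellFounded fun k' k => k ∈ R ∧ ∃ b, ptr k = some (k', b)

variable {Ds : Des P V I} {S ℓ κ : ℕ}

theorem Dat.ext' {d d' : Dat Ds S ℓ κ} (h1 : d.R = d'.R) (h2 : d.x = d'.x) (h3 : d.y = d'.y)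
    (h4 : d.s = d'.s) (h5 : d.ptr = d'.ptr) (h6 : d.Bk = d'.Bk) : d = d' := by
  cases d; cases d'
  simp only at h1 h2 h3 h4 h5 h6
  subst h1 h2 h3 h4 h5 h6
  rfl

/-- the box of positions -/
def bx (S ℓ : ℕ) : Finset (ℕ × ℕ) := range S ×ˢ range ℓ

theorem mem_bx {k : ℕ × ℕ} : k ∈ bx S ℓ ↔ k.1 < S ∧ k.2 < ℓ := by simp [bx]

theorem card_bx : (bx S ℓ).card = S * ℓ := by simp [bx]

theorem Dat.R_sub (d : Dat Ds S ℓ κ) : d.R ⊆ bx S ℓ := fun k hk => mem_bx.2 (d.box k hk)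

theorem Dat.card_R (d : Dat Ds S ℓ κ) : d.R.card ≤ S * ℓ :=
  (card_le_card d.R_sub).trans card_bx.le

/-- positions not linked to their predecessor -/
def unl (Bk : Finset (ℕ × ℕ)) (k : ℕ × ℕ) : Prop := k.2 = 0 ∨ (k.1, k.2 - 1) ∈ Bk

instance (Bk : Finset (ℕ × ℕ)) : DecidablePred (unl Bk) := fun k => by unfold unl; infer_instance

theorem card_unl (Bk D : Finset (ℕ × ℕ)) (hD : D ⊆ bx S ℓ) (hB : Bk.card ≤ κ) :
    (D.filter (unl Bk)).card ≤ S + κ := by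
  have : D.filter (unl Bk) ⊆ (range S).image (fun a => (a, 0)) ∪
      Bk.image (fun k => (k.1, k.2 + 1)) := by
    rintro ⟨a, i⟩ hk
    obtain ⟨h1, h2⟩ := mem_filter.1 hk
    have h3 := mem_bx.1 (hD h1)
    rw [mem_union]
    cases i with
    | zero => exact Or.inl (mem_image.2 ⟨a, mem_range.2 h3.1, rfl⟩)
    | succ i =>
      refine Or.inr (mem_image.2 ⟨(a, i), ?_, rfl⟩)
      simpa [unl] using h2
  refine (card_le_card this).trans ((card_union_le _ _).trans (add_le_add ?_ ?_))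
  · exact card_image_le.trans (card_range S).le
  · exact card_image_le.trans hB

theorem not_unl {Bk : Finset (ℕ × ℕ)} {k : ℕ × ℕ} (h : ¬ unl Bk k) :
    ∃ a i, k = (a, i + 1) ∧ (a, i) ∉ Bk := by
  obtain ⟨a, i⟩ := k
  cases i with
  | zero => exact absurd (Or.inl rfl) h
  | succ i => exact ⟨a, i, rfl, fun h' => h (Or.inr (by simpa using h'))⟩

open Classical in
/-- size of the class of a vertex -/
noncomputable def av (Ds : Des P V I) (v : V) : ℝ := if Ds.W v then Ds.mp else Ds.np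

omit [Inhabited P] [Inhabited V] in
theorem np_le_av (v : V) : (Ds.np : ℝ) ≤ av Ds v := by
  unfold av
  split_ifs
  · exact_mod_cast Ds.np_le
  · exact le_rfl

omit [Inhabited P] [Inhabited V] in
theorem av_pos (v : V) : 0 < av Ds v :=
  lt_of_lt_of_le (by exact_mod_cast Ds.np_pos) (np_le_av v)

open Classical in
/-- vertex weight of a datum -/
noncomputable def Vw (Λ : ℝ) (d : Dat Ds S ℓ κ) : ℝ :=
  (1 / Λ) ^ d.R.card * ∏ v ∈ d.R.image d.x ∪ d.R.image d.y, Λ / av Ds v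

/-- the vertices as a function on slots -/
def Dat.z (d : Dat Ds S ℓ κ) (k : (ℕ × ℕ) × Bool) : V := if k.2 then d.y k.1 else d.x k.1

/-- order of the slots -/
def rk (k : (ℕ × ℕ) × Bool) : ℕ ×ₗ ℕ := toLex (k.1.1, 2 * k.1.2 + k.2.toNat)

theorem rk_inj : Function.Injective rk := by
  rintro ⟨⟨a, i⟩, b⟩ ⟨⟨a', i'⟩, b'⟩ h
  have := toLex.injective h
  simp only [Prod.mk.injEq] at this ⊢
  cases b <;> cases b' <;> simp at this ⊢ <;> omega

/-- constraint on the value of a slot -/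
def cnd (d : Dat Ds S ℓ κ) (k : (ℕ × ℕ) × Bool) (f : (ℕ × ℕ) × Bool → V) (v : V) : Prop :=
  if k.2 then Ds.col v = Ds.τ (Ds.col (f (k.1, false))) (d.s k.1) ∧ Ds.L v (Ds.bar (d.s k.1)) ∧
    (k.1 ∉ d.Bk → Ds.L v (d.s (k.1.1, k.1.2 + 1)))
  else ¬ unl d.Bk k.1 → v = f ((k.1.1, k.1.2 - 1), true)

open Classical in
/-- weight of a slot -/
noncomputable def vw (Λ : ℝ) (d : Dat Ds S ℓ κ) (k : (ℕ × ℕ) × Bool)
    (f : (ℕ × ℕ) × Bool → V) : ℝ :=
  (if cnd d k f (f k) then 1 else 0) * nw rk (d.R ×ˢ univ) (fun v => Λ / av Ds v) k f *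
    (if k.2 then 1 / Λ else 1)

theorem cnd_dep (d : Dat Ds S ℓ κ) (k : (ℕ × ℕ) × Bool) (f g : (ℕ × ℕ) × Bool → V)
    (h : ∀ k', rk k' < rk k → f k' = g k') (v : V) : cnd d k f v ↔ cnd d k g v := by
  obtain ⟨⟨a, i⟩, b⟩ := k
  cases b with
  | true =>
    simp only [cnd, if_true]
    rw [h ((a, i), false) (by simp [rk, Prod.Lex.toLex_lt_toLex])]
  | false =>
    simp only [cnd, Bool.false_eq_true, if_false]
    refine forall_congr' fun hu => ?_
    obtain ⟨a', i', e, -⟩ := not_unl hu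
    obtain ⟨rfl, rfl⟩ := Prod.mk.inj e
    rw [h ((a, i' + 1 - 1), true) (by simp [rk, Prod.Lex.toLex_lt_toLex]; omega)]

theorem cnd_z {d d0 : Dat Ds S ℓ κ} (h1 : d.R = d0.R) (h2 : d.Bk = d0.Bk) (h3 : d.s = d0.s)
    {k : (ℕ × ℕ) × Bool} (hk : k.1 ∈ d0.R) : cnd d0 k d.z (d.z k) := by
  obtain ⟨⟨a, i⟩, b⟩ := k
  rw [← h1] at hk
  cases b with
  | true =>
    simp only [cnd, if_true, Dat.z, Bool.false_eq_true, if_false, ← h2, ← h3]
    refine ⟨d.hcol _ hk, d.hL' _ hk, fun hB => ?_⟩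
    rw [← (d.link a i hB hk).1]
    exact d.hL _ ((d.linkR a i hB).1 hk)
  | false =>
    simp only [cnd, Bool.false_eq_true, if_false, Dat.z, if_true, ← h2]
    intro hu
    obtain ⟨a', i', e, hB⟩ := not_unl hu
    obtain ⟨rfl, rfl⟩ := Prod.mk.inj e
    exact (d.link a i' hB ((d.linkR a i' hB).2 hk)).1

theorem Vw_eq (Λ : ℝ) {d d0 : Dat Ds S ℓ κ} (h1 : d.R = d0.R) (h2 : d.Bk = d0.Bk)
    (h3 : d.s = d0.s) : Vw Λ d = ∏ k ∈ d0.R ×ˢ univ, vw Λ d0 k d.z := by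
  classical
  unfold vw
  rw [prod_mul_distrib, prod_mul_distrib, prod_nw rk rk_inj, prod_eq_one fun k hk =>
    if_pos (cnd_z h1 h2 h3 (mem_product.1 hk).1), one_mul, prod_product, Vw, mul_comm, h1]
  congr 1
  · refine prod_congr ?_ fun _ _ => rfl
    ext v
    simp only [mem_union, mem_image, mem_product, mem_univ, and_true, Prod.exists, Bool.exists_bool,
      Dat.z, Bool.false_eq_true, if_false, if_true]
    constructor
    · rintro (⟨a, i, h, e⟩ | ⟨a, i, h, e⟩)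
      · exact ⟨a, i, Or.inl ⟨h, e⟩⟩
      · exact ⟨a, i, Or.inr ⟨h, e⟩⟩
    · rintro ⟨a, i, ⟨h, e⟩ | ⟨h, e⟩⟩
      · exact Or.inl ⟨a, i, h, e⟩
      · exact Or.inr ⟨a, i, h, e⟩
  · simp

omit [Inhabited P] [Inhabited V] in
open Classical in
theorem card_filter_eq {α : Type} [Fintype α] (p : α → Prop) :
    (univ.filter p).card = Nat.card {v // p v} := by
  rw [Nat.card_eq_fintype_card, Fintype.card_subtype]

omit [Inhabited P] [Inhabited V] in
open Classical in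
theorem sum_inv_le [Fintype V] {Λ : ℝ} (hΛ : 0 ≤ Λ) (p q : V → Prop) (hpq : ∀ v, p v → q v)
    (c n : ℝ) (hc : 0 < c) (h1 : ∀ v, p v → c ≤ av Ds v) (h2 : (Nat.card {v // q v} : ℝ) ≤ n * c) :
    ∑ v ∈ univ.filter p, Λ / av Ds v ≤ n * Λ := by
  calc ∑ v ∈ univ.filter p, Λ / av Ds v ≤ ∑ _v ∈ univ.filter p, Λ / c :=
        sum_le_sum fun v hv => div_le_div_of_nonneg_left hΛ hc (h1 v (mem_filter.1 hv).2)
    _ = (univ.filter p).card * (Λ / c) := by simp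
    _ ≤ (n * c) * (Λ / c) := by
        refine mul_le_mul_of_nonneg_right (le_trans ?_ h2) (by positivity)
        rw [← card_filter_eq]
        exact_mod_cast card_le_card fun v hv =>
          mem_filter.2 ⟨mem_univ _, hpq v (mem_filter.1 hv).2⟩
    _ = n * Λ := by field_simp

/-- bound for the sum over a slot -/
noncomputable def vb (Λ : ℝ) (d : Dat Ds S ℓ κ) (k : (ℕ × ℕ) × Bool) : ℝ :=
  if k.2 then (if k.1 ∈ d.Bk then 7 else 1) * (1 + 2 * (S * ℓ : ℕ) / Λ)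
  else if unl d.Bk k.1 then 201 * Λ else 1

theorem vw_sum [Fintype V] {Λ : ℝ} (hΛ : 2 * ((S * ℓ : ℕ) + 1 : ℝ) ^ 2 ≤ Λ) (d : Dat Ds S ℓ κ)
    (k : (ℕ × ℕ) × Bool) (hk : k.1 ∈ d.R) (f : (ℕ × ℕ) × Bool → V) :
    ∑ a, vw Λ d k (Function.update f k a) ≤ vb Λ d k := by
  classical
  have hL0 : (0 : ℝ) ≤ (S * ℓ : ℕ) := Nat.cast_nonneg _
  have hΛ1 : 2 * ((S * ℓ : ℕ) : ℝ) + 2 ≤ Λ := by nlinarith
  have hΛ0 : 0 < Λ := by linarith
  have hnp : (0 : ℝ) < Ds.np := by exact_mod_cast Ds.np_pos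
  have hg : ∀ v, 0 ≤ Λ / av Ds v := fun v => div_nonneg hΛ0.le (av_pos v).le
  have hc : ∀ a, cnd d k (Function.update f k a) (Function.update f k a k) ↔ cnd d k f a := by
    intro a
    rw [Function.update_self]
    refine cnd_dep d k _ _ (fun k' hk' => Function.update_of_ne ?_ _ _) a
    rintro rfl; exact lt_irrefl _ hk'
  have hD : ((d.R ×ˢ (univ : Finset Bool)).card : ℝ) ≤ 2 * (S * ℓ : ℕ) := by
    have := d.card_R
    rw [card_product, card_univ, Fintype.card_bool]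
    exact_mod_cast by omega
  have h1 := sum_nw_le rk (d.R ×ˢ univ) hg k f (cnd d k f)
  unfold vw
  simp only [hc]
  rw [← sum_mul]
  obtain ⟨⟨a, i⟩, b⟩ := k
  cases b with
  | true =>
    simp only [vb, if_true]
    rw [mul_one_div, div_le_iff₀ hΛ0]
    refine h1.trans ?_
    by_cases hB : (a, i) ∈ d.Bk
    · have h2 := sum_inv_le (Ds := Ds) hΛ0.le (cnd d ((a, i), true) f)
        (fun v => Ds.col v = Ds.τ (Ds.col (f ((a, i), false))) (d.s (a, i)) ∧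
          Ds.L v (Ds.bar (d.s (a, i)))) (fun v hv => ⟨hv.1, hv.2.1⟩) Ds.np 6 hnp
        (fun v _ => np_le_av v) (by exact_mod_cast (Ds.one _ _).trans Ds.mp_le)
      rw [if_pos hB]
      have : 7 * (1 + 2 * ((S * ℓ : ℕ) : ℝ) / Λ) * Λ = 7 * Λ + 14 * (S * ℓ : ℕ) := by
        field_simp; ring
      rw [this]
      linarith
    · have h2 : ∑ v ∈ univ.filter (cnd d ((a, i), true) f), Λ / av Ds v ≤ 1 * Λ := by
        by_cases hw : Ds.wl (Ds.bar (d.s (a, i)))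
        · refine sum_inv_le (Ds := Ds) hΛ0.le (cnd d ((a, i), true) f)
            (fun v => Ds.col v = Ds.τ (Ds.col (f ((a, i), false))) (d.s (a, i)) ∧
              Ds.L v (Ds.bar (d.s (a, i)))) (fun v hv => ⟨hv.1, hv.2.1⟩) Ds.mp 1
            (lt_of_lt_of_le hnp (by exact_mod_cast Ds.np_le)) (fun v hv => ?_)
            (by rw [one_mul]; exact_mod_cast Ds.one _ _)
          rw [av, if_pos ((Ds.L_W v _ hv.2.1).1 hw)]
        · exact sum_inv_le (Ds := Ds) hΛ0.le (cnd d ((a, i), true) f)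
            (fun v => Ds.col v = Ds.τ (Ds.col (f ((a, i), false))) (d.s (a, i)) ∧
              Ds.L v (Ds.bar (d.s (a, i))) ∧ Ds.L v (d.s (a, i + 1)))
            (fun v hv => ⟨hv.1, hv.2.1, hv.2.2 hB⟩) Ds.np 1 hnp (fun v _ => np_le_av v)
            (by rw [one_mul]; exact_mod_cast Ds.two _ _ _ (d.link a i hB hk).2.1.symm hw)
      rw [if_neg hB]
      have : 1 * (1 + 2 * ((S * ℓ : ℕ) : ℝ) / Λ) * Λ = Λ + 2 * (S * ℓ : ℕ) := by
        field_simp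
      rw [this]
      linarith
  | false =>
    simp only [vb, Bool.false_eq_true, if_false, mul_one]
    split_ifs with hu
    · have h2 := sum_inv_le (Ds := Ds) hΛ0.le (cnd d ((a, i), false) f) (fun _ => True)
        (fun _ _ => trivial) Ds.np 200 hnp (fun v _ => np_le_av v) (by
          rw [Nat.card_congr (Equiv.subtypeUnivEquiv fun _ => trivial)]
          exact_mod_cast Ds.card_V)
      linarith
    · obtain ⟨a', i', e, hB⟩ := not_unl hu
      obtain ⟨rfl, rfl⟩ := Prod.mk.inj e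
      rw [sum_eq_single (f ((a, i'), true))]
      · rw [nw, if_pos (c := ∃ k' ∈ _, _) ⟨((a, i'), true),
          mem_product.2 ⟨(d.linkR a i' hB).2 hk, mem_univ _⟩,
          by simp [rk, Prod.Lex.toLex_lt_toLex]; omega, by simp⟩]
        split_ifs <;> norm_num
      · intro v _ hv
        rw [if_neg, zero_mul]
        intro h
        exact hv (h hu)
      · simp

theorem prod_vb {Λ : ℝ} (hΛ : 2 * ((S * ℓ : ℕ) + 1 : ℝ) ^ 2 ≤ Λ) (d : Dat Ds S ℓ κ) :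
    ∏ k ∈ d.R ×ˢ univ, vb Λ d k ≤ (201 * Λ) ^ (S + κ) * 7 ^ κ * 3 := by
  have hL0 : (0 : ℝ) ≤ (S * ℓ : ℕ) := Nat.cast_nonneg _
  have hΛ1 : 2 * ((S * ℓ : ℕ) : ℝ) + 2 ≤ Λ := by nlinarith
  have hΛ0 : 0 < Λ := by linarith
  rw [prod_product]
  simp only [Fintype.prod_bool, vb, if_true, Bool.false_eq_true, if_false]
  rw [prod_mul_distrib, prod_mul_distrib, prod_const]
  have h1 := prod_ite_le d.R (fun k => k ∈ d.Bk) 7 (by norm_num) κ
    ((card_le_card fun k hk => (mem_filter.1 hk).2).trans d.card_Bk)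
  have h2 := prod_ite_le d.R (unl d.Bk) (201 * Λ) (by linarith) (S + κ)
    (card_unl _ _ d.R_sub d.card_Bk)
  have h3 : (1 + 2 * ((S * ℓ : ℕ) : ℝ) / Λ) ^ d.R.card ≤ 3 := by
    have h0 : 0 ≤ 2 * ((S * ℓ : ℕ) : ℝ) / Λ := by positivity
    calc _ ≤ (1 + 2 * ((S * ℓ : ℕ) : ℝ) / Λ) ^ (S * ℓ) := pow_le_pow_right₀ (by linarith) d.card_R
      _ ≤ (Real.exp (2 * ((S * ℓ : ℕ) : ℝ) / Λ)) ^ (S * ℓ) := by
          refine pow_le_pow_left₀ (by linarith) ?_ _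
          rw [add_comm]; exact Real.add_one_le_exp _
      _ = Real.exp ((S * ℓ : ℕ) * (2 * ((S * ℓ : ℕ) : ℝ) / Λ)) := (Real.exp_nat_mul _ _).symm
      _ ≤ Real.exp 1 := by
          refine Real.exp_le_exp.2 ?_
          rw [← mul_div_assoc, div_le_one hΛ0]
          nlinarith
      _ ≤ 3 := Real.exp_one_lt_d9.le.trans (by norm_num)
  calc _ ≤ (7 ^ κ * 3) * (201 * Λ) ^ (S + κ) := by
        refine mul_le_mul (mul_le_mul h1 h3 (by positivity) (by positivity)) h2 ?_ (by positivity)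
        refine prod_nonneg fun k _ => ?_
        split_ifs <;> positivity
    _ = _ := by ring

theorem Vw_nonneg {Λ : ℝ} (hΛ : 0 < Λ) (d : Dat Ds S ℓ κ) : 0 < Vw Λ d := by
  unfold Vw
  exact mul_pos (by positivity) (prod_pos fun v _ => div_pos hΛ (av_pos v))

theorem vert_bound [Fintype V] {Λ : ℝ} (hΛ : 2 * ((S * ℓ : ℕ) + 1 : ℝ) ^ 2 ≤ Λ)
    (d0 : Dat Ds S ℓ κ) (Ω : Finset (Dat Ds S ℓ κ))
    (h : ∀ d ∈ Ω, d.R = d0.R ∧ d.Bk = d0.Bk ∧ d.ptr = d0.ptr ∧ d.s = d0.s) :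
    ∑ d ∈ Ω, Vw Λ d ≤ (201 * Λ) ^ (S + κ) * 7 ^ κ * 3 := by
  classical
  have hL0 : (0 : ℝ) ≤ (S * ℓ : ℕ) := Nat.cast_nonneg _
  have hΛ0 : 0 < Λ := by nlinarith
  have hinj : Set.InjOn Dat.z (Ω : Set (Dat Ds S ℓ κ)) := by
    intro d hd d' hd' e
    obtain ⟨a1, a2, a3, a4⟩ := h d hd
    obtain ⟨b1, b2, b3, b4⟩ := h d' hd'
    exact Dat.ext' (a1.trans b1.symm) (funext fun k => congrFun e (k, false))
      (funext fun k => congrFun e (k, true)) (a4.trans b4.symm) (a3.trans b3.symm)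
      (a2.trans b2.symm)
  rw [sum_congr rfl fun d hd => Vw_eq Λ (h d hd).1 (h d hd).2.1 (h d hd).2.2.2,
    ← sum_image (f := fun f => ∏ k ∈ d0.R ×ˢ univ, vw Λ d0 k f) hinj]
  refine le_trans ?_ (prod_vb hΛ d0)
  refine seq_sum rk univ (vw Λ d0) (vb Λ d0) (fun _ => default) _ (fun k f => ?_)
    (fun k _ f g hfg => ?_) (fun k hk f => vw_sum hΛ d0 k (mem_product.1 hk).1 f) _
    (fun f hf k hk => ?_) (fun _ _ _ _ => mem_univ _)
  · unfold vw
    refine mul_nonneg (mul_nonneg ?_ (nw_nonneg _ _ (fun v => div_nonneg hΛ0.le (av_pos v).le) _ _))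
      ?_
    · split_ifs <;> norm_num
    · split_ifs <;> positivity
  · unfold vw
    rw [nw_dep rk _ _ k f g hfg, hfg k (Or.inr rfl)]
    simp only [cnd_dep d0 k f g fun k' hk' => hfg k' (Or.inl hk')]
  · obtain ⟨d, hd, rfl⟩ := mem_image.1 hf
    have hk' : k.1 ∉ d.R := by
      rw [(h d hd).1]
      exact fun h' => hk (mem_product.2 ⟨h', mem_univ _⟩)
    unfold Dat.z
    split_ifs
    · exact d.y0 _ hk'
    · exact d.x0 _ hk'

end Vale.Agent.P201.Kraft
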