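import Vale.Agent.P201.Local6

namespace Vale.Agent.P201
open Vale.Agent.P186 Finset Loc

/-- the entropy inequality implies the local isoperimetric inequality -/
theorem LS_of_Q (S : ℕ) : ∃ κ : ℕ, ∀ {P V I : Type} (Ds : Des P V I) (T : TG P V) (g ℓ : ℕ)
    (m' Λ A η : ℝ), Ds.Fits T → T.Girth g → 2 * ℓ ≤ g → Q Ds T S ℓ κ m' Λ A →
    0 ≤ A → 1 ≤ Λ → Λ ≤ Ds.np →
    η ≤ Real.log m' - Real.log Ds.np - Real.log 24 / 2 →
    2 * η ≤ 2 * Real.log m' - Real.log Ds.np - Real.log Ds.mp - Real.log 24 / 2 →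
    LS T S ℓ η (Real.log Ds.mp) (S * A) := by
  classical
  refine ⟨16 * S ^ 2, ?_⟩
  intro P V I Ds T g ℓ m' Λ A η hF hg hℓ hQ hA hΛ hΛ' hη1 hη2 p
  have hnp : (1 : ℝ) ≤ Ds.np := hΛ.trans hΛ'
  have hmp : (Ds.np : ℝ) ≤ Ds.mp := by exact_mod_cast Ds.np_le
  have l0 : 0 ≤ Real.log Λ := Real.log_nonneg hΛ
  have l1 : Real.log Λ ≤ Real.log Ds.np := Real.log_le_log (by linarith) hΛ'
  have l2 : Real.log Ds.np ≤ Real.log Ds.mp := Real.log_le_log (by linarith) hmp
  have l24 : 0 ≤ Real.log 24 := Real.log_nonneg (by norm_num)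
  rcases isEmpty_or_nonempty p.U with hU | hU
  · simp only [Nat.card_of_isEmpty, Nat.cast_zero, mul_zero, zero_mul, zero_add]
    positivity
  have := Fintype.ofFinite p.U
  set f : V → ℝ := fun v => Real.log (if Ds.W v then Ds.mp else Ds.np) - Real.log Λ with hf
  set w : P → ℝ := fun s => (if Ds.wl s ∨ Ds.wl (Ds.bar s) then 1 / 2 else 1) * Real.log 24
    with hw
  have f0 : ∀ v, 0 ≤ f v := fun v => by
    simp only [hf]
    split_ifs <;> linarith
  have fB : ∀ v, f v ≤ Real.log Ds.mp := fun v => by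
    simp only [hf]
    split_ifs <;> linarith
  have w0 : ∀ s, 0 ≤ w s := fun s => by
    simp only [hw]
    split_ifs <;> positivity
  have wb : ∀ s, w (T.bar s) = w s := fun s => by
    simp only [hw, hF.1, Ds.bar_bar, or_comm]
  have h1 : ∑ j ∈ range S, ((RS p j).card : ℝ) * (Real.log m' - Real.log Λ) ≤
      ∑ j ∈ range S, (∑ v ∈ (RS p j).image p.v ∪ (RS p j).image (fun d => T.nx (p.v d) (p.s d)),
        f v + ∑ d ∈ (RS p j).filter (fun d => Free p (d, true)), w (p.s d) + A) :=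
    sum_le_sum fun j _ => level p hg hℓ Ds hQ j
  have h2 := sum_levels p hg hℓ (fun _ => (1 : ℝ)) (fun _ => rfl) (fun _ _ _ => rfl)
  have h3 := sum_levels p hg hℓ (fun x => if Free p x then w (E p x).2 else 0)
    (fun x => by rw [free_rv_iff hg hℓ, E_rv]; simp only [Rev, wb])
    (fun x y h => by rw [free_congr hg hℓ h, h])
  have h4 := vtx_sum p f _ f0 fB
  have h5 := sum_free p hg hℓ (fun d => w (p.s d)) (fun d => w0 _) (fun d => by rw [p.s_ε, wb])
  have h6 : ∑ x, f (E p x).1 = ∑ d, (f (p.v d) + f (T.nx (p.v d) (p.s d))) := by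
    rw [Fintype.sum_prod_type]
    refine sum_congr rfl fun d _ => ?_
    rw [Fintype.sum_bool]
    rfl
  have h7 : ∀ d, 2 * η ≤ 2 * (Real.log m' - Real.log Λ) -
      (f (p.v d) + f (T.nx (p.v d) (p.s d))) - w (p.s d) := by
    intro d
    have a1 := Ds.L_W (p.v d) (p.s d) (hF.2.1 ▸ p.hL d)
    have a2 := Ds.L_W (T.nx (p.v d) (p.s d)) (Ds.bar (p.s d))
      (by rw [← hF.1, ← hF.2.1]; exact T.L_nx _ _ (p.hL d))
    have a3 := Ds.wl_bar (p.s d)
    simp only [hf, hw, ← a1, ← a2]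
    by_cases b1 : Ds.wl (p.s d) <;> by_cases b2 : Ds.wl (Ds.bar (p.s d))
    · exact (a3 b1 b2).elim
    all_goals
      simp only [b1, b2, if_true, if_false, true_or, or_true, or_self]
      linarith
  have h8 := sum_le_sum (s := univ) fun d _ => h7 d
  simp only [sum_add_distrib, ← sum_mul, sum_const, card_range, nsmul_eq_mul, mul_one,
    sum_sub_distrib, card_univ] at h1 h2 h8
  have h9 : ∑ j ∈ range S, ∑ d ∈ (RS p j).filter (fun d => Free p (d, true)), w (p.s d) =
      ∑ d, if Free p (d, true) then w (p.s d) else 0 := by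
    simp only [sum_filter]
    exact h3
  rw [Nat.card_eq_fintype_card]
  rw [h6, sum_add_distrib] at h4
  rw [h2, h9] at h1
  linarith

end Vale.Agent.P201
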