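import Vale.Agent.P201.Basic

namespace Vale.Agent.P201
open Vale.Agent.P186

namespace Loc
variable {P V : Type} (T : TG P V)

/-- the reverse of an oriented edge -/
def Rev (e : V × P) : V × P := (T.nx e.1 e.2, T.bar e.2)

/-- one reduced step between oriented edges -/
def Stp (e e' : V × P) : Prop :=
  T.L e.1 e.2 ∧ T.L e'.1 e'.2 ∧ e'.1 = T.nx e.1 e.2 ∧ e'.2 ≠ T.bar e.2

/-- reduced chains of oriented edges -/
inductive Tr : ℕ → V × P → V × P → Prop
  | zero (e : V × P) : T.L e.1 e.2 → Tr 0 e e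
  | cons {n : ℕ} {e e' e'' : V × P} : Stp T e e' → Tr n e' e'' → Tr (n + 1) e e''

variable {T}

theorem L_Rev {e : V × P} (h : T.L e.1 e.2) : T.L (Rev T e).1 (Rev T e).2 := T.L_nx _ _ h

theorem Rev_Rev {e : V × P} (h : T.L e.1 e.2) : Rev T (Rev T e) = e := by
  obtain ⟨a, s⟩ := e
  simp only [Rev, T.bar_bar]
  rw [T.nx_nx a s h]

theorem Stp.rev {e e' : V × P} (h : Stp T e e') : Stp T (Rev T e') (Rev T e) := by
  obtain ⟨h1, h2, h3, h4⟩ := h
  refine ⟨L_Rev h2, L_Rev h1, ?_, ?_⟩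
  · simp only [Rev]
    rw [T.nx_nx _ _ h2, h3]
  · simp only [Rev, T.bar_bar]
    exact fun h => h4 h.symm

theorem Tr.trans {n k : ℕ} {e e' e'' : V × P} (h : Tr T n e e') (h' : Tr T k e' e'') :
    Tr T (k + n) e e'' := by
  induction h with
  | zero e _ => exact h'
  | cons hs _ ih => exact Tr.cons hs (ih h')

theorem Tr.one {e e' : V × P} (h : Stp T e e') : Tr T 1 e e' := Tr.cons h (Tr.zero _ h.2.1)

theorem Tr.rev {n : ℕ} {e e' : V × P} (h : Tr T n e e') : Tr T n (Rev T e') (Rev T e) := by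
  induction h with
  | zero e he => exact Tr.zero _ (L_Rev he)
  | cons hs _ ih =>
    have := ih.trans (Tr.one hs.rev)
    rwa [Nat.add_comm] at this

theorem Tr.walk {n : ℕ} {e e' : V × P} (h : Tr T n e e') :
    ∃ w : List P, w.length = n ∧ T.IsWalk e.1 (e.2 :: w) ∧ T.Red (e.2 :: w) ∧
      T.endpt e.1 (e.2 :: w) = T.nx e'.1 e'.2 := by
  induction h with
  | zero e he => exact ⟨[], rfl, ⟨he, trivial⟩, by simp [TG.Red], rfl⟩
  | @cons n e e' e'' hs _ ih =>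
    obtain ⟨w, h1, h2, h3, h4⟩ := ih
    obtain ⟨a1, _, a3, a4⟩ := hs
    refine ⟨e'.2 :: w, by simp [h1], ⟨a1, a3 ▸ h2⟩, ?_, ?_⟩
    · exact List.IsChain.cons_cons a4 h3
    · rw [← h4, a3]; rfl

theorem Tr.girth {g n : ℕ} (hg : T.Girth g) {e e' : V × P} (h : Tr T n e e') (hn : n + 1 < g) :
    T.nx e'.1 e'.2 ≠ e.1 := by
  obtain ⟨w, h1, h2, h3, h4⟩ := h.walk
  rw [← h4]
  exact hg _ _ h2 h3 (by simp) (by simp [h1, hn])

theorem Tr.not_rev {g n : ℕ} (hg : T.Girth g) {e : V × P} (he : T.L e.1 e.2)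
    (h : Tr T n e (Rev T e)) (hn : n + 1 < g) : False :=
  h.girth hg hn (T.nx_nx _ _ he)

theorem Tr.not_self {g n : ℕ} (hg : T.Girth g) {e : V × P} (h : Tr T n e e) (h0 : 0 < n)
    (hn : n + 1 < g) : False := by
  cases h with
  | zero => omega
  | cons hs h' => exact h'.girth hg (by omega) hs.2.2.1.symm

end Loc
end Vale.Agent.P201
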