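import Vale.Agent.P201.Local1

namespace Vale.Agent.P201
open Vale.Agent.P186

namespace Loc
variable {P V : Type} {T : TG P V} {S ℓ : ℕ} (p : Piece T S ℓ)

/-- the oriented edge under a signed dart -/
def E (x : p.U × Bool) : V × P :=
  if x.2 then (p.v x.1, p.s x.1) else Rev T (p.v x.1, p.s x.1)

def rv (x : p.U × Bool) : p.U × Bool := (x.1, !x.2)

def ep (x : p.U × Bool) : p.U × Bool := (p.ε x.1, !x.2)

def row (x : p.U × Bool) : ℕ := (p.pos x.1).1

def off (x : p.U × Bool) : ℕ := (p.pos x.1).2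

def z (x : p.U × Bool) : ℤ := if x.2 then (off p x : ℤ) else -(off p x : ℤ)

def Succ (x y : p.U × Bool) : Prop := y.2 = x.2 ∧ row p y = row p x ∧ z p y = z p x + 1

theorem E_L (x : p.U × Bool) : T.L (E p x).1 (E p x).2 := by
  obtain ⟨d, b⟩ := x
  cases b
  · exact L_Rev (e := (p.v d, p.s d)) (p.hL d)
  · exact p.hL d

theorem rv_rv (x : p.U × Bool) : rv p (rv p x) = x := by simp [rv]

theorem ep_ep (x : p.U × Bool) : ep p (ep p x) = x := by simp [ep, p.εε]

theorem ep_rv (x : p.U × Bool) : ep p (rv p x) = rv p (ep p x) := rfl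

theorem E_rv (x : p.U × Bool) : E p (rv p x) = Rev T (E p x) := by
  obtain ⟨d, b⟩ := x
  cases b
  · exact (Rev_Rev (e := (p.v d, p.s d)) (p.hL d)).symm
  · rfl

theorem E_rv_iff {x y : p.U × Bool} : E p (rv p x) = E p (rv p y) ↔ E p x = E p y := by
  constructor
  · intro h
    have := congrArg (Rev T) h
    rwa [← E_rv, ← E_rv, rv_rv, rv_rv] at this
  · intro h
    rw [E_rv, E_rv, h]

theorem lab_ep (x : p.U × Bool) : (E p (ep p x)).2 = (E p x).2 := by
  obtain ⟨d, b⟩ := x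
  cases b
  · simp [E, ep, Rev, p.s_ε]
  · simp [E, ep, Rev, p.s_ε, T.bar_bar]

theorem E_ep_ne (x : p.U × Bool) : E p (ep p x) ≠ E p x := by
  obtain ⟨d, b⟩ := x
  cases b
  · intro h
    exact p.red1 d (congrArg Prod.fst h)
  · intro h
    have h1 := congrArg (Rev T) h
    rw [← E_rv] at h1
    exact p.red1 d (congrArg Prod.fst h1)

theorem E_ne_rv (x y : p.U × Bool) (h : (E p x).2 = (E p y).2) : E p x ≠ E p (rv p y) := by
  intro h1
  have := congrArg Prod.snd h1
  rw [E_rv, h] at this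
  exact T.bar_ne _ this.symm

theorem ext_z {x y : p.U × Bool} (h1 : y.2 = x.2) (h2 : row p y = row p x) (h3 : z p y = z p x) :
    y = x := by
  obtain ⟨d, b⟩ := x
  obtain ⟨d', b'⟩ := y
  simp only at h1
  subst h1
  have : p.pos d' = p.pos d := by
    refine Prod.ext h2 ?_
    cases b' <;> simp [z, off] at h3 <;> exact h3
  rw [p.pos_inj this]

variable {p}

theorem Succ.rv {x y : p.U × Bool} (h : Succ p x y) : Succ p (rv p y) (rv p x) := by
  obtain ⟨d, b⟩ := x
  obtain ⟨d', b'⟩ := y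
  obtain ⟨h1, h2, h3⟩ := h
  simp only at h1
  subst h1
  refine ⟨rfl, h2.symm, ?_⟩
  cases b' <;> simp [z, off, Loc.rv] at h3 ⊢ <;> omega

theorem Succ.uniq {x y y' : p.U × Bool} (h : Succ p x y) (h' : Succ p x y') : y = y' :=
  ext_z p (h.1.trans h'.1.symm) (h.2.1.trans h'.2.1.symm) (h.2.2.trans h'.2.2.symm)

theorem Succ.uniq' {x x' y : p.U × Bool} (h : Succ p x y) (h' : Succ p x' y) : x = x' :=
  ext_z p (h.1.symm.trans h'.1) (h.2.1.symm.trans h'.2.1) (by have := h.2.2; have := h'.2.2; omega)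

theorem succ_true {d d' : p.U} :
    Succ p (d, true) (d', true) ↔ p.pos d' = ((p.pos d).1, (p.pos d).2 + 1) := by
  simp only [Succ, row, z, off, if_true, true_and, Prod.ext_iff]
  omega

theorem Succ.both {x y : p.U × Bool} (h : Succ p x y) :
    Stp T (E p x) (E p y) ∧ Succ p (ep p x) (ep p y) := by
  have key : ∀ d d' : p.U, Succ p (d, true) (d', true) →
      Stp T (E p (d, true)) (E p (d', true)) ∧ Succ p (ep p (d, true)) (ep p (d', true)) := by
    intro d d' h
    obtain ⟨h1, h2, h3⟩ := p.link d d' (succ_true.1 h)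
    exact ⟨⟨p.hL d, p.hL d', h1, h2⟩, (succ_true.2 h3).rv⟩
  obtain ⟨d, b⟩ := x
  obtain ⟨d', b'⟩ := y
  have h1 : b' = b := h.1
  subst h1
  cases b'
  · obtain ⟨a1, a2⟩ := key d' d h.rv
    exact ⟨a1.rev, a2.rv⟩
  · exact key d d' h

theorem Succ.stp {x y : p.U × Bool} (h : Succ p x y) : Stp T (E p x) (E p y) := h.both.1

theorem Succ.ep {x y : p.U × Bool} (h : Succ p x y) : Succ p (ep p x) (ep p y) := h.both.2

theorem down (d : p.U) (i : ℕ) (hi : i ≤ (p.pos d).2) : ∃ d', p.pos d' = ((p.pos d).1, i) := by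
  obtain ⟨k, hk⟩ := Nat.exists_eq_add_of_le hi
  induction k generalizing d with
  | zero => exact ⟨d, Prod.ext rfl hk⟩
  | succ k ih =>
    obtain ⟨d0, h0⟩ := p.pred d (by omega)
    have h1 : (p.pos d).2 = (p.pos d0).2 + 1 := by rw [h0]
    have h2 : (p.pos d).1 = (p.pos d0).1 := by rw [h0]
    obtain ⟨d', hd'⟩ := ih d0 (by omega) (by omega)
    exact ⟨d', by rw [hd', h2]⟩

theorem exists_succ {x y : p.U × Bool} (h1 : y.2 = x.2) (h2 : row p y = row p x)
    (h3 : z p x < z p y) : ∃ x', Succ p x x' := by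
  obtain ⟨d, b⟩ := x
  obtain ⟨d', b'⟩ := y
  simp only at h1
  subst h1
  cases b'
  · simp only [z, off, Bool.false_eq_true, if_false] at h3
    obtain ⟨d0, h0⟩ := p.pred d (by omega)
    exact ⟨(d0, false), (succ_true.2 h0).rv⟩
  · simp only [z, off, if_true] at h3
    obtain ⟨d0, h0⟩ := down d' ((p.pos d).2 + 1) (by omega)
    refine ⟨(d0, true), succ_true.2 ?_⟩
    rw [h0]
    exact Prod.ext h2 rfl

theorem tr_of (n : ℕ) {x y : p.U × Bool} (h1 : y.2 = x.2) (h2 : row p y = row p x)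
    (h3 : z p y = z p x + n) : Tr T n (E p x) (E p y) := by
  induction n generalizing x with
  | zero =>
    rw [ext_z p h1 h2 (by simpa using h3)]
    exact Tr.zero _ (E_L p x)
  | succ n ih =>
    obtain ⟨x', hx'⟩ := exists_succ h1 h2 (by omega)
    refine Tr.cons hx'.stp (ih (h1.trans hx'.1.symm) (h2.trans hx'.2.1.symm) ?_)
    have := hx'.2.2
    omega

theorem z_diff {x y : p.U × Bool} (h1 : y.2 = x.2) : z p y - z p x + 1 ≤ ℓ := by
  obtain ⟨d, b⟩ := x
  obtain ⟨d', b'⟩ := y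
  simp only at h1
  subst h1
  have := (p.box d).2
  have := (p.box d').2
  cases b' <;> simp only [z, off, Bool.false_eq_true, if_false, if_true] <;> omega

theorem tr_of_le {x y : p.U × Bool} (h1 : y.2 = x.2) (h2 : row p y = row p x)
    (h3 : z p x ≤ z p y) : ∃ n : ℕ, z p y = z p x + n ∧ n + 1 ≤ ℓ ∧ Tr T n (E p x) (E p y) := by
  have := z_diff (p := p) h1
  refine ⟨(z p y - z p x).toNat, by omega, by omega, tr_of _ h1 h2 (by omega)⟩

/-- a row meets an edge at most once -/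
theorem once {g : ℕ} (hg : T.Girth g) (hℓ : 2 * ℓ ≤ g) {x y : p.U × Bool}
    (h2 : row p y = row p x) (h : E p y = E p x) : y = x := by
  by_cases h1 : y.2 = x.2
  · rcases lt_trichotomy (z p x) (z p y) with h3 | h3 | h3
    · obtain ⟨n, a1, a2, a3⟩ := tr_of_le h1 h2 h3.le
      rw [h] at a3
      exact (a3.not_self hg (by omega) (by omega)).elim
    · exact ext_z p h1 h2 h3.symm
    · obtain ⟨n, a1, a2, a3⟩ := tr_of_le h1.symm h2.symm h3.le
      rw [h] at a3
      exact (a3.not_self hg (by omega) (by omega)).elim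
  · have h1' : (rv p y).2 = x.2 := by
      simp only [Loc.rv]
      revert h1
      cases y.2 <;> cases x.2 <;> simp
    rcases le_total (z p x) (z p (rv p y)) with h3 | h3
    · obtain ⟨n, a1, a2, a3⟩ := tr_of_le h1' h2 h3
      rw [E_rv, h] at a3
      exact (a3.not_rev hg (E_L p x) (by omega)).elim
    · obtain ⟨n, a1, a2, a3⟩ := tr_of_le h1'.symm h2.symm h3
      have e : E p x = Rev T (E p (rv p y)) := by rw [← E_rv, rv_rv, h]
      rw [e] at a3
      exact (a3.not_rev hg (E_L p _) (by omega)).elim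

/-- two rows run parallel between two common edges -/
theorem cont {g : ℕ} (hg : T.Girth g) (hℓ : 2 * ℓ ≤ g) {x1 x2 y1 y2 : p.U × Bool}
    (e1 : E p x1 = E p y1) (e2 : E p x2 = E p y2) (hx : x2.2 = x1.2) (hx' : row p x2 = row p x1)
    (hy : y2.2 = y1.2) (hy' : row p y2 = row p y1) (hz : z p x1 < z p x2) :
    ∃ x' y', Succ p x1 x' ∧ Succ p y1 y' ∧ E p x' = E p y' := by
  rcases le_or_gt (z p y2) (z p y1) with h3 | h3
  · obtain ⟨n, a1, a2, a3⟩ := tr_of_le hx hx' hz.le
    obtain ⟨k, b1, b2, b3⟩ := tr_of_le hy.symm hy'.symm h3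
    rw [← e1, ← e2] at b3
    exact ((a3.trans b3).not_self hg (by omega) (by omega)).elim
  · obtain ⟨x', sx⟩ := exists_succ hx hx' hz
    obtain ⟨y', sy⟩ := exists_succ hy hy' h3
    refine ⟨x', y', sx, sy, ?_⟩
    by_contra hne
    obtain ⟨n, a1, a2, a3⟩ := tr_of_le (hx.trans sx.1.symm) (hx'.trans sx.2.1.symm)
      (by have := sx.2.2; omega)
    obtain ⟨k, b1, b2, b3⟩ := tr_of_le (hy.trans sy.1.symm) (hy'.trans sy.2.1.symm)
      (by have := sy.2.2; omega)
    have c1 := z_diff (p := p) hx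
    have c2 := z_diff (p := p) hy
    have c3 := sx.2.2
    have c4 := sy.2.2
    have hv : (E p y').1 = (E p x').1 := by rw [sy.stp.2.2.1, sx.stp.2.2.1, e1]
    have hs : Stp T (Rev T (E p x')) (E p y') := by
      refine ⟨L_Rev (E_L p _), E_L p _, ?_, ?_⟩
      · rw [hv]
        exact (T.nx_nx _ _ (E_L p _)).symm
      · simp only [Rev, T.bar_bar]
        exact fun h => hne (Prod.ext hv.symm h.symm)
    have := (a3.rev.trans (Tr.cons hs b3)).girth hg (by omega)
    rw [e2] at this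
    exact this rfl

end Loc
end Vale.Agent.P201
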