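import Vale.Agent.P201.Local2

namespace Vale.Agent.P201
open Vale.Agent.P186

namespace Loc
variable {P V : Type} {T : TG P V} {S ℓ : ℕ} (p : Piece T S ℓ)

instance : Finite p.U := p.fin

/-- a regular passage: all parallel darts continue in parallel -/
def Reg (x y : p.U × Bool) : Prop :=
  Succ p x y ∧ (∀ x', E p x' = E p x → ∃ y', Succ p x' y' ∧ E p y' = E p y) ∧
    ∀ y', E p y' = E p y → ∃ x', Succ p x' y' ∧ E p x' = E p x

def Irr : Set (p.U × Bool) := {x | ¬ ∃ y, Reg p x y}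

def End : Set ((p.U × Bool) × (p.U × Bool)) :=
  {q | E p q.1 = E p q.2 ∧ ¬ ∃ x' y', Succ p q.1 x' ∧ Succ p q.2 y' ∧ E p x' = E p y'}

/-- multiplicity -/
noncomputable def mu (x : p.U × Bool) : ℕ := {y | E p y = E p x}.ncard

def Can (x : p.U × Bool) : Prop := ∀ y, E p y = E p x → row p x ≤ row p y

theorem exists_can (x : p.U × Bool) : ∃ c, E p c = E p x ∧ Can p c := by
  obtain ⟨c, hc, h⟩ := Set.exists_min_image {y | E p y = E p x} (row p) (Set.toFinite _) ⟨x, rfl⟩
  exact ⟨c, hc, fun y hy => h y (hy.trans hc)⟩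

noncomputable def cn (x : p.U × Bool) : p.U × Bool := (exists_can p x).choose

theorem E_cn (x : p.U × Bool) : E p (cn p x) = E p x := (exists_can p x).choose_spec.1

theorem can_cn (x : p.U × Bool) : Can p (cn p x) := (exists_can p x).choose_spec.2

theorem row_lt (x : p.U × Bool) : row p x < S := (p.box x.1).1

theorem mu_congr {x y : p.U × Bool} (h : E p x = E p y) : mu p x = mu p y := by
  simp only [mu, h]

theorem mu_rv (x : p.U × Bool) : mu p (rv p x) = mu p x := by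
  have hinj : Function.Injective (rv p) := Function.Involutive.injective (rv_rv p)
  have : {y | E p y = E p (rv p x)} = rv p '' {y | E p y = E p x} := by
    ext y
    constructor
    · intro h
      refine ⟨rv p y, ?_, rv_rv p y⟩
      have := (E_rv_iff p).2 h
      rwa [rv_rv] at this
    · rintro ⟨y, hy, rfl⟩
      exact (E_rv_iff p).2 hy
  rw [mu, this, Set.ncard_image_of_injective _ hinj, mu]

theorem mu_pos (x : p.U × Bool) : 0 < mu p x :=
  (Set.ncard_pos (Set.toFinite _)).2 ⟨x, rfl⟩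

theorem can_rv {x : p.U × Bool} (h : Can p x) : Can p (rv p x) := by
  intro y hy
  have := (E_rv_iff p).2 hy
  rw [rv_rv] at this
  exact h (rv p y) this

theorem can_rv_iff {x : p.U × Bool} : Can p (rv p x) ↔ Can p x :=
  ⟨fun h => by simpa [rv_rv] using can_rv p h, can_rv p⟩

variable {p}

theorem Reg.rv {x y : p.U × Bool} (h : Reg p x y) : Reg p (rv p y) (rv p x) := by
  refine ⟨h.1.rv, fun x' hx' => ?_, fun y' hy' => ?_⟩
  · have := (E_rv_iff p).2 hx'
    rw [rv_rv] at this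
    obtain ⟨u, h1, h2⟩ := h.2.2 _ this
    refine ⟨Loc.rv p u, ?_, (E_rv_iff p).2 h2⟩
    simpa [rv_rv] using h1.rv
  · have := (E_rv_iff p).2 hy'
    rw [rv_rv] at this
    obtain ⟨u, h1, h2⟩ := h.2.1 _ this
    refine ⟨Loc.rv p u, ?_, (E_rv_iff p).2 h2⟩
    simpa [rv_rv] using h1.rv

theorem Reg.par {x y x' : p.U × Bool} (h : Reg p x y) (hx : E p x' = E p x) :
    ∃ y', Reg p x' y' ∧ E p y' = E p y := by
  obtain ⟨y', h1, h2⟩ := h.2.1 x' hx
  refine ⟨y', ⟨h1, ?_, ?_⟩, h2⟩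
  · rw [hx, h2]; exact h.2.1
  · rw [hx, h2]; exact h.2.2

theorem Reg.par' {x y y' : p.U × Bool} (h : Reg p x y) (hy : E p y' = E p y) :
    ∃ x', Reg p x' y' ∧ E p x' = E p x := by
  obtain ⟨x', h1, h2⟩ := h.2.2 y' hy
  refine ⟨x', ⟨h1, ?_, ?_⟩, h2⟩
  · rw [hy, h2]; exact h.2.1
  · rw [hy, h2]; exact h.2.2

theorem Reg.mu_le {x y : p.U × Bool} (h : Reg p x y) : mu p x ≤ mu p y := by
  choose! f hf using h.2.1
  refine Set.ncard_le_ncard_of_injOn f (fun a ha => (hf a ha).2) (fun a ha b hb hab => ?_)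
    (Set.toFinite _)
  exact (hf a ha).1.uniq' (hab ▸ (hf b hb).1)

theorem Reg.mu_eq {x y : p.U × Bool} (h : Reg p x y) : mu p x = mu p y := by
  refine le_antisymm h.mu_le ?_
  have := h.rv.mu_le
  rwa [mu_rv, mu_rv] at this

theorem Reg.can {x y : p.U × Bool} (h : Reg p x y) (hx : Can p x) : Can p y := by
  intro y' hy'
  obtain ⟨x', h1, h2⟩ := h.2.2 y' hy'
  rw [h.1.2.1, h1.2.1]
  exact hx x' h2

theorem Reg.can_iff {x y : p.U × Bool} (h : Reg p x y) : Can p x ↔ Can p y :=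
  ⟨h.can, fun hy => (can_rv_iff p).1 (h.rv.can (can_rv p hy))⟩

theorem reg_of_not_irr {x y : p.U × Bool} (hx : x ∉ Irr p) (h : Succ p x y) : Reg p x y := by
  obtain ⟨y', hy'⟩ := not_not.1 hx
  rwa [h.uniq hy'.1]

variable {g : ℕ} (hg : T.Girth g) (hℓ : 2 * ℓ ≤ g)
include hg hℓ

theorem can_uniq {x y : p.U × Bool} (hx : Can p x) (hy : Can p y) (h : E p x = E p y) : x = y :=
  once hg hℓ (le_antisymm (hx y h.symm) (hy x h)) h

theorem cn_congr {x y : p.U × Bool} (h : E p x = E p y) : cn p x = cn p y :=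
  can_uniq hg hℓ (can_cn p x) (can_cn p y) (by rw [E_cn, E_cn, h])

theorem cn_of_can {x : p.U × Bool} (h : Can p x) : cn p x = x :=
  can_uniq hg hℓ (can_cn p x) h (E_cn p x)

theorem cn_rv (x : p.U × Bool) : cn p (rv p x) = rv p (cn p x) :=
  can_uniq hg hℓ (can_cn p _) (can_rv p (can_cn p x)) (by rw [E_cn, E_rv, E_rv, E_cn])

theorem Reg.cn {x y : p.U × Bool} (h : Reg p x y) : Reg p (cn p x) (cn p y) := by
  obtain ⟨y', h1, h2⟩ := h.par (E_cn p x)
  have : y' = Loc.cn p y :=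
    can_uniq hg hℓ (h1.can (can_cn p x)) (can_cn p y) (by rw [h2, E_cn])
  rwa [← this]

theorem mu_le (x : p.U × Bool) : mu p x ≤ S := by
  have := Set.ncard_le_ncard_of_injOn (s := {y | E p y = E p x}) (t := Set.Iio S) (row p)
    (fun a _ => row_lt p a) (fun a ha b hb hab => once hg hℓ hab (ha.trans hb.symm))
    (Set.finite_Iio S)
  simpa [mu] using this

theorem ncard_End : (End p).ncard ≤ 4 * S ^ 2 := by
  have := Set.ncard_le_ncard_of_injOn (s := End p)
    (t := ((Finset.range S ×ˢ (Finset.univ : Finset Bool)) ×ˢ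
      (Finset.range S ×ˢ (Finset.univ : Finset Bool)) : Finset _))
    (fun q => ((row p q.1, q.1.2), (row p q.2, q.2.2)))
    (fun a _ => by simp [row_lt]) (fun a ha b hb hab => ?_) (Finset.finite_toSet _)
  · rw [Set.ncard_coe_finset] at this
    simp only [Finset.card_product, Finset.card_range, Finset.card_univ, Fintype.card_bool] at this
    nlinarith
  · simp only [Prod.mk.injEq] at hab
    obtain ⟨⟨h1, h2⟩, h3, h4⟩ := hab
    have h5 : a.1 = b.1 := by
      rcases lt_trichotomy (z p a.1) (z p b.1) with h | h | h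
      · exact (ha.2 (cont hg hℓ ha.1 hb.1 h2.symm h1.symm h4.symm h3.symm h)).elim
      · exact ext_z p h2 h1 h
      · exact (hb.2 (cont hg hℓ hb.1 ha.1 h2 h1 h4 h3 h)).elim
    exact Prod.ext h5 (once hg hℓ h3 (by rw [← ha.1, ← hb.1, h5]))

theorem ncard_Irr : (Irr p).ncard ≤ 8 * S ^ 2 := by
  classical
  have hsub : Irr p ⊆ Prod.fst '' End p ∪ (fun q => if h : ∃ x, Succ p x (rv p q.1) then h.choose
      else q.1) '' End p := by
    intro x hx
    by_cases h1 : x ∈ Prod.fst '' End p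
    · exact Or.inl h1
    right
    have h2 : ∀ x', E p x' = E p x → ∃ y y', Succ p x y ∧ Succ p x' y' ∧ E p y = E p y' := by
      intro x' hx'
      by_contra hc
      exact h1 ⟨(x, x'), ⟨hx'.symm, hc⟩, rfl⟩
    obtain ⟨y, _, hy, _⟩ := h2 x rfl
    have h3 : ¬ ∀ y', E p y' = E p y → ∃ x', Succ p x' y' ∧ E p x' = E p x := by
      intro h3
      refine hx ⟨y, hy, fun x' hx' => ?_, h3⟩
      obtain ⟨u, u', a1, a2, a3⟩ := h2 x' hx'
      exact ⟨u', a2, by rw [← a3, a1.uniq hy]⟩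
    push Not at h3
    obtain ⟨y', a1, a2⟩ := h3
    refine ⟨(rv p y, rv p y'), ⟨(E_rv_iff p).2 a1.symm, ?_⟩, ?_⟩
    · rintro ⟨u, u', b1, b2, b3⟩
      have c1 := b1.rv
      have c2 := b2.rv
      simp only [rv_rv] at c1 c2
      refine a2 _ c2 ?_
      rw [hy.uniq' c1]
      exact (E_rv_iff p).2 b3.symm
    · have : ∃ x, Succ p x (rv p (rv p y)) := ⟨x, by rwa [rv_rv]⟩
      simp only [dif_pos this]
      have c := this.choose_spec
      exact c.uniq' (by rwa [rv_rv])
  have := ncard_End (p := p) hg hℓ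
  calc (Irr p).ncard ≤ _ := Set.ncard_le_ncard hsub (Set.toFinite _)
    _ ≤ _ := Set.ncard_union_le _ _
    _ ≤ (End p).ncard + (End p).ncard :=
      add_le_add (Set.ncard_image_le (Set.toFinite _)) (Set.ncard_image_le (Set.toFinite _))
    _ ≤ _ := by omega

end Loc
end Vale.Agent.P201
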