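import Vale.Agent.P201.Local3

namespace Vale.Agent.P201
open Vale.Agent.P186

namespace Loc
variable {P V : Type} {T : TG P V} {S ℓ : ℕ} (p : Piece T S ℓ)

noncomputable def key (x : p.U × Bool) : ℕ ×ₗ (ℕ ×ₗ ℕ) :=
  toLex (S - mu p x, toLex (row p (cn p x), off p (cn p x)))

theorem key_lt {x y : p.U × Bool} : key p x < key p y ↔ S - mu p x < S - mu p y ∨
    (S - mu p x = S - mu p y ∧ (row p (cn p x) < row p (cn p y) ∨
      (row p (cn p x) = row p (cn p y) ∧ off p (cn p x) < off p (cn p y)))) := by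
  simp only [key, Prod.Lex.toLex_lt_toLex]

def Good (r x : p.U × Bool) : Prop := E p x = E p r ∧ key p (ep p x) < key p r

def Free (r : p.U × Bool) : Prop := ¬ ∃ x, Good p r x

def Best (r x : p.U × Bool) : Prop := Good p r x ∧ ∀ x', Good p r x' → row p x ≤ row p x'

open Classical in
noncomputable def ptrOf (r : p.U × Bool) : Option ((ℕ × ℕ) × Bool) :=
  if h : ∃ x, Best p r x then
    some (p.pos (cn p (ep p h.choose)).1, (cn p (ep p h.choose)).2) else none

theorem exists_best {r : p.U × Bool} (h : ¬ Free p r) : ∃ x, Best p r x := by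
  obtain ⟨x, hx⟩ := not_not.1 h
  obtain ⟨c, hc, h⟩ := Set.exists_min_image {y | Good p r y} (row p) (Set.toFinite _) ⟨x, hx⟩
  exact ⟨c, hc, h⟩

theorem ptrOf_none {r : p.U × Bool} : ptrOf p r = none ↔ Free p r := by
  unfold ptrOf
  split_ifs with h
  · obtain ⟨x, hx⟩ := h
    simp only [false_iff, Free, not_not]
    exact ⟨x, hx.1⟩
  · simp only [true_iff]
    by_contra hc
    exact h (exists_best p hc)

theorem ptrOf_some {r : p.U × Bool} {k : ℕ × ℕ} {b : Bool} (h : ptrOf p r = some (k, b)) :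
    ∃ x, Good p r x ∧ k = p.pos (cn p (ep p x)).1 ∧ b = (cn p (ep p x)).2 := by
  unfold ptrOf at h
  split_ifs at h with h1
  simp only [Option.some.injEq, Prod.mk.injEq] at h
  exact ⟨_, h1.choose_spec.1, h.1.symm, h.2.symm⟩

variable {p}
variable {g : ℕ} (hg : T.Girth g) (hℓ : 2 * ℓ ≤ g)
include hg hℓ

theorem key_congr {x y : p.U × Bool} (h : E p x = E p y) : key p x = key p y := by
  simp only [key, mu_congr p h, cn_congr hg hℓ h]

theorem key_rv (x : p.U × Bool) : key p (rv p x) = key p x := by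
  simp only [key, mu_rv, cn_rv hg hℓ]
  rfl

theorem key_ep_ne (x : p.U × Bool) : key p (ep p x) ≠ key p x := by
  intro h
  simp only [key, toLex_inj, Prod.mk.injEq] at h
  have h1 : (cn p (ep p x)).1 = (cn p x).1 := p.pos_inj (Prod.ext h.2.1 h.2.2)
  by_cases h2 : (cn p (ep p x)).2 = (cn p x).2
  · have := congrArg (E p) (Prod.ext h1 h2)
    rw [E_cn, E_cn] at this
    exact E_ep_ne p x this
  · have h3 : cn p (ep p x) = rv p (cn p x) := by
      refine Prod.ext h1 ?_
      simp only [rv]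
      revert h2
      cases (cn p (ep p x)).2 <;> cases (cn p x).2 <;> simp
    have := congrArg (E p) h3
    rw [E_cn, ← cn_rv hg hℓ, E_cn] at this
    exact E_ne_rv p _ _ (lab_ep p x) this

theorem free_congr {x y : p.U × Bool} (h : E p x = E p y) : Free p x ↔ Free p y := by
  simp only [Free, Good, h, key_congr hg hℓ h]

theorem free_rv {x : p.U × Bool} (h : Free p x) : Free p (rv p x) := by
  rintro ⟨y, h1, h2⟩
  refine h ⟨rv p y, ?_, ?_⟩
  · have := (E_rv_iff p).2 h1
    rwa [rv_rv] at this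
  · rwa [ep_rv, key_rv hg hℓ, ← key_rv hg hℓ x]

theorem free_rv_iff {x : p.U × Bool} : Free p (rv p x) ↔ Free p x :=
  ⟨fun h => by simpa [rv_rv] using free_rv hg hℓ h, free_rv hg hℓ⟩

theorem free_ep {x : p.U × Bool} (h : Free p x) : ¬ Free p (ep p x) := by
  intro h'
  rcases lt_or_gt_of_ne (key_ep_ne (p := p) hg hℓ x) with h1 | h1
  · exact h ⟨x, rfl, h1⟩
  · exact h' ⟨ep p x, rfl, by rwa [ep_ep]⟩

theorem ptrOf_best {r x : p.U × Bool} (h : Best p r x) :
    ptrOf p r = some (p.pos (cn p (ep p x)).1, (cn p (ep p x)).2) := by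
  have h1 : ∃ x, Best p r x := ⟨x, h⟩
  have h2 := h1.choose_spec
  have : h1.choose = x :=
    once hg hℓ (le_antisymm (h2.2 x h.1) (h.2 _ h2.1)) (h2.1.1.trans h.1.1.symm)
  simp only [ptrOf, dif_pos h1, this]

theorem good_step {d : p.U} {r' x x' : p.U × Bool} (hc : Can p (d, true))
    (hr : Reg p (d, true) r') (hx : Succ p x x') (e : E p x = E p (d, true))
    (e' : E p x' = E p r') (hI : ep p x ∉ Irr p) : Good p (d, true) x ↔ Good p r' x' := by
  have h1 : Reg p (ep p x) (ep p x') := reg_of_not_irr hI hx.ep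
  have h2 := h1.cn hg hℓ
  have m1 := h1.mu_eq
  have m2 := hr.mu_eq
  have hc' := hr.can hc
  simp only [Good, e, e', true_and, key_lt, cn_of_can hg hℓ hc, cn_of_can hg hℓ hc', ← m1, ← m2]
  have el : (E p (cn p (ep p x))).2 = (E p (d, true)).2 := by rw [E_cn, lab_ep, e]
  generalize cn p (ep p x) = c at h2 el
  generalize cn p (ep p x') = c' at h2
  obtain ⟨d', b'⟩ := r'
  have hb : b' = true := hr.1.1
  subst hb
  have a1 := hr.1.2.1
  have a2 := hr.1.2.2
  have a3 := h2.1.2.1
  have a4 := h2.1.2.2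
  obtain ⟨u, b⟩ := c
  obtain ⟨u', b'⟩ := c'
  have hb : b' = b := h2.1.1
  subst hb
  cases b'
  · have n1 : row p (u, false) = row p (d, true) → off p (u, false) ≠ off p (d, true) := by
      intro h h'
      have : u = d := p.pos_inj (Prod.ext h h')
      subst this
      exact T.bar_ne _ el
    have n2 : row p (u, false) = row p (d', true) → off p (u, false) ≠ off p (d', true) := by
      intro h h'
      have : u = d' := p.pos_inj (Prod.ext h h')
      subst this
      refine hr.1.stp.2.2.2 ?_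
      rw [← el]
      exact (T.bar_bar _).symm
    simp only [z, Bool.false_eq_true, if_false, if_true] at a2 a4
    omega
  · simp only [z, if_true] at a2 a4
    omega

theorem ptr_step {d : p.U} {r' : p.U × Bool} (hc : Can p (d, true))
    (hr : Reg p (d, true) r') (hI : ∀ x, E p x = E p (d, true) → ep p x ∉ Irr p) :
    ptrOf p r' = step (ptrOf p (d, true)) := by
  by_cases hf : Free p (d, true)
  · rw [(ptrOf_none p).2 hf]
    refine (ptrOf_none p).2 ?_
    rintro ⟨x', hx'⟩
    obtain ⟨x, h1, h2⟩ := hr.2.2 x' hx'.1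
    exact hf ⟨x, (good_step hg hℓ hc hr h1 h2 hx'.1 (hI x h2)).2 hx'⟩
  · obtain ⟨x, hx⟩ := exists_best p hf
    obtain ⟨x', h1, h2⟩ := hr.2.1 x hx.1.1
    have hb : Best p r' x' := by
      refine ⟨(good_step hg hℓ hc hr h1 hx.1.1 h2 (hI x hx.1.1)).1 hx.1, fun y' hy' => ?_⟩
      obtain ⟨y, a1, a2⟩ := hr.2.2 y' hy'.1
      rw [h1.2.1, a1.2.1]
      exact hx.2 y ((good_step hg hℓ hc hr a1 a2 hy'.1 (hI y a2)).2 hy')
    rw [ptrOf_best hg hℓ hx, ptrOf_best hg hℓ hb]
    have h3 := ((reg_of_not_irr (hI x hx.1.1) h1.ep).cn hg hℓ).1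
    generalize cn p (ep p x) = c at h3
    generalize cn p (ep p x') = c' at h3
    obtain ⟨u, b⟩ := c
    obtain ⟨u', b'⟩ := c'
    have hb : b' = b := h3.1
    subst hb
    cases b'
    · have := succ_true.1 h3.rv
      simp only [this, step, Nat.add_sub_cancel]
    · have := succ_true.1 h3
      rw [this]
      rfl

end Loc
end Vale.Agent.P201
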