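import Vale.Agent.P201.Local4

namespace Vale.Agent.P201
open Vale.Agent.P186

namespace Loc
variable {P V : Type} {T : TG P V} {S ℓ : ℕ} (p : Piece T S ℓ)

open Classical in
/-- canonical darts of multiplicity above `j` -/
noncomputable def RS [Fintype p.U] (j : ℕ) : Finset p.U :=
  Finset.univ.filter fun d => Can p (d, true) ∧ j < mu p (d, true)

theorem mem_RS [Fintype p.U] {j : ℕ} {d : p.U} :
    d ∈ RS p j ↔ Can p (d, true) ∧ j < mu p (d, true) := by
  simp [RS]

noncomputable def BK : Finset (ℕ × ℕ) :=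
  ((Set.toFinite (Irr p)).toFinset.image fun x => p.pos x.1) ∪
    ((Set.toFinite (Irr p)).toFinset.image fun y => p.pos (cn p (ep p y)).1)

theorem mem_img [Fintype p.U] {j : ℕ} {d : p.U} :
    p.pos d ∈ (RS p j).image p.pos ↔ d ∈ RS p j := by
  simp only [Finset.mem_image]
  constructor
  · rintro ⟨a, ha, h⟩
    rwa [← p.pos_inj h]
  · exact fun h => ⟨d, h, rfl⟩

theorem not_irr {d : p.U} (h : p.pos d ∉ BK p) : (d, true) ∉ Irr p := fun hc =>
  h (Finset.mem_union_left _ (Finset.mem_image.2 ⟨_, (Set.Finite.mem_toFinset _).2 hc, rfl⟩))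

variable {g : ℕ} (hg : T.Girth g) (hℓ : 2 * ℓ ≤ g)
include hg hℓ

theorem card_BK : (BK p).card ≤ 16 * S ^ 2 := by
  have h1 := ncard_Irr (p := p) hg hℓ
  rw [Set.ncard_eq_toFinset_card _ (Set.toFinite _)] at h1
  refine (Finset.card_union_le _ _).trans ?_
  have := Finset.card_image_le (s := (Set.toFinite (Irr p)).toFinset) (f := fun x => p.pos x.1)
  have := Finset.card_image_le (s := (Set.toFinite (Irr p)).toFinset)
    (f := fun y => p.pos (cn p (ep p y)).1)
  omega

theorem not_irr' {d : p.U} (h : p.pos d ∉ BK p) (hc : Can p (d, true)) (x : p.U × Bool)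
    (hx : E p x = E p (d, true)) : ep p x ∉ Irr p := fun hI =>
  h (Finset.mem_union_right _ (Finset.mem_image.2 ⟨_, (Set.Finite.mem_toFinset _).2 hI, by
    rw [ep_ep, cn_congr hg hℓ hx, cn_of_can hg hℓ hc]⟩))

/-- the configuration of level `j` -/
noncomputable def cfg [Fintype p.U] [Nonempty p.U] (j : ℕ) : Cfg T S ℓ (16 * S ^ 2) where
  R := (RS p j).image p.pos
  x := fun k => p.v (Function.invFun p.pos k)
  s := fun k => p.s (Function.invFun p.pos k)
  ptr := fun k => ptrOf p (Function.invFun p.pos k, true)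
  Bk := BK p
  box := by
    intro k hk
    obtain ⟨d, _, rfl⟩ := Finset.mem_image.1 hk
    exact p.box d
  card_Bk := card_BK p hg hℓ
  hL := fun k _ => p.hL _
  dist := by
    intro k hk k' hk' hne
    obtain ⟨d, hd, rfl⟩ := Finset.mem_image.1 hk
    obtain ⟨d', hd', rfl⟩ := Finset.mem_image.1 hk'
    have c := ((mem_RS p).1 hd).1
    have c' := ((mem_RS p).1 hd').1
    simp only [Function.leftInverse_invFun p.pos_inj d, Function.leftInverse_invFun p.pos_inj d']
    constructor
    · intro h
      have := can_uniq hg hℓ c c' h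
      exact hne (congrArg (fun x => p.pos x.1) this)
    · intro h
      have := can_uniq hg hℓ (can_rv p c) c' h
      exact hne (congrArg (fun x => p.pos x.1) this)
  linkR := by
    intro a i hB
    by_cases h : ∃ d, p.pos d = (a, i)
    · obtain ⟨d, hd⟩ := h
      rw [← hd] at hB
      obtain ⟨⟨d', b⟩, hy⟩ := not_not.1 (not_irr p hB)
      have hb : b = true := hy.1.1
      subst hb
      have h1 := succ_true.1 hy.1
      rw [hd] at h1
      simp only at h1
      rw [← hd, ← h1, mem_img, mem_img, mem_RS, mem_RS, hy.can_iff, hy.mu_eq]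
    · constructor
      · intro hk
        obtain ⟨d, _, hd⟩ := Finset.mem_image.1 hk
        exact (h ⟨d, hd⟩).elim
      · intro hk
        obtain ⟨d', _, hd'⟩ := Finset.mem_image.1 hk
        obtain ⟨d, hd⟩ := p.pred d' (by rw [hd']; simp)
        rw [hd'] at hd
        simp only [Prod.mk.injEq, Nat.add_right_cancel_iff] at hd
        exact (h ⟨d, Prod.ext hd.1.symm hd.2.symm⟩).elim
  link := by
    intro a i hB hk
    obtain ⟨d, hdR, hd⟩ := Finset.mem_image.1 hk
    rw [← hd] at hB
    obtain ⟨⟨d', b⟩, hy⟩ := not_not.1 (not_irr p hB)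
    have hb : b = true := hy.1.1
    subst hb
    have h1 := succ_true.1 hy.1
    have h2 := h1
    rw [hd] at h2
    simp only at h2
    have c := ((mem_RS p).1 hdR).1
    rw [← hd, ← h2]
    simp only [Function.leftInverse_invFun p.pos_inj d, Function.leftInverse_invFun p.pos_inj d']
    exact ⟨(p.link d d' h1).1, (p.link d d' h1).2.1,
      ptr_step hg hℓ c hy (not_irr' p hg hℓ hB c)⟩
  hptr := by
    intro k hk k' b h
    obtain ⟨d, hd, rfl⟩ := Finset.mem_image.1 hk
    rw [Function.leftInverse_invFun p.pos_inj d] at h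
    obtain ⟨x, hx, rfl, rfl⟩ := ptrOf_some p h
    simp only [Function.leftInverse_invFun p.pos_inj d, Function.leftInverse_invFun p.pos_inj _]
    have el : (E p (cn p (ep p x))).2 = p.s d := by rw [E_cn, lab_ep, hx.1]; rfl
    have hm : mu p (d, true) ≤ mu p (cn p (ep p x)) := by
      have := (key_lt p).1 hx.2
      have := mu_le (p := p) hg hℓ (ep p x)
      have := mu_le (p := p) hg hℓ (d, true)
      rw [mu_congr p (E_cn p _)]
      omega
    have hc := can_cn p (ep p x)
    have hj := ((mem_RS p).1 hd).2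
    generalize cn p (ep p x) = c at el hm hc
    obtain ⟨u, b⟩ := c
    rw [mem_img, mem_RS]
    cases b
    · refine ⟨⟨can_rv p hc, ?_⟩, el.symm⟩
      have := mu_rv p (u, false)
      exact lt_of_lt_of_le hj (hm.trans this.ge)
    · exact ⟨⟨hc, lt_of_lt_of_le hj hm⟩, el.symm⟩
  wf := by
    refine Subrelation.wf ?_ (InvImage.wf (fun k => key p (Function.invFun p.pos k, true))
      wellFounded_lt)
    rintro k' k ⟨_, b, h⟩
    obtain ⟨x, hx, rfl, -⟩ := ptrOf_some p h
    simp only [InvImage, Function.leftInverse_invFun p.pos_inj _]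
    have h1 := key_congr hg hℓ (E_cn p (ep p x))
    have h2 := hx.2
    rw [← h1] at h2
    generalize cn p (ep p x) = c at h2
    obtain ⟨u, b⟩ := c
    cases b
    · rwa [← key_rv hg hℓ] at h2
    · exact h2

open Classical in
theorem level {I : Type} (Ds : Des P V I) [Fintype p.U] [Nonempty p.U] {m' Λ A : ℝ}
    (hQ : Q Ds T S ℓ (16 * S ^ 2) m' Λ A) (j : ℕ) :
    ((RS p j).card : ℝ) * (Real.log m' - Real.log Λ) ≤
      ∑ v ∈ (RS p j).image p.v ∪ (RS p j).image (fun d => T.nx (p.v d) (p.s d)),
        (Real.log (if Ds.W v then Ds.mp else Ds.np) - Real.log Λ) +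
      ∑ d ∈ (RS p j).filter (fun d => Free p (d, true)),
        (if Ds.wl (p.s d) ∨ Ds.wl (Ds.bar (p.s d)) then 1 / 2 else 1) * Real.log 24 + A := by
  have h := hQ (cfg p hg hℓ j)
  have hi := Function.leftInverse_invFun p.pos_inj
  have e1 : (cfg p hg hℓ j).R.card = (RS p j).card := Finset.card_image_of_injective _ p.pos_inj
  have e2 : (cfg p hg hℓ j).R.image (cfg p hg hℓ j).x = (RS p j).image p.v := by
    simp only [cfg, Finset.image_image]
    exact Finset.image_congr fun d _ => by simp only [Function.comp, hi d]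
  have e3 : (cfg p hg hℓ j).R.image (fun k => T.nx ((cfg p hg hℓ j).x k) ((cfg p hg hℓ j).s k)) =
      (RS p j).image (fun d => T.nx (p.v d) (p.s d)) := by
    simp only [cfg, Finset.image_image]
    exact Finset.image_congr fun d _ => by simp only [Function.comp, hi d]
  have e4 : (cfg p hg hℓ j).R.filter (fun k => (cfg p hg hℓ j).ptr k = none) =
      ((RS p j).filter (fun d => Free p (d, true))).image p.pos := by
    ext k
    rw [Finset.mem_filter]
    simp only [Finset.mem_filter, Finset.mem_image, cfg]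
    constructor
    · rintro ⟨⟨d, hd, rfl⟩, h⟩
      rw [hi d, ptrOf_none] at h
      exact ⟨d, ⟨hd, h⟩, rfl⟩
    · rintro ⟨d, ⟨hd, h⟩, rfl⟩
      refine ⟨⟨d, hd, rfl⟩, ?_⟩
      rwa [hi d, ptrOf_none]
  rw [e1, e2, e3, e4, Finset.sum_image (fun a _ b _ h => p.pos_inj h)] at h
  simpa only [cfg, hi _] using h

end Loc
end Vale.Agent.P201
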