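import Vale.Agent.P201.Local5

namespace Vale.Agent.P201
open Vale.Agent.P186 Finset

namespace Loc
variable {P V : Type} {T : TG P V} {S ℓ : ℕ} (p : Piece T S ℓ)

/-- consecutive occurrences at a vertex -/
def Pr (x y : p.U × Bool) : Prop :=
  (x.2 = false ∧ y.2 = true ∧ p.nxt x.1 = some y.1) ∨
    (x.2 = true ∧ y.2 = false ∧ p.nxt y.1 = some x.1)

theorem Pr.vtx {x y : p.U × Bool} (h : Pr p x y) : (E p y).1 = (E p x).1 ∧ E p y ≠ E p x := by
  obtain ⟨d, b⟩ := x
  obtain ⟨d', b'⟩ := y
  rcases h with ⟨rfl, rfl, h⟩ | ⟨rfl, rfl, h⟩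
  · obtain ⟨h1, h2⟩ := p.nxt_link _ _ h
    exact ⟨h1, fun h => h2 (congrArg Prod.snd h)⟩
  · obtain ⟨h1, h2⟩ := p.nxt_link _ _ h
    exact ⟨h1.symm, fun h => h2 (congrArg Prod.snd h).symm⟩

theorem Pr.inj {x x' y : p.U × Bool} (h : Pr p x y) (h' : Pr p x' y) : x = x' := by
  obtain ⟨d, b⟩ := x
  obtain ⟨d', b'⟩ := x'
  obtain ⟨e, c⟩ := y
  rcases h with ⟨rfl, rfl, h⟩ | ⟨rfl, rfl, h⟩ <;> rcases h' with ⟨h1, h2, h'⟩ | ⟨h1, h2, h'⟩
  · simp only at h1 h h'
    rw [p.nxt_inj _ _ _ h h', h1]
  · simp at h2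
  · simp at h2
  · simp only at h1 h h'
    rw [h] at h'
    rw [Option.some.inj h', h1]

variable [Fintype p.U]

open Classical in
theorem card_unp : (univ.filter fun x : p.U × Bool => ¬ ∃ y, Pr p x y).card ≤
    2 * Nat.card {d // p.nxt d = none} := by
  set A := univ.filter fun d : p.U => p.nxt d = none with hA
  set B := univ.filter fun e : p.U => ¬ ∃ d, p.nxt d = some e with hB
  have e1 : Nat.card {d // p.nxt d = none} = A.card := by
    rw [Nat.card_eq_fintype_card, Fintype.card_subtype]
  have h1 : (univ.filter fun d : p.U => ¬ p.nxt d = none).card ≤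
      (univ.filter fun e : p.U => ∃ d, p.nxt d = some e).card := by
    refine card_le_card_of_forall_subsingleton (fun d e => p.nxt d = some e) ?_ ?_
    · intro d hd
      obtain ⟨e, he⟩ := Option.ne_none_iff_exists'.1 (mem_filter.1 hd).2
      exact ⟨e, mem_filter.2 ⟨mem_univ _, d, he⟩, he⟩
    · intro e _ d hd d' hd'
      exact p.nxt_inj _ _ _ hd.2 hd'.2
  have h2 := card_filter_add_card_filter_not (s := univ) (fun d : p.U => p.nxt d = none)
  have h3 := card_filter_add_card_filter_not (s := univ) (fun e : p.U => ∃ d, p.nxt d = some e)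
  have hsub : (univ.filter fun x : p.U × Bool => ¬ ∃ y, Pr p x y) ⊆
      A.image (fun d => (d, false)) ∪ B.image (fun d => (d, true)) := by
    rintro ⟨d, b⟩ hx
    have hx := (mem_filter.1 hx).2
    cases b
    · refine mem_union_left _ (mem_image.2 ⟨d, mem_filter.2 ⟨mem_univ _, ?_⟩, rfl⟩)
      by_contra hc
      obtain ⟨e, he⟩ := Option.ne_none_iff_exists'.1 hc
      exact hx ⟨(e, true), Or.inl ⟨rfl, rfl, he⟩⟩
    · refine mem_union_right _ (mem_image.2 ⟨d, mem_filter.2 ⟨mem_univ _, ?_⟩, rfl⟩)
      rintro ⟨e, he⟩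
      exact hx ⟨(e, false), Or.inr ⟨rfl, rfl, he⟩⟩
  have h4 := (card_le_card hsub).trans (card_union_le _ _)
  have h5 := card_image_le (s := A) (f := fun d => (d, false))
  have h6 := card_image_le (s := B) (f := fun d => (d, true))
  rw [← hA] at h2
  rw [← hB] at h3
  omega

open Classical in
theorem mu_card (x : p.U × Bool) : mu p x = (univ.filter fun y => E p y = E p x).card := by
  rw [mu, ← Set.ncard_coe_finset]
  congr 1
  ext y
  simp

open Classical in
theorem two_mu (x : p.U × Bool) : 2 * mu p x ≤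
    (univ.filter fun y : p.U × Bool => (E p y).1 = (E p x).1).card +
      ((univ.filter fun y : p.U × Bool => ¬ ∃ y', Pr p y y').filter
        fun y => (E p y).1 = (E p x).1).card := by
  rw [mu_card]
  set F := univ.filter fun y => E p y = E p x with hF
  set O := univ.filter fun y : p.U × Bool => (E p y).1 = (E p x).1 with hO
  have h1 := card_filter_add_card_filter_not (s := F) (fun y => ∃ y', Pr p y y')
  have h2 : (F.filter fun y => ∃ y', Pr p y y').card ≤ (O \ F).card := by
    refine card_le_card_of_forall_subsingleton (Pr p) ?_ ?_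
    · intro y hy
      obtain ⟨a, y', hy'⟩ := mem_filter.1 hy
      have a := (mem_filter.1 a).2
      have b := hy'.vtx
      refine ⟨y', mem_sdiff.2 ⟨mem_filter.2 ⟨mem_univ _, by rw [b.1, a]⟩, fun h => ?_⟩, hy'⟩
      exact b.2 ((mem_filter.1 h).2.trans a.symm)
    · intro y' _ y hy y0 hy0
      exact hy.2.inj p hy0.2
  have h3 : F ⊆ O := fun y hy =>
    mem_filter.2 ⟨mem_univ _, congrArg Prod.fst (mem_filter.1 hy).2⟩
  have h4 := card_sdiff_add_card_eq_card h3
  have h5 : (F.filter fun y => ¬ ∃ y', Pr p y y') ⊆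
      ((univ.filter fun y : p.U × Bool => ¬ ∃ y', Pr p y y').filter
        fun y => (E p y).1 = (E p x).1) := by
    intro y hy
    obtain ⟨a, b⟩ := mem_filter.1 hy
    exact mem_filter.2 ⟨mem_filter.2 ⟨mem_univ _, b⟩, congrArg Prod.fst (mem_filter.1 a).2⟩
  have := card_le_card h5
  omega

open Classical in
theorem vtx_sum (f : V → ℝ) (B : ℝ) (h0 : ∀ v, 0 ≤ f v) (hB : ∀ v, f v ≤ B) :
    2 * ∑ j ∈ range S, ∑ v ∈ (RS p j).image p.v ∪ (RS p j).image (fun d => T.nx (p.v d) (p.s d)),
      f v ≤ ∑ x, f (E p x).1 + 2 * Nat.card {d // p.nxt d = none} * B := by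
  set VA := univ.image fun x : p.U × Bool => (E p x).1 with hVA
  set Un := univ.filter fun y : p.U × Bool => ¬ ∃ y', Pr p y y' with hUn
  set Vj := fun j => (RS p j).image p.v ∪ (RS p j).image (fun d => T.nx (p.v d) (p.s d)) with hVj
  have hV : ∀ j v, v ∈ Vj j → ∃ x, (E p x).1 = v ∧ j < mu p x := by
    intro j v hv
    rcases mem_union.1 hv with h | h
    · obtain ⟨d, hd, rfl⟩ := mem_image.1 h
      exact ⟨(d, true), rfl, ((mem_RS p).1 hd).2⟩
    · obtain ⟨d, hd, rfl⟩ := mem_image.1 h
      exact ⟨rv p (d, true), rfl, by rw [mu_rv]; exact ((mem_RS p).1 hd).2⟩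
  have e1 : ∑ j ∈ range S, ∑ v ∈ Vj j, f v =
      ∑ v ∈ VA, ((range S).filter fun j => v ∈ Vj j).card * f v := by
    rw [sum_comm' (t' := VA) (s' := fun v => (range S).filter fun j => v ∈ Vj j)]
    · simp
    · intro j v
      simp only [mem_filter]
      constructor
      · rintro ⟨a, b⟩
        obtain ⟨x, hx, _⟩ := hV j v b
        exact ⟨⟨a, b⟩, mem_image.2 ⟨x, mem_univ _, hx⟩⟩
      · exact fun h => h.1
  have e2 : ∀ v, 2 * ((range S).filter fun j => v ∈ Vj j).card ≤
      (univ.filter fun y : p.U × Bool => (E p y).1 = v).card +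
        (Un.filter fun y => (E p y).1 = v).card := by
    intro v
    generalize hN : (univ.filter fun y : p.U × Bool => (E p y).1 = v).card +
        (Un.filter fun y => (E p y).1 = v).card = N
    have : ((range S).filter fun j => v ∈ Vj j) ⊆ range (N / 2) := by
      intro j hj
      obtain ⟨x, rfl, hx⟩ := hV j v (mem_filter.1 hj).2
      have := two_mu p x
      rw [hN] at this
      exact mem_range.2 (by omega)
    have := card_le_card this
    rw [card_range] at this
    omega
  have e3 : ∀ s : Finset (p.U × Bool), ∑ v ∈ VA, (s.filter fun y => (E p y).1 = v).card * f v =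
      ∑ x ∈ s, f (E p x).1 := by
    intro s
    rw [← sum_fiberwise_of_maps_to (s := s) (t := VA) (g := fun x => (E p x).1)
      (fun x _ => mem_image.2 ⟨x, mem_univ _, rfl⟩)]
    refine sum_congr rfl fun v _ => ?_
    rw [sum_congr rfl (g := fun _ => f v) (fun x hx => by rw [(mem_filter.1 hx).2])]
    simp
  have e4 : ∑ x ∈ Un, f (E p x).1 ≤ 2 * Nat.card {d // p.nxt d = none} * B := by
    have h1 := sum_le_card_nsmul Un (fun x => f (E p x).1) B (fun x _ => hB _)
    have h2 : (Un.card : ℝ) ≤ 2 * Nat.card {d // p.nxt d = none} := by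
      exact_mod_cast card_unp p
    by_cases h : Un.Nonempty
    · obtain ⟨x, _⟩ := h
      have : 0 ≤ B := (h0 (E p x).1).trans (hB _)
      rw [nsmul_eq_mul] at h1
      exact h1.trans (mul_le_mul_of_nonneg_right h2 this)
    · rw [not_nonempty_iff_eq_empty.1 h, sum_empty]
      rcases isEmpty_or_nonempty V with hV | ⟨⟨v⟩⟩
      · have : IsEmpty p.U := ⟨fun d => hV.elim (p.v d)⟩
        simp
      · have : 0 ≤ B := (h0 v).trans (hB _)
        positivity
  rw [e1, ← e3 univ, mul_sum]
  refine le_trans ?_ (add_le_add_right e4 _)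
  rw [← e3 Un, ← sum_add_distrib]
  refine sum_le_sum fun v _ => ?_
  have : (2 : ℝ) * ((range S).filter fun j => v ∈ Vj j).card ≤
      (univ.filter fun y : p.U × Bool => (E p y).1 = v).card +
        (Un.filter fun y => (E p y).1 = v).card := by exact_mod_cast e2 v
  nlinarith [h0 v]

theorem sum_signed (h : p.U × Bool → ℝ) (hr : ∀ x, h (rv p x) = h x) :
    ∑ x, h x = 2 * ∑ d, h (d, true) := by
  rw [Fintype.sum_prod_type, mul_sum]
  refine sum_congr rfl fun d _ => ?_
  have := hr (d, true)
  simp only [rv, Bool.not_true] at this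
  simp [this, two_mul]

variable {g : ℕ} (hg : T.Girth g) (hℓ : 2 * ℓ ≤ g)
include hg hℓ

theorem sum_levels (h : p.U × Bool → ℝ) (hr : ∀ x, h (rv p x) = h x)
    (hE : ∀ x y, E p x = E p y → h x = h y) :
    ∑ j ∈ range S, ∑ d ∈ RS p j, h (d, true) = ∑ d, h (d, true) := by
  classical
  have e1 : ∑ j ∈ range S, ∑ d ∈ RS p j, h (d, true) =
      ∑ d, if Can p (d, true) then mu p (d, true) * h (d, true) else 0 := by
    rw [sum_comm' (t' := univ) (s' := fun d => if Can p (d, true) then range (mu p (d, true))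
      else ∅)]
    · refine sum_congr rfl fun d _ => ?_
      split_ifs <;> simp
    · intro j d
      have := mu_le (p := p) hg hℓ (d, true)
      simp only [mem_RS, mem_range, mem_univ, and_true]
      split_ifs with hc
      · simp only [hc, true_and, mem_range]
        omega
      · simp [hc]
  have e2 : ∑ x, h x = ∑ x, if Can p x then mu p x * h x else 0 := by
    rw [← sum_fiberwise (s := univ) (g := cn p)]
    refine sum_congr rfl fun c _ => ?_
    split_ifs with hc
    · have : (univ.filter fun x => cn p x = c) = univ.filter fun y => E p y = E p c := by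
        ext y
        simp only [mem_filter, mem_univ, true_and]
        constructor
        · rintro rfl
          exact (E_cn p y).symm
        · intro hy
          rw [cn_congr hg hℓ hy, cn_of_can hg hℓ hc]
      rw [this, mu_card, sum_congr rfl (g := fun _ => h c)
        (fun x hx => hE _ _ (mem_filter.1 hx).2)]
      simp
    · refine sum_eq_zero fun x hx => ?_
      exact (hc ((mem_filter.1 hx).2 ▸ can_cn p x)).elim
  rw [sum_signed p h hr, sum_signed p _ (fun x => by rw [can_rv_iff, mu_rv, hr])] at e2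
  rw [e1]
  linarith

open Classical in
theorem sum_free (w : p.U → ℝ) (h0 : ∀ d, 0 ≤ w d) (hw : ∀ d, w (p.ε d) = w d) :
    2 * ∑ d, (if Free p (d, true) then w d else 0) ≤ ∑ d, w d := by
  have e : ∑ d, (if Free p (d, true) then w d else 0) =
      ∑ d, (if Free p (p.ε d, true) then w d else 0) := by
    have hi : Function.Involutive p.ε := p.εε
    rw [← Equiv.sum_comp hi.toPerm]
    simp [hw]
  rw [two_mul]
  nth_rewrite 2 [e]
  rw [← sum_add_distrib]
  refine sum_le_sum fun d _ => ?_
  have h1 : Free p (d, true) → ¬ Free p (p.ε d, true) := fun h h' =>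
    free_ep hg hℓ h (free_rv hg hℓ h')
  have := h0 d
  split_ifs with a b
  · exact (h1 a b).elim
  all_goals linarith

end Loc
end Vale.Agent.P201
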