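import Vale.Agent.P201.TF
import Vale.Agent.P201.Global
import Vale.Agent.P201.Local
import Vale.Agent.P201.Kraft
import Vale.Agent.P201.Design

namespace Vale.Agent.P201
open Vale.Agent.P186

theorem exists_h (C : ℝ) (hC : 0 ≤ C) (S : ℕ) :
    ∃ h : ℕ, 1 ≤ h ∧ C * Real.log (10 ^ 9 * (S * (2 * h) + 1) ^ 2) < h := by
  have hS : (0 : ℝ) ≤ S := Nat.cast_nonneg S
  set c0 := Real.log (10 ^ 9 * (2 * S + 1) ^ 2) with hc0
  have h0 : 0 ≤ c0 := Real.log_nonneg (by nlinarith)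
  obtain ⟨k, hk⟩ := exists_nat_gt (C * c0 + 4 * C + 1)
  have hk1 : (1 : ℝ) ≤ k := by nlinarith [mul_nonneg hC h0]
  have hk2 : 1 ≤ k := by exact_mod_cast hk1
  refine ⟨k ^ 2, Nat.one_le_pow _ _ hk2, ?_⟩
  push_cast
  have hkk : (1 : ℝ) ≤ (k : ℝ) ^ 2 := by nlinarith
  have e1 : Real.log (10 ^ 9 * (S * (2 * (k : ℝ) ^ 2) + 1) ^ 2) ≤ c0 + 4 * k := by
    have a1 : (10 : ℝ) ^ 9 * (S * (2 * (k : ℝ) ^ 2) + 1) ^ 2 ≤
        10 ^ 9 * (2 * S + 1) ^ 2 * (k : ℝ) ^ 4 := by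
      have : S * (2 * (k : ℝ) ^ 2) + 1 ≤ (2 * S + 1) * (k : ℝ) ^ 2 := by nlinarith
      calc (10 : ℝ) ^ 9 * (S * (2 * (k : ℝ) ^ 2) + 1) ^ 2
          ≤ 10 ^ 9 * ((2 * S + 1) * (k : ℝ) ^ 2) ^ 2 := by gcongr
        _ = _ := by ring
    refine (Real.log_le_log (by positivity) a1).trans ?_
    rw [Real.log_mul (by positivity) (by positivity), Real.log_pow]
    have := Real.log_le_sub_one_of_pos (show (0 : ℝ) < k by linarith)
    push_cast
    linarith
  have e2 := mul_le_mul_of_nonneg_left e1 hC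
  nlinarith [mul_nonneg hC h0]

theorem log_num1 : (1 : ℝ) / 200 ≤ Real.log (499 / 100) - Real.log 24 / 2 := by
  have h := Real.one_sub_inv_le_log_of_pos (show (0 : ℝ) < (499 / 100) ^ 2 / 24 by norm_num)
  rw [Real.log_div (by norm_num) (by norm_num), Real.log_pow] at h
  norm_num at h ⊢
  linarith

theorem log_num2 : (1 : ℝ) / 100 ≤ 2 * Real.log (499 / 100) - Real.log 5 - Real.log 24 / 2 := by
  have h := Real.one_sub_inv_le_log_of_pos
    (show (0 : ℝ) < (499 / 100) ^ 4 / (5 ^ 2 * 24) by norm_num)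
  rw [Real.log_div (by norm_num) (by norm_num), Real.log_pow,
    Real.log_mul (by norm_num) (by norm_num), Real.log_pow] at h
  norm_num at h ⊢
  linarith

theorem main : ∃ (G : Type) (_ : Group G), (∀ g : G, IsOfFinOrder g → g = 1) ∧
    ∃ α β : MonoidAlgebra (ZMod 2) G, α ≠ 0 ∧ β ≠ 0 ∧ α * β = 0 := by
  obtain ⟨K, hK⟩ := asph_of_LS (1 / 200000) (by norm_num)
  obtain ⟨κ, hκ⟩ := LS_of_Q (2 * K)
  set S := 2 * K with hS
  have hS0 : (0 : ℝ) ≤ S := Nat.cast_nonneg S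
  have hκ0 : (0 : ℝ) ≤ κ := Nat.cast_nonneg κ
  obtain ⟨h, h1, hh⟩ := exists_h (1 + 10000 * (S * (S + κ + 1))) (by positivity) S
  set Λ : ℝ := 10 ^ 9 * (S * (2 * h) + 1) ^ 2 with hΛ
  have hh1 : (1 : ℝ) ≤ h := by exact_mod_cast h1
  have hSh : (0 : ℝ) ≤ S * (2 * h) := by positivity
  have hΛ1 : 1 ≤ Λ := by nlinarith
  have hl0 : 0 ≤ Real.log Λ := Real.log_nonneg hΛ1
  have hl1 : Real.log Λ ≤ h := by
    have : 0 ≤ 10000 * ((S : ℝ) * (S + κ + 1)) * Real.log Λ := by positivity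
    nlinarith
  have hΛ2 : Λ ≤ 6 ^ (4 * h + 2) := by
    rw [← Real.log_le_log_iff (by linarith) (by positivity), Real.log_pow]
    have : (1 : ℝ) ≤ Real.log 6 := by
      rw [Real.le_log_iff_exp_le (by norm_num)]
      linarith [Real.exp_one_lt_d9]
    push_cast
    nlinarith
  obtain ⟨P, V, I, _, _, Ds, e1, e2, e3, hD⟩ := exists_design (100 * 6 ^ (4 * h + 2))
  have hN : (0 : ℝ) < 6 ^ (4 * h + 2) := by positivity
  have f1 : (Ds.np : ℝ) = 200 * 6 ^ (4 * h + 2) + 1 := by rw [e1]; push_cast; ring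
  have f2 : (Ds.mp : ℝ) = 5 * Ds.np := by rw [e2, f1]; push_cast; ring
  have f3 : (Ds.mm : ℝ) = 1000 * 6 ^ (4 * h + 2) := by rw [e3]; push_cast; ring
  have hnp : (0 : ℝ) < Ds.np := by rw [f1]; positivity
  obtain ⟨T, hF, hG, hQ⟩ := exists_Q Ds (4 * h) S (2 * h) κ (499 / 100 * Ds.np) Λ
    (by positivity) (by rw [f3, f1]; push_cast; nlinarith) (by rw [hΛ]; push_cast; rfl)
  have lm : Real.log (499 / 100 * Ds.np) = Real.log (499 / 100) + Real.log Ds.np :=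
    Real.log_mul (by norm_num) hnp.ne'
  have lp : Real.log Ds.mp = Real.log 5 + Real.log Ds.np := by
    rw [f2, Real.log_mul (by norm_num) hnp.ne']
  have hLS := hκ Ds T (4 * h) (2 * h) _ Λ _ (1 / 200) hF hG (by omega) hQ (by positivity) hΛ1
    (by rw [f1]; linarith) (by rw [lm]; linarith [log_num1])
    (by rw [lm, lp]; linarith [log_num2])
  have hmp : Real.log Ds.mp ≤ 50 * h := by
    have a1 : (Ds.mp : ℝ) ≤ 6 ^ (4 * h + 6) := by
      rw [f2, f1, show 4 * h + 6 = 4 * h + 2 + 4 by ring, pow_add _ _ 4]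
      have : (1 : ℝ) ≤ 6 ^ (4 * h + 2) := one_le_pow₀ (by norm_num)
      nlinarith
    refine (Real.log_le_log (by rw [f2]; positivity) a1).trans ?_
    rw [Real.log_pow]
    have := Real.log_le_sub_one_of_pos (show (0 : ℝ) < 6 by norm_num)
    have := Real.log_nonneg (show (1 : ℝ) ≤ 6 by norm_num)
    push_cast
    nlinarith
  have hA := hK T (4 * h) h _ _ _ hG h1 le_rfl hLS (Real.log_natCast_nonneg _) (by positivity) (by
    have : 0 ≤ ((S : ℝ) * (S + κ + 1)) * Real.log Λ := by positivity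
    nlinarith)
  obtain ⟨G, _, x, γ, k1, k2, k3, k4⟩ := torsionFree_of_asph T hA
  exact ⟨G, inferInstance, k3, hD T hF G x γ k1 k2 k4⟩

end Vale.Agent.P201
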