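import Vale.Agent.P201.Basic

namespace Vale.Agent.P201
open Vale.Agent.P186 Equiv

/-- the adjacency graph of connected cells of a simply connected map has no `K_7` minor -/
theorem noK7_of_SC {D ι : Type} [Finite D] (φ ε : Perm D) (hε : ∀ d, ε (ε d) = d) (h : SC φ ε)
    (key : D → ι) (hs : Function.Surjective key) (hk : ∀ d, key (ε d) = key d)
    (hc : ∀ d d', key d = key d' →
      Relation.EqvGen (fun a b => key a = key b ∧ (b = φ a ∨ b = ε a)) d d') :
    NoK7 (SimpleGraph.fromRel fun u v => ∃ d, key d = u ∧ key (φ d) = v) := by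
  sorry

end Vale.Agent.P201
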