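import Vale.Agent.P201.Chain

set_option linter.unusedSimpArgs false

namespace Vale.Agent.P201
open Vale.Agent.P186 Equiv

theorem exists_kappa {G : Type} [Group G] (g : G) :
    ∃ κ : G → ZMod (orderOf g), ∀ x, κ (g * x) = κ x + 1 := by
  let s := QuotientGroup.rightRel (Subgroup.zpowers g)
  let r : G → G := fun x => (Quotient.mk s x).out
  have h1 : ∀ x, ∃ k : ℤ, g ^ k = x * (r x)⁻¹ := fun x =>
    Subgroup.mem_zpowers_iff.1 (QuotientGroup.rightRel_apply.1 (Quotient.mk_out (s := s) x))
  have h2 : ∀ x, r (g * x) = r x := by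
    intro x
    have : Quotient.mk s (g * x) = Quotient.mk s x := by
      refine (Quotient.sound (QuotientGroup.rightRel_apply.2 ?_)).symm
      simp
    simp only [r, this]
  choose k hk using h1
  refine ⟨fun x => (k x : ZMod (orderOf g)), fun x => ?_⟩
  have : g ^ k (g * x) = g ^ (k x + 1) := by
    rw [hk, h2, add_comm, zpow_add, hk, zpow_one, mul_assoc]
  have := (ZMod.intCast_eq_intCast_iff _ _ _).2 (zpow_eq_zpow_iff_modEq.1 this)
  simpa using this

variable {A W G : Type} {T : TG A W} [Group G]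

/-- sum of a function on edges along the path from `x` with label `w` -/
def ps (ev : A → G) (η : G → A → ℤ) : G → List A → ℤ
  | _, [] => 0
  | x, a :: w => η x a + ps ev η (x * ev a) w

variable {ev : A → G} {γ : W → G} {η : G → A → ℤ}

theorem ps_append (x : G) (u v : List A) :
    ps ev η x (u ++ v) = ps ev η x u + ps ev η (x * (u.map ev).prod) v := by
  induction u generalizing x with
  | nil => simp [ps]
  | cons a u ih => simp [ps, ih, mul_assoc, add_assoc]

theorem ps_mul (g : G) (h : ∀ x a, η (g * x) a = η x a) (x : G) (u : List A) :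
    ps ev η (g * x) u = ps ev η x u := by
  induction u generalizing x with
  | nil => simp [ps]
  | cons a u ih => simp only [ps, h, mul_assoc, ih]

theorem ps_cast {n : ℕ} (κ : G → ZMod n) (h : ∀ x a, (η x a : ZMod n) = κ (x * ev a) - κ x)
    (x : G) (u : List A) : (ps ev η x u : ZMod n) = κ (x * (u.map ev).prod) - κ x := by
  induction u generalizing x with
  | nil => simp [ps]
  | cons a u ih => simp [ps, h, ih, mul_assoc]

theorem ps_out {D : Type} (φ : D → D) (lab : D → A) (ψ : D → G)
    (h : ∀ d, ψ (φ d) = ψ d * ev (lab d)) (t : List D) (a z : D)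
    (e : (a :: t).map φ = t ++ [z]) :
    ((a :: t).map fun d => η (ψ d) (lab d)).sum = ps ev η (ψ a) ((a :: t).map lab) := by
  induction t generalizing a with
  | nil => simp [ps]
  | cons b t ih =>
    simp only [List.map_cons, List.cons_append, List.cons.injEq] at e
    have := ih b (by simpa using e.2)
    rw [List.map_cons, List.sum_cons, this, ← e.1, h]
    simp [ps]

theorem stokes (hγ : ∀ v a, T.L v a → γ (T.nx v a) = γ v * ev a)
    (hη : ∀ x a, η (x * ev a) (T.bar a) = -η x a) (sp : G → W → ℤ) {w : List A} (M : VK T w)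
    (ψ : M.D → G) (hψ : Integ ev M ψ) (x0 : G) (hb : ∀ d, M.out.head? = some d → ψ d = x0) :
    ∑ᶠ d, wt γ (fun c v a => sp c v + η (c * γ v) a - sp c (T.nx v a)) M ψ d = -ps ev η x0 w := by
  classical
  have := Fintype.ofFinite M.D
  let S : M.D → ℤ := fun d => if d ∈ M.out then 0 else sp (ψ d * (γ (M.ρ d))⁻¹) (M.ρ d)
  let E : M.D → ℤ := fun d => η (ψ d) (M.lab d)
  have h1 : ∀ d, wt γ (fun c v a => sp c v + η (c * γ v) a - sp c (T.nx v a)) M ψ d =
      S d - S (M.φ d) + E d - if d ∈ M.out.toFinset then E d else 0 := by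
    intro d
    by_cases hd : d ∈ M.out
    · simp [wt, S, hd, M.φ_mem]
    · simp only [wt, S, E, hd, M.φ_mem, if_false, List.mem_toFinset, M.inNx d hd, (hψ d).1,
        hγ _ _ (M.inL d hd)]
      simp
      ring
  have h2 : ∑ d, E d = 0 := by
    have a : ∑ d, E (M.ε d) = ∑ d, E d := Equiv.sum_comp M.ε E
    have b : ∀ d, E (M.ε d) = -E d := fun d => by
      simp only [E, (hψ d).2, M.lab_ε, hη]
    simp only [b, Finset.sum_neg_distrib] at a
    omega
  rw [finsum_eq_sum_of_fintype]
  simp only [h1, Finset.sum_sub_distrib, Finset.sum_add_distrib, Equiv.sum_comp M.φ S, h2,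
    Finset.sum_ite_mem, Finset.univ_inter, List.sum_toFinset E M.nodup]
  simp only [sub_self, add_zero, zero_sub, neg_inj]
  conv_rhs => rw [← M.out_lab]
  cases h : M.out with
  | nil => simp [ps]
  | cons a t =>
    have e := M.out_φ
    rw [h, List.rotate_cons_succ, List.rotate_zero] at e
    rw [← hb a (by simp [h])]
    exact ps_out M.φ M.lab ψ (fun d => (hψ d).1) t a a e

theorem torsionFree_core (hev : ∀ a, ev (T.bar a) = (ev a)⁻¹)
    (hγ : ∀ v a, T.L v a → γ (T.nx v a) = γ v * ev a)
    (hA : ∀ M : VK T [], M.Reduced → IsEmpty M.D) (hs : ∀ g : G, ∃ w : List A, (w.map ev).prod = g)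
    (hvk : ∀ w : List A, (w.map ev).prod = 1 → Nonempty (VK T w)) (g : G) (hg : IsOfFinOrder g) :
    g = 1 := by
  classical
  by_contra hne
  obtain ⟨κ, hκ⟩ := exists_kappa g
  obtain ⟨w, hw⟩ := hs g
  have hpos := hg.orderOf_pos
  have hpow := pow_orderOf_eq_one g
  have hn1 : orderOf g ≠ 1 := fun h => hne (orderOf_eq_one_iff.1 h)
  generalize orderOf g = n at κ hκ hpos hpow hn1
  obtain ⟨m, rfl⟩ : ∃ m, n = m + 1 := ⟨n - 1, by omega⟩
  have : Fact (1 < m + 1) := ⟨by omega⟩
  have hw0 : w ≠ [] := by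
    rintro rfl
    exact hne hw.symm
  have hprod : ∀ k, (((List.replicate k w).flatten).map ev).prod = g ^ k := by
    intro k
    induction k with
    | zero => simp
    | succ k ih => rw [List.replicate_succ, List.flatten_cons, List.map_append, List.prod_append,
        ih, hw, pow_succ']
  set U := (List.replicate (m + 1) w).flatten with hU
  have hU1 : U = w ++ (List.replicate m w).flatten := by rw [hU, List.replicate_succ]; rfl
  have hU2 : U = (List.replicate m w).flatten ++ w := by rw [hU, List.replicate_succ']; simp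
  have hU0 : U ≠ [] := by rw [hU1]; simp [hw0]
  have hUp : (U.map ev).prod = 1 := by rw [hU, hprod, hpow]
  obtain ⟨M⟩ := hvk U hUp
  obtain ⟨M'⟩ := hvk (winv T U) (by rw [prod_winv hev, hUp, inv_one])
  obtain ⟨ψ, hψ, hb⟩ := exists_integ hev hγ M 1
  have inv : ∀ Ω : G → W → A → ℤ, (∀ c v a, T.L v a → Ω c (T.nx v a) (T.bar a) = -Ω c v a) →
      ∑ᶠ d, wt γ Ω M ψ d = ∑ᶠ d, wt γ Ω M (fun d => g * ψ d) d := by
    intro Ω hΩ
    have c1 : Ch T ev γ Ω 1 U _ := ⟨M, ψ, hψ, hb, rfl⟩
    have c2 : Ch T ev γ Ω g U _ := ⟨M, fun d => g * ψ d,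
      fun d => by simp only [(hψ d).1, (hψ d).2, mul_assoc, and_self],
      fun d hd => by simp only [hb d hd, mul_one], rfl⟩
    generalize ∑ᶠ d, wt γ Ω M ψ d = z1 at c1
    have c3 : Ch T ev γ Ω 1 (w ++ (List.replicate m w).flatten) z1 := hU1 ▸ c1
    have c4 := c3.rot
    rw [one_mul, hw, ← hU2] at c4
    exact Ch.unique hev hγ hΩ hA hU0 M' c4 c2
  let pos : A → Prop := fun a => WellOrderingRel a (T.bar a)
  have hp : ∀ a, pos (T.bar a) ↔ ¬ pos a := by
    intro a
    simp only [pos, T.bar_bar]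
    constructor
    · exact fun h h' => asymm h h'
    · intro h
      rcases trichotomous_of WellOrderingRel a (T.bar a) with h' | h' | h'
      · exact absurd h' h
      · exact absurd h'.symm (T.bar_ne a)
      · exact h'
  let η : G → A → ℤ := fun x a =>
    if pos a then ((κ (x * ev a) - κ x).val : ℤ) else -((κ x - κ (x * ev a)).val : ℤ)
  let sp : G → W → ℤ := fun c v => ((κ (c * γ v) - κ c).val : ℤ)
  let δ : G → W → A → ℤ := fun c v a => sp c v + η (c * γ v) a - sp c (T.nx v a)
  have η1 : ∀ x a, η (x * ev a) (T.bar a) = -η x a := by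
    intro x a
    by_cases h : pos a <;> simp [η, hp, h, hev]
  have η2 : ∀ x a, (η x a : ZMod (m + 1)) = κ (x * ev a) - κ x := by
    intro x a
    by_cases h : pos a <;> simp [η, h]
  have η3 : ∀ x a, η (g * x) a = η x a := by
    intro x a
    simp [η, mul_assoc, hκ]
  have δ1 : ∀ c v a, T.L v a → δ c (T.nx v a) (T.bar a) = -δ c v a := by
    intro c v a h
    simp only [δ, T.nx_nx _ _ h, hγ _ _ h, ← mul_assoc, η1]
    ring
  have δ2 : ∀ c v a, T.L v a → (δ c v a : ZMod (m + 1)) = 0 := by
    intro c v a h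
    simp [δ, sp, η2, hγ _ _ h, mul_assoc]
  have δ3 : ∀ c v a, δ (g * c) v a = δ c v a := by
    intro c v a
    simp [δ, sp, mul_assoc, η3, hκ]
  let V : ZMod (m + 1) → ℤ := fun i =>
    ∑ᶠ d, wt γ (fun c v a => if κ c = i then δ c v a else 0) M ψ d
  have V1 : ∀ i, V (i + 1) = V i := by
    intro i
    simp only [V]
    rw [inv]
    · congr 1
      funext d
      simp only [wt, mul_assoc, hκ, δ3, add_left_inj]
    · intro c v a h
      split_ifs
      · exact δ1 c v a h
      · simp
  have V2 : ∀ i, V i = V 0 := by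
    intro i
    obtain ⟨k, rfl⟩ := ZMod.natCast_zmod_surjective i
    induction k with
    | zero => simp
    | succ k ih => rw [Nat.cast_succ, V1, ih]
  have := Fintype.ofFinite M.D
  have V3 : ∑ i, V i = ∑ᶠ d, wt γ δ M ψ d := by
    simp only [V, finsum_eq_sum_of_fintype]
    rw [Finset.sum_comm]
    refine Finset.sum_congr rfl fun d _ => ?_
    by_cases hd : d ∈ M.out <;> simp [wt, hd]
  have V4 : (V 0 : ZMod (m + 1)) = 0 := by
    simp only [V, finsum_eq_sum_of_fintype, Int.cast_sum]
    refine Finset.sum_eq_zero fun d _ => ?_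
    by_cases hd : d ∈ M.out
    · simp [wt, hd]
    · simp only [wt, if_neg hd]
      split_ifs
      · exact δ2 _ _ _ (M.inL d hd)
      · simp
  have P1 : ∀ k, ps ev η 1 (List.replicate k w).flatten = k * ps ev η 1 w := by
    intro k
    induction k with
    | zero => simp [ps]
    | succ k ih =>
      rw [List.replicate_succ, List.flatten_cons, ps_append, hw, one_mul, ← mul_one g,
        ps_mul g η3, ih]
      push_cast
      ring
  have P2 : (ps ev η 1 w : ZMod (m + 1)) = 1 := by
    rw [ps_cast κ η2, hw, one_mul, ← mul_one g, hκ]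
    ring
  have e := stokes hγ η1 sp M ψ hψ 1 hb
  rw [← V3, hU, P1] at e
  simp only [V2, Finset.sum_const, Finset.card_univ, ZMod.card, nsmul_eq_mul] at e
  have e' : V 0 = -ps ev η 1 w := by
    apply mul_left_cancel₀ (a := ((m + 1 : ℕ) : ℤ)) (by positivity)
    rw [e]; ring
  rw [e'] at V4
  simp [P2] at V4

end Vale.Agent.P201
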