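import Vale.Agent.P201.Basic
import Vale.Agent.P201.Tors

namespace Vale.Agent.P201
open Vale.Agent.P186

/-- the cone over a labelled graph, with one new label for each vertex -/
def cone {P V : Type} (T : TG P V) : TG (P ⊕ (V × Bool)) (Option V) where
  bar := Sum.map T.bar (fun p => (p.1, !p.2))
  L := fun v l => match v, l with
    | some a, .inl s => T.L a s
    | some a, .inr (a', b) => a' = a ∧ b = false
    | none, .inl _ => False
    | none, .inr (_, b) => b = true
  nx := fun v l => match v, l with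
    | some a, .inl s => some (T.nx a s)
    | none, .inl _ => none
    | _, .inr (a, true) => some a
    | _, .inr (_, false) => none
  bar_bar := by rintro (s | ⟨a, b⟩) <;> simp [T.bar_bar]
  bar_ne := by rintro (s | ⟨a, b⟩) <;> simp [T.bar_ne]
  L_nx := by
    rintro (_ | v) (s | ⟨a, _ | _⟩) h <;> simp_all [T.L_nx]
  nx_nx := by
    rintro (_ | v) (s | ⟨a, _ | _⟩) h <;> simp_all [T.nx_nx]

theorem cone_asph {P V : Type} (T : TG P V) (h : Asph T) (M : VK (cone T) []) (hr : M.Reduced) :
    IsEmpty M.D := by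
  have ho : M.out = [] := List.map_eq_nil_iff.1 M.out_lab
  have hn : ∀ d, d ∉ M.out := by simp [ho]
  have h1 : ∀ d a, M.lab d ≠ .inr (a, true) := by
    intro d a e
    have k1 := M.inL _ (hn (M.ε d))
    have k2 := hr.1 d (hn _) (hn _)
    rw [M.lab_ε, e] at k1
    rw [e] at k2
    generalize M.ρ (M.ε d) = u at k1 k2
    generalize M.ρ d = v at k2
    rcases u with _ | u <;> rcases v with _ | v <;> simp_all [cone]
  have h2 : ∀ d, ∃ s, M.lab d = .inl s := by
    intro d
    rcases e : M.lab d with s | ⟨a, _ | _⟩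
    · exact ⟨s, rfl⟩
    · exact absurd (by rw [M.lab_ε, e]; rfl) (h1 (M.ε d) a)
    · exact absurd e (h1 d a)
  choose lab hlab using h2
  have h3 : ∀ d, ∃ a, M.ρ d = some a ∧ T.L a (lab d) := by
    intro d
    have k1 := M.inL _ (hn d)
    rw [hlab] at k1
    rcases e : M.ρ d with _ | a
    · rw [e] at k1; exact k1.elim
    · rw [e] at k1; exact ⟨a, rfl, k1⟩
  choose ρ hρ hL using h3
  refine h ⟨M.D, M.fin, M.φ, M.ε, lab, ρ, M.εε, fun d => ?_, hL, fun d => ?_, M.sc', fun d e => ?_,
    fun d e => ?_⟩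
  · have := M.lab_ε d
    rw [hlab, hlab] at this
    exact Sum.inl_injective this
  · have := M.inNx d (hn d)
    rw [hρ, hρ, hlab] at this
    exact Option.some_injective _ this
  · apply hr.1 d (hn _) (hn _)
    rw [hρ, hρ, hlab, e]; rfl
  · apply hr.2 d (hn _)
    rw [hlab, hlab, e]; rfl

/-- the group of an aspherical labelled graph is torsion-free -/
theorem torsionFree_of_asph {P V : Type} (T : TG P V) (h : Asph T) :
    ∃ (G : Type) (_ : Group G) (x : P → G) (γ : V → G),
      (∀ s, x (T.bar s) = (x s)⁻¹) ∧ (∀ a s, T.L a s → γ (T.nx a s) = γ a * x s) ∧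
      (∀ g : G, IsOfFinOrder g → g = 1) ∧
      ∀ (H : Type) [Group H] (x' : P → H) (γ' : V → H), (∀ s, x' (T.bar s) = (x' s)⁻¹) →
        (∀ a s, T.L a s → γ' (T.nx a s) = γ' a * x' s) →
        ∃ f : G →* H, (∀ s, f (x s) = x' s) ∧ ∀ a, f (γ a) = γ' a := by
  obtain ⟨G, _, ev, hev, hs, htri, hvk⟩ := VK.exists_group (cone T) none
  have ext : ∀ (H : Type) [Group H] (ev' : P ⊕ (V × Bool) → H),
      (∀ a, ev' ((cone T).bar a) = (ev' a)⁻¹) →
      (∀ a s, T.L a s → ev' (.inr (T.nx a s, true)) = ev' (.inr (a, true)) * ev' (.inl s)) →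
      ∀ v a, (cone T).L v a → Option.elim ((cone T).nx v a) 1 (fun a => ev' (.inr (a, true))) =
        Option.elim v 1 (fun a => ev' (.inr (a, true))) * ev' a := by
    intro H _ ev' h1 h2
    rintro (_ | v) (s | ⟨a, _ | _⟩) hL
    · exact hL.elim
    · simp [cone] at hL
    · simp [cone]
    · exact h2 v s hL
    · obtain rfl : a = v := hL.1
      have := h1 (.inr (a, true))
      simp only [cone, Sum.map_inr, Bool.not_true] at this
      simp [cone, this]
    · simp [cone] at hL
  have rel : ∀ a s, T.L a s → ev (.inr (T.nx a s, true)) = ev (.inr (a, true)) * ev (.inl s) := by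
    intro a s hL
    have := htri none (.inr (a, true)) (.inl s) ((cone T).bar (.inr (T.nx a s, true))) rfl hL
      ⟨rfl, rfl⟩ rfl
    rw [hev, mul_inv_eq_one] at this
    exact this.symm
  refine ⟨G, inferInstance, fun s => ev (.inl s), fun a => ev (.inr (a, true)),
    fun s => hev (.inl s), rel, torsionFree_core hev
      (γ := fun v => Option.elim v 1 (fun a => ev (.inr (a, true)))) (ext G ev hev rel)
      (cone_asph T h) hs hvk, ?_⟩
  intro H _ x' γ' h1 h2
  let ev' : P ⊕ (V × Bool) → H := Sum.elim x' (fun p => if p.2 then γ' p.1 else (γ' p.1)⁻¹)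
  have hev' : ∀ a, ev' ((cone T).bar a) = (ev' a)⁻¹ := by
    rintro (s | ⟨a, _ | _⟩) <;> simp [ev', cone, h1]
  have key : ∀ u v : List (P ⊕ (V × Bool)), (u.map ev).prod = (v.map ev).prod →
      (u.map ev').prod = (v.map ev').prod := by
    intro u v e
    obtain ⟨M⟩ := hvk (u ++ winv (cone T) v) (by
      rw [List.map_append, List.prod_append, prod_winv hev, e, mul_inv_cancel])
    have := prod_eq_one hev' (γ := fun v => Option.elim v 1 (fun a => ev' (.inr (a, true))))
      (ext H ev' hev' h2) M
    rwa [List.map_append, List.prod_append, prod_winv hev', mul_inv_eq_one] at this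
  choose wd hwd using hs
  have one : ∀ a, ((wd (ev a)).map ev').prod = ev' a := by
    intro a
    rw [key _ [a] (by simp [hwd])]
    simp
  refine ⟨MonoidHom.mk' (fun g => ((wd g).map ev').prod) fun a b => ?_, fun s => one (.inl s),
    fun a => one (.inr (a, true))⟩
  rw [key _ (wd a ++ wd b) (by simp [hwd])]
  simp

end Vale.Agent.P201
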